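import Vale.Agent.P369.Defs
import Vale.Agent.P371.LogDeriv
import Vale.Agent.P371.Kfam

/-! Finite dimensional objects. `tr` is the real part of the trace, `trf f A = tr (cfc f A)`,
`mlog = cfc log`, `dlog P H` the derivative of `mlog`, `Dens` the density matrices (from P371). -/

open Matrix
open scoped Matrix.Norms.L2Operator ComplexOrder Kronecker

namespace Vale.Agent.P369

export Vale.Agent.P371 (tr trf mlog dlog Dens)

section
variable {ι A B C Q D : Type} [Fintype ι] [DecidableEq ι] [Fintype A] [DecidableEq A]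
  [Fintype B] [DecidableEq B] [Fintype C] [DecidableEq C] [Fintype Q] [DecidableEq Q]
  [Fintype D] [DecidableEq D]

/-- entropy of a matrix -/
noncomputable def Sf (P : Matrix ι ι ℂ) : ℝ := trf Real.negMulLog P

/-- Hilbert-Schmidt inner product -/
noncomputable def ip (X Y : Matrix ι ι ℂ) : ℂ := trace (Xᴴ * Y)

/-- commutator -/
noncomputable def cm (X Y : Matrix ι ι ℂ) : Matrix ι ι ℂ := X * Y - Y * X

/-- inverse temperature -/
noncomputable def bt (N : ℝ) : ℝ := Real.log (1 + 1 / N)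

/-- `a + T [a, log ρ]` -/
noncomputable def Zop (N : ℝ) (ρ a : Matrix ι ι ℂ) : Matrix ι ι ℂ :=
  a + (bt N)⁻¹ • cm a (mlog ρ)

/-- `(N+1) a ρ - N ρ a` -/
noncomputable def wop (N : ℝ) (ρ a : Matrix ι ι ℂ) : Matrix ι ι ℂ :=
  (N + 1) • (a * ρ) - N • (ρ * a)

/-- Heisenberg picture of the channel with Stinespring operator `V` -/
noncomputable def Gam (V : Matrix (C × Q) D ℂ) (G : Matrix C C ℂ) : Matrix D D ℂ :=
  Vᴴ * (G ⊗ₖ (1 : Matrix Q Q ℂ)) * V

/-- Schroedinger picture of the channel with Stinespring operator `V` -/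
noncomputable def out (V : Matrix (C × Q) D ℂ) (X : Matrix D D ℂ) : Matrix C C ℂ :=
  of fun p p' => ∑ q, (V * X * Vᴴ) (p, q) (p', q)

/-- the functional that is minimised -/
noncomputable def Phi (V : Matrix (C × Q) (A × B) ℂ) (R : Matrix C C ℂ) (FA : Matrix A A ℂ)
    (FB : Matrix B B ℂ) (lC lA lB : ℝ) (ρA : Matrix A A ℂ) (ρB : Matrix B B ℂ) : ℝ :=
  lC * Sf (out V (ρA ⊗ₖ ρB) + R) - lA * Sf ρA - lB * Sf ρB + tr (FA * ρA) + tr (FB * ρB)

theorem bt_pos {N : ℝ} (h : 0 < N) : 0 < bt N :=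
  Real.log_pos (by have := one_div_pos.2 h; linarith)

omit [DecidableEq C] [DecidableEq D] in
theorem trace_mul_out (V : Matrix (C × Q) D ℂ) (G : Matrix C C ℂ) (X : Matrix D D ℂ) :
    trace (G * out V X) = trace (Gam V G * X) := by
  have e : trace (Gam V G * X) = trace ((G ⊗ₖ (1 : Matrix Q Q ℂ)) * (V * X * Vᴴ)) := by
    rw [Gam, Matrix.mul_assoc, Matrix.mul_assoc, trace_mul_comm]
    simp only [Matrix.mul_assoc]
  rw [e]
  generalize hY : V * X * Vᴴ = Y
  simp only [out, hY, trace, diag_apply, mul_apply (M := G), mul_apply (N := Y), of_apply,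
    Fintype.sum_prod_type, kroneckerMap_apply, one_apply, mul_ite, mul_one, mul_zero, ite_mul,
    zero_mul, Finset.sum_ite_eq, Finset.mem_univ, if_true, Finset.mul_sum]
  exact Finset.sum_congr rfl fun p _ => Finset.sum_comm

omit [Fintype C] [DecidableEq C] [DecidableEq Q] [DecidableEq D] in
theorem out_add (V : Matrix (C × Q) D ℂ) (X Y : Matrix D D ℂ) :
    out V (X + Y) = out V X + out V Y := by
  ext p p'; simp [out, Matrix.mul_add, Matrix.add_mul, Finset.sum_add_distrib]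

omit [Fintype C] [DecidableEq C] [DecidableEq Q] [DecidableEq D] in
theorem out_smul (V : Matrix (C × Q) D ℂ) (c : ℂ) (X : Matrix D D ℂ) :
    out V (c • X) = c • out V X := by
  ext p p'; simp [out, Finset.mul_sum]

omit [Fintype C] [DecidableEq C] [DecidableEq Q] [DecidableEq D] in
theorem out_ct (V : Matrix (C × Q) D ℂ) (X : Matrix D D ℂ) : out V Xᴴ = (out V X)ᴴ := by
  have e : V * Xᴴ * Vᴴ = (V * X * Vᴴ)ᴴ := by
    simp only [conjTranspose_mul, conjTranspose_conjTranspose, Matrix.mul_assoc]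
  ext p p'; simp [out, e]

omit [DecidableEq C] [DecidableEq Q] [DecidableEq D] in
theorem out_psd (V : Matrix (C × Q) D ℂ) {X : Matrix D D ℂ} (h : X.PosSemidef) :
    (out V X).PosSemidef := by
  have h1 := h.mul_mul_conjTranspose_same V
  have e : out V X = ∑ q, (V * X * Vᴴ).submatrix (fun p => (p, q)) (fun p => (p, q)) := by
    ext p p'; simp [out, Matrix.sum_apply]
  rw [e]
  exact posSemidef_sum _ fun q _ => h1.submatrix _

theorem Gam_one {V : Matrix (C × Q) D ℂ} (hV : Vᴴ * V = 1) : Gam V 1 = 1 := by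
  rw [Gam, one_kronecker_one, Matrix.mul_one, hV]

theorem trace_out {V : Matrix (C × Q) D ℂ} (hV : Vᴴ * V = 1) (X : Matrix D D ℂ) :
    trace (out V X) = trace X := by
  rw [← Matrix.one_mul (out V X), trace_mul_out, Gam_one hV, Matrix.one_mul]

omit [DecidableEq C] [Fintype D] [DecidableEq D] in
theorem Gam_ct (V : Matrix (C × Q) D ℂ) (G : Matrix C C ℂ) : Gam V Gᴴ = (Gam V G)ᴴ := by
  simp only [Gam, conjTranspose_mul, conjTranspose_conjTranspose, conjTranspose_kronecker,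
    conjTranspose_one, Matrix.mul_assoc]

end

/-- truncated occupation numbers -/
abbrev Box (n M : ℕ) : Type := Fin n → Fin (M + 1)

/-- the occupation numbers of an element of the box -/
def val {n M : ℕ} (k : Box n M) : Idx n := fun j => (k j : ℕ)

/-- total photon number -/
def tot {n : ℕ} (k : Idx n) : ℕ := ∑ j, k j

/-- unit vector -/
def ee {n : ℕ} (j : Fin n) : Idx n := Pi.single j 1

/-- truncated annihilation operator -/
noncomputable def ann (n M : ℕ) (j : Fin n) : Matrix (Box n M) (Box n M) ℂ :=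
  of fun k l => if val l = val k + ee j then (Real.sqrt (val l j) : ℂ) else 0

/-- real diagonal matrix on a box -/
noncomputable def dg {n : ℕ} (M : ℕ) (f : Idx n → ℝ) : Matrix (Box n M) (Box n M) ℂ :=
  diagonal fun k => (f (val k) : ℂ)

/-- restriction of a kernel to a box -/
def res {n : ℕ} (M : ℕ) (K : Idx n → Idx n → ℂ) : Matrix (Box n M) (Box n M) ℂ :=
  of fun k l => K (val k) (val l)

/-- thermal weights -/
noncomputable def thw (n : ℕ) (N : ℝ) (k : Idx n) : ℝ := ((N + 1)⁻¹) ^ n * (N / (N + 1)) ^ tot k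

/-- penalty -/
noncomputable def pen (N : ℝ) (k : ℕ) : ℝ := ∑ i ∈ Finset.range k, ((N + 1) / N) ^ i / (i + 1)

/-- the matrix elements `u z y = ⟨z, U y⟩` of a beam splitter -/
structure BS {n : ℕ} (s t : ℝ) (u : Idx n × Idx n → Idx n × Idx n → ℂ) : Prop where
  vac : u (0, 0) (0, 0) = 1
  cons : ∀ z y, u z y ≠ 0 → z.1 + z.2 = y.1 + y.2
  orth : ∀ y y', HasSum (fun z => star (u z y) * u z y') (if y = y' then 1 else 0)
  orth' : ∀ z z', HasSum (fun y => u z y * star (u z' y)) (if z = z' then 1 else 0)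
  lowA : ∀ j z y, (Real.sqrt (z.1 j + 1) : ℂ) * u (z.1 + ee j, z.2) y =
    s * (Real.sqrt (y.1 j) : ℂ) * u z (y.1 - ee j, y.2) +
      t * (Real.sqrt (y.2 j) : ℂ) * u z (y.1, y.2 - ee j)
  lowB : ∀ j z y, (Real.sqrt (z.2 j + 1) : ℂ) * u (z.1, z.2 + ee j) y =
    -t * (Real.sqrt (y.1 j) : ℂ) * u z (y.1 - ee j, y.2) +
      s * (Real.sqrt (y.2 j) : ℂ) * u z (y.1, y.2 - ee j)
  upA : ∀ j z y, (Real.sqrt (z.1 j) : ℂ) * u (z.1 - ee j, z.2) y =
    s * (Real.sqrt (y.1 j + 1) : ℂ) * u z (y.1 + ee j, y.2) +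
      t * (Real.sqrt (y.2 j + 1) : ℂ) * u z (y.1, y.2 + ee j)
  upB : ∀ j z y, (Real.sqrt (z.2 j) : ℂ) * u (z.1, z.2 - ee j) y =
    -t * (Real.sqrt (y.1 j + 1) : ℂ) * u z (y.1 + ee j, y.2) +
      s * (Real.sqrt (y.2 j + 1) : ℂ) * u z (y.1, y.2 + ee j)

/-- the truncated beam splitter -/
def Vm {n : ℕ} (u : Idx n × Idx n → Idx n × Idx n → ℂ) (M : ℕ) :
    Matrix (Box n (2 * M) × Box n (2 * M)) (Box n M × Box n M) ℂ :=
  of fun z y => u (val z.1, val z.2) (val y.1, val y.2)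

/-- projector onto the basis vectors that are not on the top level of mode `j` -/
noncomputable def Pin (n M : ℕ) (j : Fin n) :
    Matrix (Box n M × Box n M) (Box n M × Box n M) ℂ :=
  diagonal fun y => if val y.1 j < M ∧ val y.2 j < M then 1 else 0

/-- the commutation relations of one mode, away from the boundary -/
structure Rel {A B C Q : Type} [Fintype A] [DecidableEq A] [Fintype B] [DecidableEq B]
    [Fintype C] [DecidableEq C] [Fintype Q] [DecidableEq Q] (s t : ℝ)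
    (V : Matrix (C × Q) (A × B) ℂ) (a : Matrix A A ℂ) (b : Matrix B B ℂ) (c : Matrix C C ℂ)
    (d : Matrix Q Q ℂ) (P : Matrix (A × B) (A × B) ℂ) : Prop where
  iso : Vᴴ * V = 1
  v1 : (c ⊗ₖ (1 : Matrix Q Q ℂ)) * V =
    V * (s • (a ⊗ₖ (1 : Matrix B B ℂ)) + t • ((1 : Matrix A A ℂ) ⊗ₖ b))
  v2 : ((1 : Matrix C C ℂ) ⊗ₖ d) * V =
    V * ((-t) • (a ⊗ₖ (1 : Matrix B B ℂ)) + s • ((1 : Matrix A A ℂ) ⊗ₖ b))
  v3 : (cᴴ ⊗ₖ (1 : Matrix Q Q ℂ)) * V * P =
    V * (s • (aᴴ ⊗ₖ (1 : Matrix B B ℂ)) + t • ((1 : Matrix A A ℂ) ⊗ₖ bᴴ)) * P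
  v4 : ((1 : Matrix C C ℂ) ⊗ₖ dᴴ) * V * P =
    V * ((-t) • (aᴴ ⊗ₖ (1 : Matrix B B ℂ)) + s • ((1 : Matrix A A ℂ) ⊗ₖ bᴴ)) * P
  pH : Pᴴ = P
  pI : P * P = P
  pa : (1 - P) * (a ⊗ₖ (1 : Matrix B B ℂ)) * P = 0
  pb : (1 - P) * ((1 : Matrix A A ℂ) ⊗ₖ b) * P = 0

theorem val_inj {n M : ℕ} : Function.Injective (val : Box n M → Idx n) := fun _ _ h =>
  funext fun j => Fin.ext (congrFun h j)

theorem val_le {n M : ℕ} (k : Box n M) (j : Fin n) : val k j ≤ M := Nat.lt_succ_iff.1 (k j).2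

theorem exists_val {n M : ℕ} {x : Idx n} (h : ∀ j, x j ≤ M) : ∃ k : Box n M, val k = x :=
  ⟨fun j => ⟨x j, Nat.lt_succ_iff.2 (h j)⟩, rfl⟩

/-- sums over a box of a family supported in the box -/
theorem hasSum_box {n M : ℕ} {E : Type} [AddCommMonoid E] [TopologicalSpace E] {F : Idx n → E}
    (h : ∀ x, F x ≠ 0 → ∀ j, x j ≤ M) : HasSum F (∑ k : Box n M, F (val k)) := by
  refine (val_inj.hasSum_iff fun x hx => ?_).1 (hasSum_fintype _)
  by_contra hc
  exact hx (exists_val (h x hc))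

/-- sums over a product of boxes -/
theorem hasSum_box₂ {n M : ℕ} {E : Type} [AddCommMonoid E] [TopologicalSpace E]
    {F : Idx n × Idx n → E} (h : ∀ x, F x ≠ 0 → ∀ j, x.1 j ≤ M ∧ x.2 j ≤ M) :
    HasSum F (∑ k : Box n M × Box n M, F (val k.1, val k.2)) := by
  have hi : Function.Injective (Prod.map val val : Box n M × Box n M → Idx n × Idx n) :=
    val_inj.prodMap val_inj
  refine (hi.hasSum_iff fun x hx => ?_).1 (hasSum_fintype _)
  by_contra hc
  obtain ⟨k, hk⟩ := exists_val fun j => (h x hc j).1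
  obtain ⟨l, hl⟩ := exists_val fun j => (h x hc j).2
  exact hx ⟨(k, l), Prod.ext hk hl⟩

end Vale.Agent.P369
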