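import Vale.Agent.P369.Basic

open Matrix
open scoped Matrix.Norms.L2Operator ComplexOrder Kronecker

namespace Vale.Agent.P369

variable {n M : ℕ}

namespace BoxRel

theorem ee_self (j : Fin n) : ee j j = 1 := by simp [ee]

theorem ee_ne {i j : Fin n} (h : i ≠ j) : ee j i = 0 := by simp [ee, h]

theorem add_ee (j : Fin n) (x : Idx n) : (x + ee j) j = x j + 1 := by
  rw [Pi.add_apply, ee_self]

theorem sub_add_ee {j : Fin n} {x : Idx n} (h : x j ≠ 0) : x - ee j + ee j = x := by
  funext i
  simp only [Pi.add_apply, Pi.sub_apply]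
  by_cases hi : i = j
  · subst hi; rw [ee_self]; omega
  · rw [ee_ne hi]; omega

theorem exists_up (j : Fin n) {k : Box n M} (h : val k j ≠ M) :
    ∃ k' : Box n M, val k' = val k + ee j := by
  refine exists_val fun i => ?_
  have h1 := val_le k i
  by_cases hi : i = j
  · subst hi; rw [add_ee]; omega
  · rw [Pi.add_apply, ee_ne hi]; omega

theorem exists_down (j : Fin n) (k : Box n M) : ∃ k' : Box n M, val k' = val k - ee j :=
  exists_val fun i => (Nat.sub_le _ _).trans (val_le k i)

theorem ann_apply (j : Fin n) (k l : Box n M) :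
    ann n M j k l = if val l = val k + ee j then (Real.sqrt (val l j) : ℂ) else 0 := rfl

theorem dg_mul (f g : Idx n → ℝ) : dg M f * dg M g = dg M fun k => f k * g k := by
  simp only [dg, diagonal_mul_diagonal, Complex.ofReal_mul]

theorem dg_sub (f g : Idx n → ℝ) : dg M f - dg M g = dg M fun k => f k - g k := by
  simp only [dg, diagonal_sub, Complex.ofReal_sub]

theorem smul_dg (c : ℝ) (f : Idx n → ℝ) : c • dg M f = dg M fun k => c * f k := by
  ext k l
  simp only [dg, Matrix.smul_apply, diagonal_apply]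
  split_ifs
  · simp
  · simp

theorem dg_const (c : ℝ) : dg M (fun _ : Idx n => c) = c • (1 : Matrix (Box n M) (Box n M) ℂ) := by
  ext k l
  simp only [dg, Matrix.smul_apply, diagonal_apply, one_apply]
  split_ifs
  · simp
  · simp

theorem diag_nonneg {ι : Type} [Fintype ι] {ρ : Matrix ι ι ℂ} (h : ρ ∈ Dens ι) (k : ι) :
    0 ≤ (ρ k k).re := (Complex.nonneg_iff.1 (h.1.diag_nonneg (i := k))).1

theorem diag_im {ι : Type} [Fintype ι] {ρ : Matrix ι ι ℂ} (h : ρ ∈ Dens ι) (k : ι) :
    (ρ k k).im = 0 := (Complex.nonneg_iff.1 (h.1.diag_nonneg (i := k))).2.symm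

theorem diag_sum {ι : Type} [Fintype ι] {ρ : Matrix ι ι ℂ} (h : ρ ∈ Dens ι) :
    ∑ k, (ρ k k).re = 1 := by
  have h1 := congrArg Complex.re h.2
  rw [trace, Complex.re_sum] at h1
  exact h1

end BoxRel

open BoxRel

theorem tr_dg (f : Idx n → ℝ) (ρ : Matrix (Box n M) (Box n M) ℂ) :
    tr (dg M f * ρ) = ∑ k, f (val k) * (ρ k k).re := by
  simp only [P371.tr, trace, diag_apply, dg, diagonal_mul, Complex.re_sum, Complex.re_ofReal_mul]

theorem dg_herm (f : Idx n → ℝ) : (dg M f).IsHermitian := by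
  rw [dg, isHermitian_diagonal_iff]
  intro k
  exact Complex.conj_ofReal _

/-- entries of `a X` -/
theorem ann_mul_apply (j : Fin n) {E : Type} (X : Matrix (Box n M) E ℂ) {k k' : Box n M}
    (h : val k' = val k + ee j) (l : E) :
    (ann n M j * X) k l = (Real.sqrt (val k j + 1) : ℂ) * X k' l := by
  rw [mul_apply, Finset.sum_eq_single k']
  · rw [ann_apply, if_pos h, h, add_ee, Nat.cast_add, Nat.cast_one]
  · intro m _ hm
    rw [ann_apply, if_neg (fun e => hm (val_inj (e.trans h.symm))), zero_mul]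
  · intro hk; exact absurd (Finset.mem_univ _) hk

theorem ann_mul_apply_top (j : Fin n) {E : Type} (X : Matrix (Box n M) E ℂ) {k : Box n M}
    (h : val k j = M) (l : E) : (ann n M j * X) k l = 0 := by
  rw [mul_apply]
  refine Finset.sum_eq_zero fun m _ => ?_
  rw [ann_apply, if_neg, zero_mul]
  intro e
  have h1 := val_le m j
  rw [e, add_ee] at h1
  omega

/-- entries of `X a` -/
theorem mul_ann_apply (j : Fin n) {E : Type} (X : Matrix E (Box n M) ℂ) (k : E) {l l' : Box n M}
    (h : val l' = val l - ee j) :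
    (X * ann n M j) k l = (Real.sqrt (val l j) : ℂ) * X k l' := by
  rw [mul_apply]
  by_cases h0 : val l j = 0
  · rw [h0]
    simp only [Nat.cast_zero, Real.sqrt_zero, Complex.ofReal_zero, zero_mul]
    refine Finset.sum_eq_zero fun m _ => ?_
    rw [ann_apply, if_neg, mul_zero]
    intro e
    rw [e, add_ee] at h0
    omega
  · have h1 : val l = val l' + ee j := by rw [h, sub_add_ee h0]
    rw [Finset.sum_eq_single l']
    · rw [ann_apply, if_pos h1, mul_comm]
    · intro m _ hm
      rw [ann_apply, if_neg (fun e => hm (val_inj (add_right_cancel (e.symm.trans h1)))), mul_zero]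
    · intro hk; exact absurd (Finset.mem_univ _) hk

namespace BoxRel

theorem star_sqrt (x : ℝ) : star (Real.sqrt x : ℂ) = (Real.sqrt x : ℂ) := Complex.conj_ofReal _

theorem sqrt_mul_sqrt {x : ℝ} (h : 0 ≤ x) : (Real.sqrt x : ℂ) * (Real.sqrt x : ℂ) = x := by
  rw [← Complex.ofReal_mul, Real.mul_self_sqrt h]

/-- entries of `aᴴ X` -/
theorem ct_mul_apply (j : Fin n) {E : Type} (X : Matrix (Box n M) E ℂ) {k k' : Box n M}
    (h : val k' = val k - ee j) (l : E) :
    ((ann n M j)ᴴ * X) k l = (Real.sqrt (val k j) : ℂ) * X k' l := by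
  have e : (ann n M j)ᴴ * X = (Xᴴ * ann n M j)ᴴ := by
    rw [conjTranspose_mul, conjTranspose_conjTranspose]
  rw [e, conjTranspose_apply, mul_ann_apply j _ _ h, star_mul', star_sqrt, conjTranspose_apply,
    star_star]

/-- entries of `X aᴴ` -/
theorem mul_ct_apply (j : Fin n) {E : Type} (X : Matrix E (Box n M) ℂ) (k : E) {l l' : Box n M}
    (h : val l' = val l + ee j) :
    (X * (ann n M j)ᴴ) k l = (Real.sqrt (val l j + 1) : ℂ) * X k l' := by
  have e : X * (ann n M j)ᴴ = (ann n M j * Xᴴ)ᴴ := by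
    rw [conjTranspose_mul, conjTranspose_conjTranspose]
  rw [e, conjTranspose_apply, ann_mul_apply j _ h, star_mul', star_sqrt, conjTranspose_apply,
    star_star]

end BoxRel

theorem ann_ct_mul (j : Fin n) : (ann n M j)ᴴ * ann n M j = dg M fun k => (k j : ℝ) := by
  ext k l
  obtain ⟨l', hl⟩ := exists_down j l
  rw [mul_ann_apply j _ _ hl, conjTranspose_apply, ann_apply, dg, diagonal_apply]
  by_cases h0 : val l j = 0
  · rw [h0]
    simp only [Nat.cast_zero, Real.sqrt_zero, Complex.ofReal_zero, zero_mul]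
    split_ifs with h
    · rw [h, h0]; simp
    · rfl
  · rw [hl, sub_add_ee h0]
    by_cases h : k = l
    · rw [if_pos (congrArg val h), if_pos h, h, star_sqrt, sqrt_mul_sqrt (Nat.cast_nonneg _)]
    · rw [if_neg (fun e => h (val_inj e)), if_neg h, star_zero, mul_zero]

theorem ann_mul_ct (j : Fin n) :
    ann n M j * (ann n M j)ᴴ = dg M fun k => if k j < M then (k j : ℝ) + 1 else 0 := by
  ext k l
  rw [dg, diagonal_apply]
  by_cases h0 : val k j = M
  · rw [ann_mul_apply_top j _ h0, if_neg (show ¬ val k j < M by omega)]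
    simp
  · obtain ⟨k', hk⟩ := exists_up j h0
    have h1 := val_le k j
    rw [ann_mul_apply j _ hk, conjTranspose_apply, ann_apply, hk,
      if_pos (show val k j < M by omega)]
    by_cases h : k = l
    · rw [if_pos (by rw [h]), if_pos h, star_sqrt, add_ee, Nat.cast_add, Nat.cast_one,
        sqrt_mul_sqrt (by positivity)]
    · rw [if_neg (fun e => h (val_inj (add_right_cancel e))), if_neg h, star_zero, mul_zero]

theorem ann_mul_dg (j : Fin n) (f : Idx n → ℝ) :
    ann n M j * dg M f = dg M (fun k => f (k + ee j)) * ann n M j := by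
  ext k l
  rw [dg, dg, mul_diagonal, diagonal_mul, ann_apply]
  split_ifs with h
  · rw [← h, mul_comm]
  · rw [zero_mul, mul_zero]

theorem norm_ann (j : Fin n) : ‖ann n M j‖ ≤ Real.sqrt M := by
  refine Real.le_sqrt_of_sq_le ?_
  rw [sq, ← l2_opNorm_conjTranspose_mul_self, ann_ct_mul, dg, l2_opNorm_diagonal,
    pi_norm_le_iff_of_nonneg (Nat.cast_nonneg _)]
  intro k
  rw [Complex.norm_real, Real.norm_of_nonneg (Nat.cast_nonneg _)]
  exact Nat.cast_le.2 (val_le k j)

namespace BoxRel

theorem tot_add (j : Fin n) (k : Idx n) : tot (k + ee j) = tot k + 1 := by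
  simp [tot, ee, Finset.sum_add_distrib]

theorem pen_add (N : ℝ) (j : Fin n) (k : Idx n) :
    ∑ i, pen N ((k + ee j) i) = ∑ i, pen N (k i) + ((N + 1) / N) ^ (k j) / (k j + 1) := by
  rw [← Finset.add_sum_erase _ _ (Finset.mem_univ j), ← Finset.add_sum_erase _ _ (Finset.mem_univ j),
    add_ee, pen, Finset.sum_range_succ, ← pen, add_right_comm]
  congr 2
  refine Finset.sum_congr rfl fun i hi => ?_
  rw [Pi.add_apply, ee_ne (Finset.ne_of_mem_erase hi), add_zero]

end BoxRel

theorem pen_bound (j : Fin n) {N ε δ : ℝ} (hN : 0 < N) (hδ : 0 ≤ δ)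
    {ρ : Matrix (Box n M) (Box n M) ℂ} (hρ : ρ ∈ Dens (Box n M)) :
    -(δ * N) ≤ (ip (cm (ann n M j) (dg M fun k => ε * tot k + δ * ∑ i, pen N (k i)) -
      ε • ann n M j) (wop N ρ (ann n M j))).re := by
  obtain ⟨φ, hφ⟩ : ∃ φ : ℕ → ℝ, φ = fun i : ℕ => δ * (((N + 1) / N) ^ i / (i + 1)) := ⟨_, rfl⟩
  obtain ⟨D, hD⟩ : ∃ D : Matrix (Box n M) (Box n M) ℂ, D = dg M fun k => φ (k j) := ⟨_, rfl⟩
  have hDH : Dᴴ = D := by rw [hD]; exact (dg_herm _).eq
  have e1 : cm (ann n M j) (dg M fun k => ε * tot k + δ * ∑ i, pen N (k i)) - ε • ann n M j =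
      D * ann n M j := by
    rw [cm, ann_mul_dg, ← Matrix.sub_mul, dg_sub, ← Matrix.one_mul (ann n M j), ← smul_mul_assoc,
      Matrix.one_mul (ann n M j), ← dg_const, ← Matrix.sub_mul, dg_sub, hD]
    congr 2
    funext k
    rw [tot_add, pen_add, hφ]
    push_cast
    ring
  have e2 : D * ann n M j = ann n M j * dg M fun k => φ (k j - 1) := by
    rw [ann_mul_dg, hD]
    congr 2
    funext k
    rw [add_ee, Nat.add_sub_cancel]
  have e3 : ip (D * ann n M j) (wop N ρ (ann n M j)) =
      trace ((dg M fun k => (N + 1) * ((k j : ℝ) * φ (k j - 1)) -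
        N * ((if k j < M then (k j : ℝ) + 1 else 0) * φ (k j))) * ρ) := by
    rw [← dg_sub, ← smul_dg, ← smul_dg, ← dg_mul, ← dg_mul, ← ann_ct_mul, ← ann_mul_ct, ← hD,
      Matrix.mul_assoc (ann n M j)ᴴ, ← e2, ip, wop, conjTranspose_mul, hDH]
    simp only [Matrix.mul_sub, Matrix.sub_mul, Matrix.mul_smul, Matrix.smul_mul, trace_sub,
      trace_smul, Matrix.mul_assoc]
    rw [trace_mul_comm (ann n M j) ((ann n M j)ᴴ * (D * ρ))]
    simp only [Matrix.mul_assoc]
  rw [e1, e3]
  refine le_trans ?_ (tr_dg _ ρ).ge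
  have e5 : -(δ * N) = ∑ k, -(δ * N) * (ρ k k).re := by
    rw [← Finset.mul_sum, diag_sum hρ, mul_one]
  rw [e5]
  refine Finset.sum_le_sum fun k _ => mul_le_mul_of_nonneg_right ?_ (diag_nonneg hρ k)
  have hφ0 : ∀ i, 0 ≤ φ i := fun i => by rw [hφ]; positivity
  have hle : (if val k j < M then (val k j : ℝ) + 1 else 0) * φ (val k j) ≤
      δ * ((N + 1) / N) ^ (val k j) := by
    split_ifs
    · rw [hφ]; apply le_of_eq; field_simp
    · rw [zero_mul]; positivity
  have hle2 := mul_le_mul_of_nonneg_left hle hN.le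
  rcases h0 : val k j with _ | i
  · rw [h0] at hle2
    simp only [Nat.cast_zero, zero_mul, mul_zero, pow_zero, mul_one] at hle2 ⊢
    linarith
  · rw [h0] at hle2
    have e4 : (N + 1) * (((i + 1 : ℕ) : ℝ) * φ (i + 1 - 1)) = N * (δ * ((N + 1) / N) ^ (i + 1)) := by
      rw [hφ, Nat.add_sub_cancel, pow_succ]
      push_cast
      field_simp
    have : 0 ≤ δ * N := by positivity
    linarith

theorem tr_boundary (j : Fin n) {ρA ρB : Matrix (Box n M) (Box n M) ℂ}
    (hA : ρA ∈ Dens (Box n M)) (hB : ρB ∈ Dens (Box n M)) :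
    tr ((ρA ⊗ₖ ρB) * (1 - Pin n M j)) ≤ tr (dg M (fun k => if k j = M then 1 else 0) * ρA) +
      tr (dg M (fun k => if k j = M then 1 else 0) * ρB) := by
  rw [tr_dg, tr_dg, ← mul_one (∑ k, _ * (ρA k k).re), ← one_mul (∑ k, _ * (ρB k k).re)]
  nth_rewrite 2 [← diag_sum hB]
  nth_rewrite 2 [← diag_sum hA]
  rw [Finset.sum_mul_sum, Finset.sum_mul_sum, ← Finset.sum_add_distrib, Pin, ← diagonal_one,
    diagonal_sub]
  simp only [P371.tr, trace, diag_apply, mul_diagonal, Complex.re_sum, Fintype.sum_prod_type,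
    kroneckerMap_apply]
  refine Finset.sum_le_sum fun k _ => ?_
  rw [← Finset.sum_add_distrib]
  refine Finset.sum_le_sum fun l _ => ?_
  have h1 := mul_nonneg (diag_nonneg hA k) (diag_nonneg hB l)
  have h2 := val_le k j
  have h3 := val_le l j
  have e : (ρA k k * ρB l l).re = (ρA k k).re * (ρB l l).re := by
    rw [Complex.mul_re, diag_im hA, zero_mul, sub_zero]
  by_cases h : val k j < M ∧ val l j < M
  · rw [if_pos h, if_neg h.1.ne, if_neg h.2.ne]; simp
  · rw [if_neg h, sub_zero, mul_one, e]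
    split_ifs
    · linarith
    · linarith
    · linarith
    · omega

namespace BoxRel

section
variable {A B D : Type} [Fintype A] [DecidableEq A] [Fintype B] [DecidableEq B]

omit [DecidableEq A] in
theorem kron_one_mul (c : Matrix A A ℂ) (V : Matrix (A × B) D ℂ) (z : A × B) (y : D) :
    ((c ⊗ₖ (1 : Matrix B B ℂ)) * V) z y = (c * of fun m y => V (m, z.2) y) z.1 y := by
  simp only [mul_apply, Fintype.sum_prod_type, kroneckerMap_apply, one_apply, mul_ite, mul_one,
    mul_zero, ite_mul, zero_mul, Finset.sum_ite_eq, Finset.mem_univ, if_true, of_apply]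

omit [DecidableEq B] in
theorem one_kron_mul (c : Matrix B B ℂ) (V : Matrix (A × B) D ℂ) (z : A × B) (y : D) :
    (((1 : Matrix A A ℂ) ⊗ₖ c) * V) z y = (c * of fun m y => V (z.1, m) y) z.2 y := by
  simp only [mul_apply, Fintype.sum_prod_type_right, kroneckerMap_apply, one_apply, one_mul,
    ite_mul, zero_mul, Finset.sum_ite_eq, Finset.mem_univ, if_true, of_apply]

omit [DecidableEq A] in
theorem mul_kron_one (c : Matrix A A ℂ) (V : Matrix D (A × B) ℂ) (z : D) (y : A × B) :
    (V * (c ⊗ₖ (1 : Matrix B B ℂ))) z y = ((of fun z m => V z (m, y.2)) * c) z y.1 := by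
  simp only [mul_apply, Fintype.sum_prod_type, kroneckerMap_apply, one_apply, mul_ite, mul_one,
    mul_zero, Finset.sum_ite_eq', Finset.mem_univ, if_true, of_apply]

omit [DecidableEq B] in
theorem mul_one_kron (c : Matrix B B ℂ) (V : Matrix D (A × B) ℂ) (z : D) (y : A × B) :
    (V * ((1 : Matrix A A ℂ) ⊗ₖ c)) z y = ((of fun z m => V z (y.1, m)) * c) z y.2 := by
  simp only [mul_apply, Fintype.sum_prod_type_right, kroneckerMap_apply, one_apply, one_mul,
    ite_mul, zero_mul, mul_ite, mul_zero, Finset.sum_ite_eq', Finset.mem_univ, if_true, of_apply]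

theorem mul_comb (s t : ℝ) (a : Matrix A A ℂ) (b : Matrix B B ℂ) (V : Matrix D (A × B) ℂ) (z : D)
    (y : A × B) :
    (V * (s • (a ⊗ₖ (1 : Matrix B B ℂ)) + t • ((1 : Matrix A A ℂ) ⊗ₖ b))) z y =
      s * ((of fun z m => V z (m, y.2)) * a) z y.1 + t * ((of fun z m => V z (y.1, m)) * b) z y.2 := by
  rw [Matrix.mul_add, Matrix.mul_smul, Matrix.mul_smul, Matrix.add_apply, Matrix.smul_apply,
    Matrix.smul_apply,
    mul_kron_one, mul_one_kron, Complex.real_smul, Complex.real_smul]

end

theorem comb_low (u : Idx n × Idx n → Idx n × Idx n → ℂ) (s t : ℝ) (j : Fin n)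
    (z : Box n (2 * M) × Box n (2 * M)) (y : Box n M × Box n M) :
    (Vm u M * (s • (ann n M j ⊗ₖ (1 : Matrix (Box n M) (Box n M) ℂ)) +
      t • ((1 : Matrix (Box n M) (Box n M) ℂ) ⊗ₖ ann n M j))) z y =
      s * (Real.sqrt (val y.1 j) : ℂ) * u (val z.1, val z.2) (val y.1 - ee j, val y.2) +
        t * (Real.sqrt (val y.2 j) : ℂ) * u (val z.1, val z.2) (val y.1, val y.2 - ee j) := by
  obtain ⟨a, ha⟩ := exists_down j y.1
  obtain ⟨b, hb⟩ := exists_down j y.2
  rw [mul_comb, mul_ann_apply j _ _ ha, mul_ann_apply j _ _ hb, ← ha, ← hb, mul_assoc, mul_assoc]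
  rfl

theorem comb_up (u : Idx n × Idx n → Idx n × Idx n → ℂ) (s t : ℝ) (j : Fin n)
    (z : Box n (2 * M) × Box n (2 * M)) {y : Box n M × Box n M}
    (h : val y.1 j < M ∧ val y.2 j < M) :
    (Vm u M * (s • ((ann n M j)ᴴ ⊗ₖ (1 : Matrix (Box n M) (Box n M) ℂ)) +
      t • ((1 : Matrix (Box n M) (Box n M) ℂ) ⊗ₖ (ann n M j)ᴴ))) z y =
      s * (Real.sqrt (val y.1 j + 1) : ℂ) * u (val z.1, val z.2) (val y.1 + ee j, val y.2) +
        t * (Real.sqrt (val y.2 j + 1) : ℂ) * u (val z.1, val z.2) (val y.1, val y.2 + ee j) := by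
  obtain ⟨a, ha⟩ := exists_up j h.1.ne
  obtain ⟨b, hb⟩ := exists_up j h.2.ne
  rw [mul_comb, mul_ct_apply j _ _ ha, mul_ct_apply j _ _ hb, ← ha, ← hb, mul_assoc, mul_assoc]
  rfl

theorem supp {s t : ℝ} {u : Idx n × Idx n → Idx n × Idx n → ℂ} (h : BS s t u)
    {z : Idx n × Idx n} {y : Box n M × Box n M} (hz : u z (val y.1, val y.2) ≠ 0) (j : Fin n) :
    z.1 j ≤ 2 * M ∧ z.2 j ≤ 2 * M := by
  have h1 := congrFun (h.cons _ _ hz) j
  have h2 := val_le y.1 j
  have h3 := val_le y.2 j
  simp only [Pi.add_apply] at h1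
  omega

end BoxRel

theorem rel_box {s t : ℝ} {u : Idx n × Idx n → Idx n × Idx n → ℂ} (h : BS s t u) (M : ℕ)
    (j : Fin n) : Rel s t (Vm u M) (ann n M j) (ann n M j) (ann n (2 * M) j) (ann n (2 * M) j)
      (Pin n M j) := by
  refine ⟨?_, ?_, ?_, ?_, ?_, ?_, ?_, ?_, ?_⟩
  · ext y y'
    have h1 := hasSum_box₂ (M := 2 * M)
      (F := fun z => star (u z (val y.1, val y.2)) * u z (val y'.1, val y'.2))
      (fun z hz => supp h (right_ne_zero_of_mul hz))
    have h2 := h1.unique (h.orth _ _)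
    rw [mul_apply, one_apply]
    refine h2.trans (if_congr ⟨fun e => ?_, fun e => by rw [e]⟩ rfl rfl)
    exact Prod.ext (val_inj (congrArg Prod.fst e)) (val_inj (congrArg Prod.snd e))
  · ext z y
    have h1 := h.lowA j (val z.1, val z.2) (val y.1, val y.2)
    rw [comb_low, kron_one_mul]
    refine Eq.trans ?_ h1
    by_cases h0 : val z.1 j = 2 * M
    · rw [ann_mul_apply_top j _ h0]
      refine (mul_eq_zero_of_right _ ?_).symm
      by_contra hc
      have h2 := (supp h hc j).1
      simp only [add_ee] at h2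
      omega
    · obtain ⟨a, ha⟩ := exists_up j h0
      rw [ann_mul_apply j _ ha]
      simp only [← ha]
      rfl
  · ext z y
    have h1 := h.lowB j (val z.1, val z.2) (val y.1, val y.2)
    rw [comb_low, one_kron_mul, Complex.ofReal_neg]
    refine Eq.trans ?_ h1
    by_cases h0 : val z.2 j = 2 * M
    · rw [ann_mul_apply_top j _ h0]
      refine (mul_eq_zero_of_right _ ?_).symm
      by_contra hc
      have h2 := (supp h hc j).2
      simp only [add_ee] at h2
      omega
    · obtain ⟨a, ha⟩ := exists_up j h0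
      rw [ann_mul_apply j _ ha]
      simp only [← ha]
      rfl
  · ext z y
    rw [Pin, mul_diagonal, mul_diagonal]
    split_ifs with hy
    · have h1 := h.upA j (val z.1, val z.2) (val y.1, val y.2)
      obtain ⟨a, ha⟩ := exists_down j z.1
      rw [comb_up _ _ _ _ _ hy, kron_one_mul, mul_one, mul_one, ct_mul_apply j _ ha]
      refine Eq.trans ?_ h1
      simp only [← ha]
      rfl
    · rw [mul_zero, mul_zero]
  · ext z y
    rw [Pin, mul_diagonal, mul_diagonal]
    split_ifs with hy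
    · have h1 := h.upB j (val z.1, val z.2) (val y.1, val y.2)
      obtain ⟨a, ha⟩ := exists_down j z.2
      rw [comb_up _ _ _ _ _ hy, one_kron_mul, mul_one, mul_one, ct_mul_apply j _ ha,
        Complex.ofReal_neg]
      refine Eq.trans ?_ h1
      simp only [← ha]
      rfl
    · rw [mul_zero, mul_zero]
  · rw [Pin, diagonal_conjTranspose]
    congr 1
    funext y
    simp only [Pi.star_apply]
    split_ifs
    · exact star_one _
    · exact star_zero _
  · rw [Pin, diagonal_mul_diagonal]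
    congr 1
    funext y
    split_ifs
    · exact mul_one _
    · exact mul_zero _
  · ext x y
    rw [Pin, ← diagonal_one, diagonal_sub, mul_diagonal, diagonal_mul, Matrix.zero_apply,
      kroneckerMap_apply, ann_apply, one_apply]
    by_cases h1 : val y.1 j < M ∧ val y.2 j < M
    · by_cases h2 : val y.1 = val x.1 + ee j
      · by_cases h3 : x.2 = y.2
        · have h5 := congrFun h2 j
          rw [add_ee] at h5
          rw [if_pos (show val x.1 j < M ∧ val x.2 j < M by rw [h3]; omega), sub_self, zero_mul,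
            zero_mul]
        · rw [if_neg h3, mul_zero, mul_zero, zero_mul]
      · rw [if_neg h2, zero_mul, mul_zero, zero_mul]
    · rw [if_neg h1, mul_zero]
  · ext x y
    rw [Pin, ← diagonal_one, diagonal_sub, mul_diagonal, diagonal_mul, Matrix.zero_apply,
      kroneckerMap_apply, ann_apply, one_apply]
    by_cases h1 : val y.1 j < M ∧ val y.2 j < M
    · by_cases h2 : val y.2 = val x.2 + ee j
      · by_cases h3 : x.1 = y.1
        · have h5 := congrFun h2 j
          rw [add_ee] at h5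
          rw [if_pos (show val x.1 j < M ∧ val x.2 j < M by rw [h3]; omega), sub_self, zero_mul,
            zero_mul]
        · rw [if_neg h3, zero_mul, mul_zero, zero_mul]
      · rw [if_neg h2, mul_zero, mul_zero, zero_mul]
    · rw [if_neg h1, mul_zero]

end Vale.Agent.P369
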