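import Vale.Agent.P369.Emb

open Matrix
open scoped Matrix.Norms.L2Operator ComplexOrder Kronecker

namespace Vale.Agent.P369

open Filter Topology

namespace ContAux

open EmbAux

theorem norm_ket {ι : Type} [DecidableEq ι] (k : ι) : ‖ket k‖ = 1 := by
  rw [ket, lp.norm_single (by norm_num)]; simp

theorem hasSum_sq {ι : Type} (v : Fock ι) : HasSum (fun k => ‖v k‖ ^ 2) (‖v‖ ^ 2) := by
  have := lp.hasSum_norm (p := 2) (by norm_num) v
  simpa using this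

theorem norm_le_cols {ι : Type} [DecidableEq ι] (T : Op ι) {C : ℝ} (hC : 0 ≤ C)
    (h : ∀ s : Finset ι, ∑ l ∈ s, ‖T (ket l)‖ ^ 2 ≤ C ^ 2) : ‖T‖ ≤ C := by
  refine T.opNorm_le_bound hC fun v => ?_
  have h1 := (lp.hasSum_single (p := 2) (by norm_num) v).mapL T
  refine le_of_tendsto' (Tendsto.norm h1) fun s => ?_
  have h2 : ∀ l, T (lp.single 2 l (v l)) = v l • T (ket l) := fun l => by
    rw [← map_smul, ket, ← lp.single_smul]; simp
  simp only [h2]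
  refine le_trans (norm_sum_le _ _) ?_
  simp only [norm_smul]
  have h3 := Finset.sum_mul_sq_le_sq_mul_sq s (fun l => ‖v l‖) (fun l => ‖T (ket l)‖)
  have h4 : ∑ l ∈ s, ‖v l‖ ^ 2 ≤ ‖v‖ ^ 2 := sum_le_hasSum s (fun _ _ => sq_nonneg _) (hasSum_sq v)
  refine (pow_le_pow_iff_left₀ (Finset.sum_nonneg fun _ _ => by positivity) (by positivity)
    two_ne_zero).1 ?_
  calc _ ≤ _ := h3
    _ ≤ ‖v‖ ^ 2 * C ^ 2 :=
        mul_le_mul h4 (h s) (Finset.sum_nonneg fun _ _ => sq_nonneg _) (sq_nonneg _)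
    _ = _ := by ring

theorem norm_le_ent {ι : Type} [DecidableEq ι] (T : Op ι) {C : ℝ} (hC : 0 ≤ C)
    (h : ∀ S : Finset (ι × ι), ∑ x ∈ S, ‖ent T x.1 x.2‖ ^ 2 ≤ C ^ 2) : ‖T‖ ≤ C := by
  refine norm_le_cols T hC fun s => ?_
  have h1 := hasSum_sum (s := s) fun l _ => hasSum_sq (T (ket l))
  refine le_of_tendsto' h1 fun s' => ?_
  have h2 := h (s' ×ˢ s)
  rw [Finset.sum_product] at h2
  simpa only [ent, inner_ket] using h2

theorem sum_le_add {α : Type} {G : α → ℝ} (hG : ∀ x, 0 ≤ G x) {s : Finset α} {ε : ℝ}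
    (h : ∀ t, Disjoint t s → ∑ x ∈ t, G x ≤ ε) (u : Finset α) :
    ∑ x ∈ u, G x ≤ ∑ x ∈ s, G x + ε := by
  classical
  calc _ ≤ ∑ x ∈ s ∪ u \ s, G x :=
        Finset.sum_le_sum_of_subset_of_nonneg (by intro x hx; simp [hx]) fun _ _ _ => hG _
    _ = ∑ x ∈ s, G x + ∑ x ∈ u \ s, G x := Finset.sum_union Finset.disjoint_sdiff
    _ ≤ _ := by linarith [h (u \ s) Finset.sdiff_disjoint]

theorem tsum_near {α : Type} {G : α → ℝ} (hG : ∀ x, 0 ≤ G x) {s : Finset α} {ε : ℝ}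
    (h : ∀ t, Disjoint t s → ∑ x ∈ t, G x ≤ ε) :
    ∑ x ∈ s, G x ≤ ∑' x, G x ∧ ∑' x, G x ≤ ∑ x ∈ s, G x + ε :=
  ⟨(summable_of_sum_le hG (sum_le_add hG h)).sum_le_tsum s fun _ _ => hG _,
    Real.tsum_le_of_sum_le hG (sum_le_add hG h)⟩

theorem tendsto_tsum {α : Type} {F : ℕ → α → ℝ} {F₀ : α → ℝ} (hF : ∀ m x, 0 ≤ F m x)
    (hl : ∀ x, Tendsto (fun m => F m x) atTop (𝓝 (F₀ x)))
    (h : ∀ ε > 0, ∃ s : Finset α, ∀ m t, Disjoint t s → ∑ x ∈ t, F m x ≤ ε) :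
    Tendsto (fun m => ∑' x, F m x) atTop (𝓝 (∑' x, F₀ x)) := by
  refine Metric.tendsto_nhds.2 fun ε hε => ?_
  obtain ⟨s, hs⟩ := h (ε / 2) (by linarith)
  have h0 : ∀ x, 0 ≤ F₀ x := fun x => ge_of_tendsto' (hl x) fun m => hF m x
  have h1 := tsum_near h0 (s := s) (ε := ε / 2) fun t ht =>
    le_of_tendsto' (tendsto_finsetSum t fun x _ => hl x) fun m => hs m t ht
  filter_upwards [Metric.tendsto_nhds.1 (tendsto_finsetSum s fun x _ => hl x) (ε / 2)
    (by linarith)] with m hm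
  have h2 := tsum_near (hF m) (hs m)
  rw [Real.dist_eq, abs_lt] at hm ⊢
  constructor <;> linarith [h1.1, h1.2, h2.1, h2.2, hm.1, hm.2]

theorem pair_tail {α : Type} {p : α → ℝ} (hp : ∀ x, 0 ≤ p x) (h1 : ∀ u : Finset α, ∑ x ∈ u, p x ≤ 1)
    {s : Finset α} {δ : ℝ} (h : ∀ t, Disjoint t s → ∑ x ∈ t, p x ≤ δ) (S : Finset (α × α))
    (hS : Disjoint S (s ×ˢ s)) : ∑ x ∈ S, p x.1 * p x.2 ≤ 2 * δ := by
  classical
  set A := S.image Prod.fst ∪ S.image Prod.snd with hA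
  have hδ : 0 ≤ δ := by simpa using h ∅ (Finset.disjoint_empty_left s)
  have hsub : S ⊆ (A \ s) ×ˢ A ∪ A ×ˢ (A \ s) := by
    intro x hx
    have a1 : x.1 ∈ A := Finset.mem_union_left _ (Finset.mem_image_of_mem _ hx)
    have a2 : x.2 ∈ A := Finset.mem_union_right _ (Finset.mem_image_of_mem _ hx)
    have a3 := Finset.disjoint_left.1 hS hx
    simp only [Finset.mem_product, Finset.mem_union, Finset.mem_sdiff] at a3 ⊢
    tauto
  have hn : ∀ u : Finset α, 0 ≤ ∑ x ∈ u, p x := fun u => Finset.sum_nonneg fun _ _ => hp _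
  have e : ∀ u v : Finset α, ∑ x ∈ u ×ˢ v, p x.1 * p x.2 = (∑ x ∈ u, p x) * ∑ x ∈ v, p x :=
    fun u v => by rw [Finset.sum_product, Finset.sum_mul_sum]
  have b1 := mul_le_mul (h _ (Finset.sdiff_disjoint (s := s) (t := A))) (h1 A) (hn _) hδ
  have b2 := Finset.sum_union_inter (s₁ := (A \ s) ×ˢ A) (s₂ := A ×ˢ (A \ s))
    (f := fun x => p x.1 * p x.2)
  have b3 : 0 ≤ ∑ x ∈ (A \ s) ×ˢ A ∩ A ×ˢ (A \ s), p x.1 * p x.2 :=
    Finset.sum_nonneg fun _ _ => mul_nonneg (hp _) (hp _)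
  have b4 := Finset.sum_le_sum_of_subset_of_nonneg (f := fun x => p x.1 * p x.2) hsub
    fun _ _ _ => mul_nonneg (hp _) (hp _)
  rw [e, e, mul_comm (∑ x ∈ A, p x)] at b2
  linarith

theorem diag_nonneg {ι : Type} [DecidableEq ι] {ρ : Op ι} (h : ρ.IsPositive) (k : ι) :
    0 ≤ (ent ρ k k).re := (Complex.nonneg_iff.1 (ent_diag_nonneg h k)).1

theorem diag_sum {ι : Type} [DecidableEq ι] {ρ : Op ι} (h : IsState ρ) (u : Finset ι) :
    ∑ k ∈ u, (ent ρ k k).re ≤ 1 :=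
  sum_le_hasSum u (fun k _ => diag_nonneg h.pos k) (Complex.hasSum_re h.trace)

theorem state_norm {ι : Type} [DecidableEq ι] {ρ : Op ι} (h : IsState ρ) : ‖ρ‖ ≤ 1 := by
  refine norm_le_ent ρ zero_le_one fun S => ?_
  set A := S.image Prod.fst ∪ S.image Prod.snd
  have hn := Finset.sum_nonneg (s := A) fun k _ => diag_nonneg h.pos k
  calc _ ≤ ∑ x ∈ S, (ent ρ x.1 x.1).re * (ent ρ x.2 x.2).re :=
        Finset.sum_le_sum fun x _ => ent_sq_le h.pos _ _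
    _ ≤ ∑ x ∈ A ×ˢ A, (ent ρ x.1 x.1).re * (ent ρ x.2 x.2).re :=
        Finset.sum_le_sum_of_subset_of_nonneg (fun x hx => Finset.mem_product.2
          ⟨Finset.mem_union_left _ (Finset.mem_image_of_mem _ hx),
            Finset.mem_union_right _ (Finset.mem_image_of_mem _ hx)⟩)
          fun _ _ _ => mul_nonneg (diag_nonneg h.pos _) (diag_nonneg h.pos _)
    _ = (∑ k ∈ A, (ent ρ k k).re) ^ 2 := by rw [Finset.sum_product, sq, Finset.sum_mul_sum]
    _ ≤ _ := pow_le_pow_left₀ hn (diag_sum h A) 2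

theorem summable_exp (n : ℕ) {γ : ℝ} (hγ : 0 < γ) :
    Summable fun k : Idx n => Real.exp (-(γ * tot k)) := by
  have hr0 := Real.exp_pos (-γ)
  have hr : Real.exp (-γ) < 1 := Real.exp_lt_one_iff.2 (by linarith)
  refine summable_of_sum_le (c := (1 - Real.exp (-γ))⁻¹ ^ n) (fun _ => (Real.exp_pos _).le)
    fun u => ?_
  set M := u.sup tot + 1 with hM
  have e : ∀ k : Idx n, Real.exp (-(γ * tot k)) = ∏ j, Real.exp (-γ) ^ k j := fun k => by
    rw [Finset.prod_pow_eq_pow_sum, ← Real.exp_nat_mul, tot]; congr 1; ring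
  simp only [e]
  calc _ ≤ ∑ k ∈ Fintype.piFinset fun _ : Fin n => Finset.range M, ∏ j, Real.exp (-γ) ^ k j := by
        refine Finset.sum_le_sum_of_subset_of_nonneg (fun k hk => ?_) fun _ _ _ => by positivity
        refine Fintype.mem_piFinset.2 fun j => Finset.mem_range.2 ?_
        have a1 : k j ≤ tot k := Finset.single_le_sum (fun _ _ => Nat.zero_le _) (Finset.mem_univ j)
        have a2 : tot k ≤ u.sup tot := Finset.le_sup hk
        omega
    _ = ∏ _j : Fin n, ∑ i ∈ Finset.range M, Real.exp (-γ) ^ i :=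
        (Finset.prod_univ_sum _ (fun _ i => Real.exp (-γ) ^ i)).symm
    _ ≤ ∏ _j : Fin n, (1 - Real.exp (-γ))⁻¹ :=
        Finset.prod_le_prod (fun _ _ => Finset.sum_nonneg fun _ _ => by positivity) fun _ _ =>
          sum_le_hasSum _ (fun _ _ => by positivity) (hasSum_geometric_of_lt_one hr0.le hr)
    _ = _ := by simp

theorem unif_tail {n : ℕ} {p G : ℕ → Idx n → ℝ} {E : ℝ}
    (hE : ∀ (m : ℕ) (s : Finset (Idx n)), ∑ k ∈ s, (tot k : ℝ) * p m k ≤ E)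
    (hG : ∀ γ > 0, ∀ m k, G m k ≤ γ * tot k * p m k + Real.exp (1 - γ * tot k)) :
    ∀ ε > 0, ∃ s : Finset (Idx n), ∀ m t, Disjoint t s → ∑ x ∈ t, G m x ≤ ε := by
  intro ε hε
  have hE0 : 0 ≤ E := by simpa using hE 0 ∅
  set γ := ε / (2 * (E + 1)) with hγ
  have hγ0 : 0 < γ := by positivity
  obtain ⟨s, hs⟩ := summable_iff_vanishing_norm.1 ((summable_exp n hγ0).mul_left (Real.exp 1))
    (ε / 2) (by linarith)
  refine ⟨s, fun m t ht => le_trans (Finset.sum_le_sum fun k _ => hG γ hγ0 m k) ?_⟩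
  have h1 := lt_of_le_of_lt (le_abs_self _) (hs t ht)
  have h2 := mul_le_mul_of_nonneg_left (hE m t) hγ0.le
  have h3 : γ * (E + 1) = ε / 2 := by rw [hγ]; field_simp
  simp only [← Real.exp_add, ← sub_eq_add_neg] at h1
  rw [Finset.mul_sum] at h2
  simp only [Finset.sum_add_distrib, mul_assoc]
  linarith

theorem tendsto_norm {n : ℕ} {ρ : ℕ → Op (Idx n)} {ρ₀ : Op (Idx n)} {E : ℝ}
    (hs : ∀ m, IsState (ρ m))
    (hE : ∀ (m : ℕ) (s : Finset (Idx n)), ∑ k ∈ s, (tot k : ℝ) * (ent (ρ m) k k).re ≤ E)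
    (hl : ∀ k l, Tendsto (fun m => ent (ρ m) k l) atTop (𝓝 (ent ρ₀ k l))) :
    Tendsto ρ atTop (𝓝 ρ₀) := by
  have hp : ∀ k, Tendsto (fun m => (ent (ρ m) k k).re) atTop (𝓝 (ent ρ₀ k k).re) := fun k =>
    (Complex.continuous_re.tendsto _).comp (hl k k)
  have hp0 : ∀ k, 0 ≤ (ent ρ₀ k k).re := fun k =>
    ge_of_tendsto' (hp k) fun m => diag_nonneg (hs m).pos k
  have hp1 : ∀ u : Finset (Idx n), ∑ k ∈ u, (ent ρ₀ k k).re ≤ 1 := fun u =>
    le_of_tendsto' (tendsto_finsetSum u fun k _ => hp k) fun m => diag_sum (hs m) u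
  have hp2 : ∀ k l, ‖ent ρ₀ k l‖ ^ 2 ≤ (ent ρ₀ k k).re * (ent ρ₀ l l).re := fun k l =>
    le_of_tendsto_of_tendsto' ((hl k l).norm.pow 2) ((hp k).mul (hp l))
      fun m => ent_sq_le (hs m).pos k l
  refine Metric.tendsto_nhds.2 fun ε hε => ?_
  obtain ⟨s, hst⟩ := unif_tail (G := fun m k => (ent (ρ m) k k).re) hE (fun γ hγ m k => by
    have a1 := diag_nonneg (hs m).pos k
    have a2 : (ent (ρ m) k k).re ≤ 1 := by simpa using diag_sum (hs m) {k}
    have a3 := Real.add_one_le_exp (1 - γ * tot k)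
    have a4 := Real.exp_pos (1 - γ * tot k)
    have a5 : 0 ≤ γ * tot k := by positivity
    rcases le_total (γ * tot k) 1 with h | h <;> nlinarith) (ε ^ 2 / 64) (by positivity)
  have hs0 : ∀ t, Disjoint t s → ∑ k ∈ t, (ent ρ₀ k k).re ≤ ε ^ 2 / 64 := fun t ht =>
    le_of_tendsto' (tendsto_finsetSum t fun k _ => hp k) fun m => hst m t ht
  have hfin : Tendsto (fun m => ∑ x ∈ s ×ˢ s, ‖ent (ρ m) x.1 x.2 - ent ρ₀ x.1 x.2‖ ^ 2) atTop
      (𝓝 0) := by
    have := tendsto_finsetSum (s ×ˢ s) fun x _ =>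
      (((hl x.1 x.2).sub_const (ent ρ₀ x.1 x.2)).norm.pow 2)
    simpa using this
  filter_upwards [hfin.eventually_lt_const (show 0 < ε ^ 2 / 8 by positivity)] with m hm
  rw [dist_eq_norm]
  refine lt_of_le_of_lt (norm_le_ent _ (C := ε / 2) (by linarith) fun S => ?_) (by linarith)
  have e : ∀ k l, ent (ρ m - ρ₀) k l = ent (ρ m) k l - ent ρ₀ k l := fun k l => by
    simp [ent]
  simp only [e]
  refine le_trans (sum_le_add (G := fun x : Idx n × Idx n =>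
    ‖ent (ρ m) x.1 x.2 - ent ρ₀ x.1 x.2‖ ^ 2) (fun _ => sq_nonneg _) (s := s ×ˢ s)
    (ε := ε ^ 2 / 8) (fun t ht => ?_) S) (by linarith)
  have b1 := pair_tail (diag_nonneg (hs m).pos) (diag_sum (hs m)) (hst m) t ht
  have b2 := pair_tail hp0 hp1 hs0 t ht
  calc _ ≤ ∑ x ∈ t, (2 * ((ent (ρ m) x.1 x.1).re * (ent (ρ m) x.2 x.2).re)
        + 2 * ((ent ρ₀ x.1 x.1).re * (ent ρ₀ x.2 x.2).re)) := by
        refine Finset.sum_le_sum fun x _ => ?_
        have c1 := ent_sq_le (hs m).pos x.1 x.2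
        have c2 := hp2 x.1 x.2
        have c3 := pow_le_pow_left₀ (norm_nonneg _)
          (norm_sub_le (ent (ρ m) x.1 x.2) (ent ρ₀ x.1 x.2)) 2
        nlinarith [sq_nonneg (‖ent (ρ m) x.1 x.2‖ - ‖ent ρ₀ x.1 x.2‖)]
    _ ≤ _ := by
        rw [Finset.sum_add_distrib, ← Finset.mul_sum, ← Finset.mul_sum]
        linarith

end ContAux

open ContAux

theorem entropy_nonneg {ι : Type} [DecidableEq ι] {ρ : Op ι} (h : IsState ρ) :
    0 ≤ entropy ρ := by
  exact tsum_nonneg fun k => diag_nonneg (EmbAux.negLog_pos h.pos (state_norm h)) k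

theorem entropy_tendsto {n : ℕ} {ρ : ℕ → Op (Idx n)} {ρ₀ : Op (Idx n)} {E : ℝ}
    (hs : ∀ m, IsState (ρ m))
    (hE : ∀ (m : ℕ) (s : Finset (Idx n)), ∑ k ∈ s, (tot k : ℝ) * (ent (ρ m) k k).re ≤ E)
    (hl : ∀ k l, Tendsto (fun m => ent (ρ m) k l) atTop (𝓝 (ent ρ₀ k l))) :
    Tendsto (fun m => entropy (ρ m)) atTop (𝓝 (entropy ρ₀)) := by
  have h1 := EmbAux.negLog_tendsto (fun m => (hs m).pos.isSelfAdjoint) (tendsto_norm hs hE hl)
  refine tendsto_tsum (F := fun m k => (ent (negLog (ρ m)) k k).re)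
    (fun m k => diag_nonneg (EmbAux.negLog_pos (hs m).pos (state_norm (hs m))) k) (fun k => ?_)
    (unif_tail hE fun γ _ m k => ?_)
  · have hc : Continuous fun T : Op (Idx n) => (ent T k k).re := by
      unfold ent
      fun_prop
    exact (hc.tendsto _).comp h1
  · refine le_trans (EmbAux.negLog_le (hs m).pos (γ * tot k) (norm_ket k)) ?_
    have : Real.exp (-1 - γ * tot k) ≤ Real.exp (1 - γ * tot k) := Real.exp_le_exp.2 (by linarith)
    exact add_le_add le_rfl this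

end Vale.Agent.P369
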