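import Vale.Agent.P369.Kernel

open Matrix
open scoped Matrix.Norms.L2Operator ComplexOrder Kronecker

namespace Vale.Agent.P369

variable {n : ℕ} {ρA ρB ρC : Op (Idx n)} {σ U : Op (Idx n × Idx n)}

namespace Edge

open Kernel

theorem conj_eq {ι : Type} [DecidableEq ι] {U : Op ι} {τ : ι → ι} {ε : ι → ℂ}
    (h : ∀ z y, ent U z y = if y = τ z then ε z else 0) (σ : Op ι) (z z' : ι) :
    ent (U * σ * star U) z z' = ε z * star (ε z') * ent σ (τ z) (τ z') := by
  have key : ∀ z, star U (ket z) = star (ε z) • ket (τ z) := fun z => lp.ext (funext fun y => by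
    rw [star_ket, h, lp.coeFn_smul, Pi.smul_apply, ket_apply]
    split_ifs <;> simp)
  rw [ent_conj_eq, key, key, map_smul, inner_smul_left, inner_smul_right, starRingEnd_apply,
    star_star, mul_assoc]
  rfl

theorem ent_one (hU : IsBeamSplitter 1 U) : ∀ z y, ent U z y = if y = z then 1 else 0 := by
  have h := bs_of hU
  refine ind₂ (vac hU) (fun z j ih y => ?_) fun z j ih y => ?_
  · refine mul_left_cancel₀ (sqrt_ne (z.1 j)) ?_
    rw [h.lowA, ← swA, ih]
    simp
  · refine mul_left_cancel₀ (sqrt_ne (z.2 j)) ?_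
    rw [h.lowB, ← swB, ih (y.1, y.2 - ee j)]
    simp

theorem ent_zero (hU : IsBeamSplitter 0 U) :
    ∀ z y, ent U z y = if y = z.swap then (-1) ^ tot z.2 else 0 := by
  have h := bs_of hU
  refine ind₂ (fun y => by simpa [tot] using vac hU y) (fun z j ih y => ?_) fun z j ih y => ?_
  · refine mul_left_cancel₀ (sqrt_ne (z.1 j)) ?_
    rw [h.lowA, ih (y.1, y.2 - ee j)]
    simpa using swB j z.swap y _
  · refine mul_left_cancel₀ (sqrt_ne (z.2 j)) ?_
    have h1 : tot (z.2 + ee j) = tot z.2 + 1 := by simp [tot, Finset.sum_add_distrib, ee]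
    have h2 := swA j z.swap y ((-1) ^ tot z.2 * -1)
    rw [h.lowB, ih, h1, pow_succ]
    refine Eq.trans ?_ h2
    split_ifs <;> simp

end Edge

open Edge

theorem edge_one (hU : IsBeamSplitter 1 U) (hB : IsState ρB) (hσ : IsTensor σ ρA ρB)
    (hC : IsMarginal ρC (U * σ * star U)) : ρC = ρA := by
  refine op_ext fun p p' => (hC p p').unique ?_
  simpa only [conj_eq (τ := id) (ent_one hU), star_one, one_mul, id, hσ _ _ _ _, mul_one]
    using hB.trace.mul_left (ent ρA p p')

theorem edge_zero (hU : IsBeamSplitter 0 U) (hA : IsState ρA) (hσ : IsTensor σ ρA ρB)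
    (hC : IsMarginal ρC (U * σ * star U)) : ρC = ρB := by
  refine op_ext fun p p' => (hC p p').unique ?_
  have h : ∀ m : ℕ, (-1 : ℂ) ^ m * star ((-1) ^ m) = 1 := fun m => by simp [← mul_pow]
  simpa only [conj_eq (ent_zero hU), h, one_mul, Prod.swap_prod_mk, hσ _ _ _ _]
    using hA.trace.mul_right (ent ρB p p')

end Vale.Agent.P369
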