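import Mathlib

/-! Matrices as operators on a Hilbert space, along an orthonormal family. -/

open Matrix
open scoped Matrix.Norms.L2Operator ComplexOrder

namespace Vale.Agent.P369.EmbAux

variable {H : Type} [NormedAddCommGroup H] [InnerProductSpace ℂ H] [CompleteSpace H]
  {κ : Type} [Fintype κ] [DecidableEq κ]

/-- a matrix as an operator -/
noncomputable def embG (e : κ → H) (X : Matrix κ κ ℂ) : H →L[ℂ] H :=
  ∑ k, ∑ l, X k l • (innerSL ℂ (e l)).smulRight (e k)

omit [CompleteSpace H] [DecidableEq κ] in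
theorem embG_apply (e : κ → H) (X : Matrix κ κ ℂ) (v : H) :
    embG e X v = ∑ k, (∑ l, X k l * inner ℂ (e l) v) • e k := by
  simp [embG, Finset.sum_smul, smul_smul]

omit [CompleteSpace H] [DecidableEq κ] in
theorem inner_embG (e : κ → H) (X : Matrix κ κ ℂ) (u v : H) :
    inner ℂ u (embG e X v) = ∑ k, ∑ l, inner ℂ u (e k) * X k l * inner ℂ (e l) v := by
  rw [embG_apply, inner_sum]
  refine Finset.sum_congr rfl fun k _ => ?_
  rw [inner_smul_right, Finset.sum_mul]
  exact Finset.sum_congr rfl fun l _ => by ring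

omit [CompleteSpace H] [DecidableEq κ] in
theorem inner_e_embG {e : κ → H} (he : Orthonormal ℂ e) (X : Matrix κ κ ℂ) (k : κ) (v : H) :
    inner ℂ (e k) (embG e X v) = ∑ l, X k l * inner ℂ (e l) v := by
  rw [embG_apply, he.inner_right_fintype]

omit [CompleteSpace H] [DecidableEq κ] in
theorem embG_mul {e : κ → H} (he : Orthonormal ℂ e) (X Y : Matrix κ κ ℂ) :
    embG e (X * Y) = embG e X * embG e Y := by
  ext v
  rw [mul_apply_eq_comp, embG_apply, embG_apply e X]
  refine Finset.sum_congr rfl fun k _ => ?_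
  congr 1
  simp only [inner_e_embG he, Matrix.mul_apply, Finset.sum_mul, Finset.mul_sum, mul_assoc]
  exact Finset.sum_comm

omit [DecidableEq κ] in
theorem embG_star (e : κ → H) (X : Matrix κ κ ℂ) : embG e (star X) = star (embG e X) := by
  rw [ContinuousLinearMap.star_eq_adjoint, ContinuousLinearMap.eq_adjoint_iff]
  intro u v
  rw [← inner_conj_symm, inner_embG, inner_embG, Finset.sum_comm]
  simp only [map_sum, map_mul, inner_conj_symm, star_apply, RCLike.star_def, Complex.conj_conj]
  exact Finset.sum_congr rfl fun k _ => Finset.sum_congr rfl fun l _ => by ring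

/-- the embedding as a homomorphism -/
noncomputable def embH {e : κ → H} (he : Orthonormal ℂ e) : Matrix κ κ ℂ →⋆ₙₐ[ℂ] (H →L[ℂ] H) where
  toFun := embG e
  map_smul' c X := by simp [embG, Finset.smul_sum, smul_smul]
  map_zero' := by simp [embG]
  map_add' X Y := by simp [embG, add_smul, Finset.sum_add_distrib]
  map_mul' := embG_mul he
  map_star' := embG_star e

omit [CompleteSpace H] [DecidableEq κ] in
theorem continuous_embG (e : κ → H) : Continuous (embG e) := by
  unfold embG
  fun_prop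

theorem embG_cfc {e : κ → H} (he : Orthonormal ℂ e) {f : ℝ → ℝ} (hf : Continuous f) (h0 : f 0 = 0)
    {X : Matrix κ κ ℂ} (hX : X.IsHermitian) : cfc f (embG e X) = embG e (cfc f X) := by
  have hX' : IsSelfAdjoint X := hX
  have h1 : IsSelfAdjoint (embH he X) := by
    change star (embG e X) = embG e X
    rw [← embG_star, hX'.star_eq]
  have := (embH he).map_cfcₙ f X hf.continuousOn h0 (continuous_embG e) hX' h1
  rw [cfcₙ_eq_cfc hf.continuousOn h0, cfcₙ_eq_cfc hf.continuousOn h0] at this
  exact this.symm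

omit [DecidableEq κ] in
theorem embG_pos (e : κ → H) {X : Matrix κ κ ℂ} (hX : X.PosSemidef) : (embG e X).IsPositive := by
  have hX' : IsSelfAdjoint X := hX.1
  rw [ContinuousLinearMap.isPositive_iff']
  refine ⟨?_, fun v => ?_⟩
  · change star (embG e X) = embG e X
    rw [← embG_star, hX'.star_eq]
  · have h1 := hX.dotProduct_mulVec_nonneg (fun l => inner ℂ (e l) v)
    have h2 : star (fun l => inner ℂ (e l) v) ⬝ᵥ X *ᵥ (fun l => inner ℂ (e l) v)
        = inner ℂ v (embG e X v) := by
      simp [inner_embG, dotProduct, mulVec, Finset.mul_sum, mul_assoc]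
    rw [h2] at h1
    rw [← inner_conj_symm]
    exact star_nonneg_iff.2 h1

theorem pos_gram {T : H →L[ℂ] H} (h : T.IsPositive) :
    ∃ b : H →L[ℂ] H, ∀ u v, inner ℂ u (T v) = inner ℂ (b u) (b v) := by
  obtain ⟨b, rfl⟩ := CStarAlgebra.nonneg_iff_eq_star_mul_self.1
    ((ContinuousLinearMap.nonneg_iff_isPositive T).2 h)
  exact ⟨b, fun u v => by
    rw [mul_apply_eq_comp, ContinuousLinearMap.star_eq_adjoint,
      ContinuousLinearMap.adjoint_inner_right]⟩

theorem spec_sub {T : H →L[ℂ] H} (h : T.IsPositive) (h1 : ‖T‖ ≤ 1) {x : ℝ}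
    (hx : x ∈ spectrum ℝ T) : 0 ≤ x ∧ x ≤ 1 := by
  refine ⟨spectrum_nonneg_of_nonneg ((ContinuousLinearMap.nonneg_iff_isPositive T).2 h) hx, ?_⟩
  have h2 := spectrum.norm_le_norm_mul_of_mem hx
  have h3 : ‖(1 : H →L[ℂ] H)‖ ≤ 1 := ContinuousLinearMap.norm_id_le
  have h4 := mul_le_mul h1 h3 (norm_nonneg _) zero_le_one
  have h5 := le_abs_self x
  rw [Real.norm_eq_abs] at h2
  linarith

theorem negLog_pos {T : H →L[ℂ] H} (h : T.IsPositive) (h1 : ‖T‖ ≤ 1) :
    (cfc Real.negMulLog T).IsPositive :=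
  (ContinuousLinearMap.nonneg_iff_isPositive _).1
    (cfc_nonneg fun _ hx => Real.negMulLog_nonneg (spec_sub h h1 hx).1 (spec_sub h h1 hx).2)

theorem negMulLog_le {x : ℝ} (hx : 0 ≤ x) (c : ℝ) :
    Real.negMulLog x ≤ c * x + Real.exp (-1 - c) := by
  rcases hx.eq_or_lt with h | h
  · rw [← h]; simpa using (Real.exp_pos _).le
  · have h1 := Real.add_one_le_exp (-1 - c - Real.log x)
    rw [Real.exp_sub, Real.exp_log h, le_div_iff₀ h] at h1
    rw [Real.negMulLog]
    linarith

theorem negLog_le {T : H →L[ℂ] H} (h : T.IsPositive) (c : ℝ) {v : H} (hv : ‖v‖ = 1) :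
    (inner ℂ v (cfc Real.negMulLog T v)).re ≤ c * (inner ℂ v (T v)).re + Real.exp (-1 - c) := by
  have hT := h.isSelfAdjoint
  have h1 : cfc Real.negMulLog T ≤ cfc (fun x : ℝ => c * x + Real.exp (-1 - c)) T :=
    cfc_mono (fun x hx => negMulLog_le (spectrum_nonneg_of_nonneg
      ((ContinuousLinearMap.nonneg_iff_isPositive T).2 h) hx) c)
      Real.continuous_negMulLog.continuousOn (by fun_prop)
  rw [cfc_add_const _ _ _ (by fun_prop) hT, cfc_const_mul_id c T hT,
    ContinuousLinearMap.le_def] at h1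
  have h2 := h1.re_inner_nonneg_right v
  rw [Algebra.algebraMap_eq_smul_one] at h2
  have h3 : inner ℂ v v = 1 := by rw [inner_self_eq_norm_sq_to_K, hv]; simp
  simp only [_root_.sub_apply, _root_.add_apply,
    _root_.smul_apply, one_apply_eq_self, inner_sub_right,
    inner_add_right, ← Complex.coe_smul, inner_smul_right, h3, RCLike.re_to_complex,
    Complex.sub_re, Complex.add_re, Complex.re_ofReal_mul, Complex.one_re] at h2
  linarith

open Filter Topology in
theorem negLog_tendsto {T : ℕ → H →L[ℂ] H} {T₀ : H →L[ℂ] H} (h : ∀ m, IsSelfAdjoint (T m))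
    (hl : Tendsto T atTop (𝓝 T₀)) :
    Tendsto (fun m => cfc Real.negMulLog (T m)) atTop (𝓝 (cfc Real.negMulLog T₀)) := by
  have h0 : IsSelfAdjoint T₀ := by
    have h1 : Tendsto (fun m => star (T m)) atTop (𝓝 (star T₀)) := hl.star
    simp only [fun m => (h m).star_eq] at h1
    exact tendsto_nhds_unique h1 hl
  have hc : ContinuousOn (fun a : H →L[ℂ] H => cfc Real.negMulLog (id a))
      {a | IsSelfAdjoint a} :=
    ContinuousOn.cfc_of_mem_nhdsSet (s := Set.univ) Real.negMulLog univ_mem continuousOn_id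
      (fun _ hx => hx) Real.continuous_negMulLog.continuousOn
  exact (hc T₀ h0).tendsto.comp (tendsto_nhdsWithin_iff.2 ⟨hl, Eventually.of_forall h⟩)

end Vale.Agent.P369.EmbAux
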