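import Vale.Agent.P369.Basic

open Matrix
open scoped Matrix.Norms.L2Operator ComplexOrder Kronecker

namespace Vale.Agent.P369

variable {ι A B C Q : Type} [Fintype ι] [DecidableEq ι] [Fintype A] [DecidableEq A]
  [Fintype B] [DecidableEq B] [Fintype C] [DecidableEq C] [Fintype Q] [DecidableEq Q]

theorem Sf_eq_sum {P : Matrix ι ι ℂ} (hP : P.IsHermitian) :
    Sf P = ∑ i, Real.negMulLog (hP.eigenvalues i) := P371.kfam_trf_eq _ hP

namespace EntAux

/-- functional calculus of a matrix given in diagonalised form -/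
theorem cfc_conj {U : Matrix ι ι ℂ} (h1 : Uᴴ * U = 1) (h2 : U * Uᴴ = 1) (q : ι → ℝ)
    (f : ℝ → ℝ) : cfc f (U * diagonal (fun i => (q i : ℂ)) * Uᴴ) =
      U * diagonal (fun i => (f (q i) : ℂ)) * Uᴴ := by
  have hD : (diagonal fun i => (q i : ℂ)).IsHermitian :=
    isHermitian_diagonal_of_self_adjoint _ (funext fun i => by simp)
  have hQ : (U * diagonal (fun i => (q i : ℂ)) * Uᴴ).IsHermitian :=
    isHermitian_mul_mul_conjTranspose U hD
  obtain ⟨V, hV⟩ : ∃ V : Matrix ι ι ℂ, V = hQ.eigenvectorUnitary := ⟨_, rfl⟩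
  have v1 : Vᴴ * V = 1 := by rw [hV]; exact Unitary.coe_star_mul_self _
  have v2 : V * Vᴴ = 1 := by rw [hV]; exact Unitary.coe_mul_star_self _
  have e1 : U * diagonal (fun i => (q i : ℂ)) * Uᴴ =
      V * diagonal (fun i => (hQ.eigenvalues i : ℂ)) * Vᴴ := by
    rw [hV]; exact hQ.spectral_theorem
  have e2 : cfc f (U * diagonal (fun i => (q i : ℂ)) * Uᴴ) =
      V * diagonal (fun i => (f (hQ.eigenvalues i) : ℂ)) * Vᴴ := by
    rw [hV, hQ.cfc_eq]; rfl
  rw [e2]
  generalize hQ.eigenvalues = l at e1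
  have e3 : diagonal (fun i => (l i : ℂ)) * (Vᴴ * U) = (Vᴴ * U) * diagonal fun i => (q i : ℂ) := by
    have := congrArg (fun X => Vᴴ * X * U) e1
    simp only [Matrix.mul_assoc, h1, Matrix.mul_one] at this
    rw [← Matrix.mul_assoc Vᴴ V, v1, Matrix.one_mul] at this
    rw [← this, Matrix.mul_assoc]
  have e4 : diagonal (fun i => (f (l i) : ℂ)) * (Vᴴ * U) =
      (Vᴴ * U) * diagonal fun i => (f (q i) : ℂ) := by
    ext i j
    have := congrFun (congrFun e3 i) j
    rw [diagonal_mul, mul_diagonal] at this ⊢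
    by_cases h0 : (Vᴴ * U) i j = 0
    · rw [h0, mul_zero, zero_mul]
    · rw [mul_comm, mul_right_inj' h0, Complex.ofReal_inj] at this
      rw [this, mul_comm]
  calc V * diagonal (fun i => (f (l i) : ℂ)) * Vᴴ
      = V * (diagonal (fun i => (f (l i) : ℂ)) * (Vᴴ * U)) * Uᴴ := by
        simp only [Matrix.mul_assoc, h2, Matrix.mul_one]
    _ = _ := by rw [e4, ← Matrix.mul_assoc, ← Matrix.mul_assoc, v2, Matrix.one_mul]

theorem cfc_diagonal (q : ι → ℝ) (f : ℝ → ℝ) :
    cfc f (diagonal fun i => (q i : ℂ)) = diagonal fun i => (f (q i) : ℂ) := by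
  have := cfc_conj (U := (1 : Matrix ι ι ℂ)) (by simp) (by simp) q f
  simpa only [conjTranspose_one, Matrix.mul_one, Matrix.one_mul] using this

theorem spec {P : Matrix ι ι ℂ} (hP : P.IsHermitian) : ∃ U : Matrix ι ι ℂ, Uᴴ * U = 1 ∧
    U * Uᴴ = 1 ∧ P = U * diagonal (fun i => (hP.eigenvalues i : ℂ)) * Uᴴ :=
  ⟨hP.eigenvectorUnitary, Unitary.coe_star_mul_self _, Unitary.coe_mul_star_self _,
    hP.spectral_theorem⟩

theorem tr_diagonal (q : ι → ℝ) : tr (diagonal fun i => (q i : ℂ)) = ∑ i, q i := by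
  simp [tr]

theorem tr_conj {U : Matrix ι ι ℂ} (h1 : Uᴴ * U = 1) (q : ι → ℝ) :
    tr (U * diagonal (fun i => (q i : ℂ)) * Uᴴ) = ∑ i, q i := by
  rw [P371.kfam_tr_comm, ← Matrix.mul_assoc, h1, Matrix.one_mul, tr_diagonal]

theorem tr_eq_sum {P : Matrix ι ι ℂ} (hP : P.IsHermitian) : tr P = ∑ i, hP.eigenvalues i := by
  obtain ⟨U, h1, -, e⟩ := spec hP
  rw [← tr_conj h1, ← e]

theorem eig_le_tr {P : Matrix ι ι ℂ} (hP : P.PosSemidef) (i : ι) :
    hP.1.eigenvalues i ≤ tr P := by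
  rw [tr_eq_sum hP.1]
  exact Finset.single_le_sum (fun i _ => hP.eigenvalues_nonneg i) (Finset.mem_univ i)

theorem conj_psd (U : Matrix ι ι ℂ) {q : ι → ℝ} (hq : ∀ i, 0 ≤ q i) :
    (U * diagonal (fun i => (q i : ℂ)) * Uᴴ).PosSemidef :=
  (PosSemidef.diagonal fun i => Complex.zero_le_real.2 (hq i)).mul_mul_conjTranspose_same U

theorem conj_add_smul {U : Matrix ι ι ℂ} (h2 : U * Uᴴ = 1) (q : ι → ℝ) (z : ℝ) :
    U * diagonal (fun i => (q i : ℂ)) * Uᴴ + z • (1 : Matrix ι ι ℂ) =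
      U * diagonal (fun i => ((q i + z : ℝ) : ℂ)) * Uᴴ := by
  have e : (diagonal fun i => ((q i + z : ℝ) : ℂ)) =
      diagonal (fun i => (q i : ℂ)) + z • (1 : Matrix ι ι ℂ) := by
    ext i j
    by_cases hij : i = j
    · subst hij; simp
    · simp [hij]
  rw [e, Matrix.mul_add, Matrix.add_mul, Matrix.mul_smul, Matrix.mul_one, Matrix.smul_mul, h2]

theorem conj_mul {U : Matrix ι ι ℂ} (h1 : Uᴴ * U = 1) (p q : ι → ℝ) :
    U * diagonal (fun i => (p i : ℂ)) * Uᴴ * (U * diagonal (fun i => (q i : ℂ)) * Uᴴ) =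
      U * diagonal (fun i => ((p i * q i : ℝ) : ℂ)) * Uᴴ := by
  simp only [Matrix.mul_assoc]
  rw [← Matrix.mul_assoc Uᴴ, h1, Matrix.one_mul, ← Matrix.mul_assoc (diagonal _),
    diagonal_mul_diagonal]
  simp only [Complex.ofReal_mul]

/-- a lower bound for a matrix is a lower bound for its eigenvalues -/
theorem le_eig {P : Matrix ι ι ℂ} (hP : P.IsHermitian) {m : ℝ}
    (h : (P - m • (1 : Matrix ι ι ℂ)).PosSemidef) (i : ι) : m ≤ hP.eigenvalues i := by
  obtain ⟨U, h1, h2, e⟩ := spec hP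
  generalize hP.eigenvalues = p at e
  have h3 := (h.conjTranspose_mul_mul_same U).diag_nonneg (i := i)
  rw [e, sub_eq_add_neg, ← neg_smul, conj_add_smul h2] at h3
  simp only [Matrix.mul_assoc] at h3
  rw [h1, Matrix.mul_one, ← Matrix.mul_assoc, h1, Matrix.one_mul, diagonal_apply_eq,
    Complex.zero_le_real] at h3
  linarith

theorem scalar {x : ℝ} (hx : 0 ≤ x) (c : ℝ) :
    Real.negMulLog x ≤ c * x + Real.exp (-1 - c) := by
  rcases hx.eq_or_lt with rfl | hx
  · simp [Real.exp_nonneg]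
  have h := Real.log_le_sub_one_of_pos (div_pos (Real.exp_pos (-1 - c)) hx)
  rw [Real.log_div (Real.exp_pos _).ne' hx.ne', Real.log_exp] at h
  have h2 := mul_le_mul_of_nonneg_left h hx.le
  rw [mul_sub x (_ / _), mul_div_cancel₀ _ hx.ne'] at h2
  rw [Real.negMulLog]
  linarith

end EntAux

open EntAux

theorem continuousOn_Sf : ContinuousOn (Sf : Matrix ι ι ℂ → ℝ) {P | P.IsHermitian} := by
  have h1 : ContinuousOn (fun P : Matrix ι ι ℂ => cfc Real.negMulLog P) {P | P.IsHermitian} :=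
    continuousOn_id.cfc_of_mem_nhdsSet (s := Set.univ) Real.negMulLog (by simp) (fun _ h => h)
      Real.continuous_negMulLog.continuousOn
  exact (Complex.continuous_re.comp continuous_id.matrix_trace).comp_continuousOn h1

theorem Sf_eq {P : Matrix ι ι ℂ} (hP : P.IsHermitian) : Sf P = -tr (P * mlog P) := by
  rw [Sf_eq_sum hP]
  obtain ⟨U, h1, h2, e⟩ := spec hP
  generalize hP.eigenvalues = p at e
  rw [e, mlog, cfc_conj h1 h2, conj_mul h1, tr_conj h1, ← Finset.sum_neg_distrib]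
  simp only [Real.negMulLog, neg_mul]

theorem gibbs {ρ : Matrix ι ι ℂ} (hρ : ρ.PosSemidef) (c : ι → ℝ) :
    Sf ρ ≤ ∑ k, (c k * (ρ k k).re + Real.exp (-1 - c k)) := by
  rw [Sf_eq_sum hρ.1]
  obtain ⟨U, h1, h2, e⟩ := spec hρ.1
  have hp := hρ.eigenvalues_nonneg
  generalize hρ.1.eigenvalues = p at e hp
  have hrow : ∀ i, ∑ j, Complex.normSq (U i j) = 1 := fun i => by
    have := congrArg (fun M : Matrix ι ι ℂ => (M i i).re) h2
    simpa [mul_apply, Complex.normSq_apply] using this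
  have hcol : ∀ j, ∑ i, Complex.normSq (U i j) = 1 := fun j => by
    have := congrArg (fun M : Matrix ι ι ℂ => (M j j).re) h1
    simpa [mul_apply, Complex.normSq_apply] using this
  have hd : ∀ k, (ρ k k).re = ∑ i, Complex.normSq (U k i) * p i := fun k => by
    rw [e, mul_apply, Complex.re_sum]
    refine Finset.sum_congr rfl fun i _ => ?_
    rw [mul_diagonal, conjTranspose_apply, mul_right_comm, Complex.star_def, Complex.mul_conj,
      ← Complex.ofReal_mul, Complex.ofReal_re]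
  calc ∑ i, Real.negMulLog (p i) = ∑ i, ∑ k, Complex.normSq (U k i) * Real.negMulLog (p i) := by
        simp only [← Finset.sum_mul, hcol, one_mul]
    _ ≤ ∑ i, ∑ k, Complex.normSq (U k i) * (c k * p i + Real.exp (-1 - c k)) :=
        Finset.sum_le_sum fun i _ => Finset.sum_le_sum fun k _ =>
          mul_le_mul_of_nonneg_left (scalar (hp i) _) (Complex.normSq_nonneg _)
    _ = _ := by
        rw [Finset.sum_comm]
        refine Finset.sum_congr rfl fun k _ => ?_
        simp only [mul_add, Finset.sum_add_distrib, ← Finset.sum_mul, hrow, one_mul, hd,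
          Finset.mul_sum, mul_left_comm]

theorem Sf_le_card {ρ : Matrix ι ι ℂ} (hρ : ρ.PosSemidef) : Sf ρ ≤ Fintype.card ι := by
  rw [Sf_eq_sum hρ.1]
  calc _ ≤ ∑ _i : ι, (1 : ℝ) := Finset.sum_le_sum fun i _ => by
        have h := hρ.eigenvalues_nonneg i
        linarith [Real.negMulLog_le_one_sub_self h]
    _ = _ := by simp

theorem Sf_ge {ρ : Matrix ι ι ℂ} (hρ : ρ.PosSemidef) (h : tr ρ ≤ 2) : -2 ≤ Sf ρ := by
  rw [Sf_eq_sum hρ.1]
  have h1 : ∑ i, -hρ.1.eigenvalues i ≤ ∑ i, Real.negMulLog (hρ.1.eigenvalues i) :=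
    Finset.sum_le_sum fun i _ => by
      have h0 := hρ.eigenvalues_nonneg i
      have h2 := (eig_le_tr hρ i).trans h
      generalize hρ.1.eigenvalues i = x at h0 h2
      rcases h0.eq_or_lt with rfl | h0
      · simp
      have h3 := mul_le_mul_of_nonneg_left ((Real.log_le_sub_one_of_pos h0).trans
        (show x - 1 ≤ 1 by linarith)) h0.le
      rw [Real.negMulLog]
      linarith
  rw [Finset.sum_neg_distrib, ← tr_eq_sum] at h1
  linarith

open scoped MatrixOrder in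
theorem mlog_mono {P R : Matrix ι ι ℂ} (hP : P.PosDef) (h : (R - P).PosSemidef) :
    (mlog R - mlog P).PosSemidef :=
  Matrix.le_iff.1 (CFC.log_le_log (Matrix.le_iff.2 h) (Matrix.isStrictlyPositive_iff_posDef.2 hP))

theorem mlog_diagonal (d : ι → ℝ) :
    mlog (diagonal fun k => (d k : ℂ)) = diagonal fun k => (Real.log (d k) : ℂ) :=
  cfc_diagonal d Real.log

open scoped MatrixOrder in
theorem tr_mul_nonneg {P R : Matrix ι ι ℂ} (hP : P.PosSemidef) (hR : R.PosSemidef) :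
    0 ≤ tr (P * R) := by
  obtain ⟨B, rfl⟩ := CStarAlgebra.nonneg_iff_eq_star_mul_self.1 (Matrix.nonneg_iff_posSemidef.2 hP)
  rw [Matrix.mul_assoc, P371.kfam_tr_comm]
  exact P371.kfam_tr_nonneg (hR.mul_mul_conjTranspose_same B)

theorem Sf_add_le {P R : Matrix ι ι ℂ} (hP : P.PosSemidef) (hR : R.PosDef) :
    Sf (P + R) ≤ Sf P + Sf R := by
  have h1 := tr_mul_nonneg hR.posSemidef
    (mlog_mono (R := P + R) hR (by rwa [add_sub_cancel_right]))
  obtain ⟨z, hz, hL⟩ := P371.LogD.exists_low hR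
  have hRz : (R - z • (1 : Matrix ι ι ℂ)).PosSemidef := by
    obtain ⟨V, -, v2, e⟩ := spec hR.1
    rw [e, sub_eq_add_neg, ← neg_smul, conj_add_smul v2]
    exact conj_psd V fun i => by
      linarith [hL.2 _ (hR.1.eigenvalues_mem_spectrum_real i)]
  have h2 := tr_mul_nonneg hP (mlog_mono (R := P + R)
    (PosDef.posSemidef_add hP (PosDef.one.smul hz)) (by rwa [add_sub_add_left_eq_sub]))
  have h3 : tr (P * mlog P) ≤ tr (P * mlog (P + z • (1 : Matrix ι ι ℂ))) := by
    obtain ⟨U, u1, u2, e⟩ := spec hP.1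
    have hp := hP.eigenvalues_nonneg
    generalize hP.1.eigenvalues = p at e hp
    rw [e, conj_add_smul u2, mlog, mlog, cfc_conj u1 u2, cfc_conj u1 u2, conj_mul u1, conj_mul u1,
      tr_conj u1, tr_conj u1]
    refine Finset.sum_le_sum fun i _ => ?_
    rcases (hp i).eq_or_lt with h0 | h0
    · rw [← h0, zero_mul, zero_mul]
    · exact mul_le_mul_of_nonneg_left (Real.log_le_log h0 (by linarith)) h0.le
  rw [Matrix.mul_sub, P371.kfam_tr_sub] at h1 h2
  rw [Sf_eq (hP.1.add hR.1), Sf_eq hP.1, Sf_eq hR.1, Matrix.add_mul, P371.kfam_tr_add]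
  linarith

theorem Sf_ge_of_le {ρ : Matrix ι ι ℂ} (hρ : ρ.PosDef) (d : ι → ℝ)
    (h : ((diagonal fun k => (d k : ℂ)) - ρ).PosSemidef) :
    -∑ k, (ρ k k).re * Real.log (d k) ≤ Sf ρ := by
  have h1 := tr_mul_nonneg hρ.posSemidef (mlog_mono hρ h)
  rw [Matrix.mul_sub, P371.kfam_tr_sub, mlog_diagonal] at h1
  have e : tr (ρ * diagonal fun k => (Real.log (d k) : ℂ)) = ∑ k, (ρ k k).re * Real.log (d k) := by
    simp only [tr, trace, diag_apply, mul_diagonal, Complex.re_sum, Complex.re_mul_ofReal]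
  rw [Sf_eq hρ.1, ← e]
  linarith

end Vale.Agent.P369
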