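import Vale.Agent.P369.Kernel
import Vale.Agent.P369.Ent
import Vale.Agent.P369.EmbAux

open Matrix
open scoped Matrix.Norms.L2Operator ComplexOrder Kronecker

namespace Vale.Agent.P369

variable {n M : ℕ}

/-- a matrix on a box as an operator -/
noncomputable def emb (X : Matrix (Box n M) (Box n M) ℂ) : Op (Idx n) :=
  ∑ k, ∑ l, X k l • (innerSL ℂ (ket (val l))).smulRight (ket (val k))

namespace EmbAux

theorem inner_ket {ι : Type} [DecidableEq ι] (k : ι) (v : Fock ι) : inner ℂ (ket k) v = v k := by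
  rw [ket, lp.inner_single_left]; simp

theorem inner_ket_ket {ι : Type} [DecidableEq ι] (k l : ι) :
    inner ℂ (ket k) (ket l) = if k = l then 1 else 0 := by
  rw [inner_ket, ket, lp.single_apply, Pi.single_apply]

theorem orth_ket : Orthonormal ℂ (fun k : Box n M => ket (val k)) := by
  rw [orthonormal_iff_ite]
  intro k l
  rw [inner_ket_ket]
  simp only [val_inj.eq_iff]

theorem emb_eq (X : Matrix (Box n M) (Box n M) ℂ) : emb X = embG (fun k => ket (val k)) X := rfl

end EmbAux

open EmbAux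

theorem ent_emb (X : Matrix (Box n M) (Box n M) ℂ) (k l : Box n M) :
    ent (emb X) (val k) (val l) = X k l := by
  rw [ent, emb_eq, inner_e_embG orth_ket X k]
  simp [inner_ket_ket, val_inj.eq_iff]

theorem ent_emb_zero (X : Matrix (Box n M) (Box n M) ℂ) {k l : Idx n}
    (h : ent (emb X) k l ≠ 0) : (∀ j, k j ≤ M) ∧ ∀ j, l j ≤ M := by
  rw [ent, emb_eq, inner_embG] at h
  obtain ⟨a, -, ha⟩ := Finset.exists_ne_zero_of_sum_ne_zero h
  obtain ⟨b, -, hb⟩ := Finset.exists_ne_zero_of_sum_ne_zero ha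
  have h1 : k = val a := by
    by_contra hc
    exact hb (by rw [inner_ket_ket, if_neg hc]; simp)
  have h2 : val b = l := by
    by_contra hc
    exact hb (by rw [inner_ket_ket (val b), if_neg hc]; simp)
  exact ⟨fun j => h1 ▸ val_le a j, fun j => h2 ▸ val_le b j⟩

theorem isState_emb {X : Matrix (Box n M) (Box n M) ℂ} (h : X ∈ Dens (Box n M)) :
    IsState (emb X) := by
  refine ⟨embG_pos _ h.1, ?_⟩
  have h1 := hasSum_box (M := M) (F := fun k => ent (emb X) k k) (fun x hx => (ent_emb_zero X hx).1)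
  simp only [ent_emb] at h1
  have h2 : ∑ k, X k k = 1 := h.2
  rwa [h2] at h1

theorem entropy_emb {X : Matrix (Box n M) (Box n M) ℂ} (h : X.IsHermitian) :
    entropy (emb X) = Sf X := by
  have h0 : negLog (emb X) = emb (cfc Real.negMulLog X) :=
    embG_cfc orth_ket Real.continuous_negMulLog Real.negMulLog_zero h
  have h1 := hasSum_box (M := M) (F := fun k => (ent (emb (cfc Real.negMulLog X)) k k).re)
    (fun x hx => (ent_emb_zero (cfc Real.negMulLog X) (k := x) (l := x)
      (fun h => hx (by rw [h]; rfl))).1)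
  rw [entropy, h0, h1.tsum_eq]
  simp only [ent_emb, Sf, P371.trf, P371.tr, trace, diag_apply, Complex.re_sum]

theorem res_psd {ρ : Op (Idx n)} (h : ρ.IsPositive) (M : ℕ) : (res M (ent ρ)).PosSemidef := by
  obtain ⟨b, hb⟩ := pos_gram h
  have e : res M (ent ρ) = gram ℂ (fun k : Box n M => b (ket (val k))) := by
    ext k l
    exact hb _ _
  rw [e]
  exact posSemidef_gram ℂ _

theorem ent_sq_le {ι : Type} [DecidableEq ι] {ρ : Op ι} (h : ρ.IsPositive) (k l : ι) :
    ‖ent ρ k l‖ ^ 2 ≤ (ent ρ k k).re * (ent ρ l l).re := by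
  obtain ⟨b, hb⟩ := pos_gram h
  simp only [ent, hb]
  have h1 : ∀ v : Fock ι, (inner ℂ v v).re = ‖v‖ ^ 2 := fun v => inner_self_eq_norm_sq (𝕜 := ℂ) v
  rw [h1, h1, ← mul_pow]
  exact pow_le_pow_left₀ (norm_nonneg _) (norm_inner_le_norm _ _) 2

theorem ent_diag_nonneg {ι : Type} [DecidableEq ι] {ρ : Op ι} (h : ρ.IsPositive) (k : ι) :
    0 ≤ ent ρ k k := by
  exact h.inner_nonneg_right _

end Vale.Agent.P369
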