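import Vale.Agent.P369.Kernel

open Matrix
open scoped Matrix.Norms.L2Operator ComplexOrder Kronecker

namespace Vale.Agent.P369

namespace EBS

open MvPolynomial

variable {n : ℕ}

/-- polynomials in the creation operators -/
abbrev Pol (n : ℕ) : Type := MvPolynomial (Fin n ⊕ Fin n) ℂ

/-- exponents -/
noncomputable def ex : Idx n × Idx n ≃ (Fin n ⊕ Fin n →₀ ℕ) :=
  (Equiv.sumArrowEquivProdArrow (Fin n) (Fin n) ℕ).symm.trans Finsupp.equivFunOnFinite.symm

theorem ex_inl (z : Idx n × Idx n) (j : Fin n) : ex z (Sum.inl j) = z.1 j := rfl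

theorem ex_inr (z : Idx n × Idx n) (j : Fin n) : ex z (Sum.inr j) = z.2 j := rfl

theorem ex_zero : ex ((0, 0) : Idx n × Idx n) = 0 := by
  ext i
  cases i <;> rfl

theorem ex_addA (z : Idx n × Idx n) (j : Fin n) :
    ex (z.1 + Pi.single j 1, z.2) = ex z + Finsupp.single (Sum.inl j) 1 := by
  ext i
  cases i with
  | inl k => simp [ex_inl, Finsupp.single_apply, Pi.single_apply, eq_comm]
  | inr k => simp [ex_inr]

theorem ex_addB (z : Idx n × Idx n) (j : Fin n) :
    ex (z.1, z.2 + Pi.single j 1) = ex z + Finsupp.single (Sum.inr j) 1 := by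
  ext i
  cases i with
  | inl k => simp [ex_inl]
  | inr k => simp [ex_inr, Finsupp.single_apply, Pi.single_apply, eq_comm]

/-- the norm of a monomial -/
noncomputable def wt (e : Fin n ⊕ Fin n →₀ ℕ) : ℝ := Real.sqrt (∏ i, ((e i).factorial : ℝ))

theorem wt_pos (e : Fin n ⊕ Fin n →₀ ℕ) : 0 < wt e :=
  Real.sqrt_pos.mpr (Finset.prod_pos fun i _ => by exact_mod_cast (e i).factorial_pos)

theorem wt_ne (e : Fin n ⊕ Fin n →₀ ℕ) : (wt e : ℂ) ≠ 0 := by
  exact_mod_cast (wt_pos e).ne'

theorem wt_zero : wt (0 : Fin n ⊕ Fin n →₀ ℕ) = 1 := by simp [wt]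

theorem wt_add (e : Fin n ⊕ Fin n →₀ ℕ) (i : Fin n ⊕ Fin n) :
    wt (e + Finsupp.single i 1) = Real.sqrt (e i + 1) * wt e := by
  rw [wt, wt, ← Real.sqrt_mul (by positivity), ← Finset.mul_prod_erase _ _ (Finset.mem_univ i),
    ← Finset.mul_prod_erase _ (fun i => ((e i).factorial : ℝ)) (Finset.mem_univ i), ← mul_assoc]
  congr 2
  · simp [Nat.factorial_succ]
  · refine Finset.prod_congr rfl fun k hk => ?_
    rw [Finsupp.add_apply, Finsupp.single_eq_of_ne (Finset.ne_of_mem_erase hk), add_zero]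

theorem sq_sqrt (k : ℕ) :
    (Real.sqrt ((k : ℝ) + 1) : ℂ) * (Real.sqrt ((k : ℝ) + 1) : ℂ) = (k : ℂ) + 1 := by
  rw [← Complex.ofReal_mul, Real.mul_self_sqrt (by positivity)]
  push_cast
  rfl

/-- the Bargmann embedding of polynomials in the Fock space -/
noncomputable def J : Pol n →ₗ[ℂ] Fock (Idx n × Idx n) :=
  (basisMonomials (Fin n ⊕ Fin n) ℂ).constr ℂ fun e => (wt e : ℂ) • ket (ex.symm e)

theorem J_monomial (e : Fin n ⊕ Fin n →₀ ℕ) (a : ℂ) :
    J (monomial e a) = (a * wt e) • ket (ex.symm e) := by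
  have h : (monomial e a : Pol n) = a • basisMonomials (Fin n ⊕ Fin n) ℂ e := by
    simp [smul_monomial]
  rw [h, map_smul, J, Module.Basis.constr_basis, smul_smul]

theorem J_apply (P : Pol n) (z : Idx n × Idx n) : J P z = wt (ex z) * coeff (ex z) P := by
  induction P using MvPolynomial.induction_on' with
  | add p q hp hq => rw [map_add, lp.coeFn_add, Pi.add_apply, hp, hq, coeff_add, mul_add]
  | monomial e a =>
    obtain ⟨y, rfl⟩ := ex.surjective e
    rw [J_monomial, lp.coeFn_smul, Pi.smul_apply, Equiv.symm_apply_apply, ket, lp.single_apply,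
      coeff_monomial, Pi.single_apply]
    by_cases h : z = y
    · subst h
      simp [mul_comm]
    · rw [if_neg h, if_neg fun h' => h (ex.injective h').symm]
      simp

theorem ket_eq (y : Idx n × Idx n) : ket y = J (monomial (ex y) (wt (ex y) : ℂ)⁻¹) := by
  rw [J_monomial, inv_mul_cancel₀ (wt_ne _), one_smul, Equiv.symm_apply_apply]

theorem inner_ket (y : Idx n × Idx n) (f : Fock (Idx n × Idx n)) : inner ℂ (ket y) f = f y := by
  rw [ket, lp.inner_single_left]
  simp

theorem inner_monomial (e : Fin n ⊕ Fin n →₀ ℕ) (a : ℂ) (Q : Pol n) :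
    inner ℂ (J (monomial e a)) (J Q) = star a * (wt e * wt e) * coeff e Q := by
  rw [J_monomial, inner_smul_left, inner_ket, J_apply, Equiv.apply_symm_apply, map_mul,
    Complex.conj_ofReal, Complex.star_def]
  ring

theorem adj (i : Fin n ⊕ Fin n) (P Q : Pol n) :
    inner ℂ (J (P * X i)) (J Q) = inner ℂ (J P) (J (pderiv i Q)) := by
  induction P using MvPolynomial.induction_on' with
  | add p q hp hq => rw [add_mul, map_add, map_add, inner_add_left, inner_add_left, hp, hq]
  | monomial e a =>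
    rw [X, monomial_mul, mul_one, inner_monomial, inner_monomial, coeff_pderiv, wt_add]
    push_cast
    linear_combination (star a * (wt e * wt e) * coeff (e + Finsupp.single i 1) Q) * sq_sqrt (e i)

theorem annA_J (j : Fin n) (P : Pol n) : annA j (J P) = J (pderiv (Sum.inl j) P) := by
  funext z
  rw [annA, J_apply, J_apply, ex_addA, wt_add, coeff_pderiv, ex_inl]
  push_cast
  linear_combination (wt (ex z) * coeff (ex z + Finsupp.single (Sum.inl j) 1) P) * sq_sqrt (z.1 j)

theorem annB_J (j : Fin n) (P : Pol n) : annB j (J P) = J (pderiv (Sum.inr j) P) := by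
  funext z
  rw [annB, J_apply, J_apply, ex_addB, wt_add, coeff_pderiv, ex_inr]
  push_cast
  linear_combination (wt (ex z) * coeff (ex z + Finsupp.single (Sum.inr j) 1) P) * sq_sqrt (z.2 j)

/-- the rotation of the variables -/
noncomputable def rot (s t : ℝ) : Pol n →ₐ[ℂ] Pol n :=
  aeval (Sum.elim (fun k => (s : ℂ) • X (Sum.inl k) - (t : ℂ) • X (Sum.inr k))
    fun k => (t : ℂ) • X (Sum.inl k) + (s : ℂ) • X (Sum.inr k))

theorem rot_inl (s t : ℝ) (k : Fin n) :
    rot s t (X (Sum.inl k)) = (s : ℂ) • X (Sum.inl k) - (t : ℂ) • X (Sum.inr k) := aeval_X _ _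

theorem rot_inr (s t : ℝ) (k : Fin n) :
    rot s t (X (Sum.inr k)) = (t : ℂ) • X (Sum.inl k) + (s : ℂ) • X (Sum.inr k) := aeval_X _ _

theorem rot_C (s t : ℝ) (a : ℂ) : rot s t (C a : Pol n) = C a := (rot s t).commutes a

theorem chain_aux (s t : ℝ) (i i₁ i₂ : Fin n ⊕ Fin n) (a b : ℂ)
    (h : ∀ k, pderiv i (rot s t (X k)) = rot s t (a • pderiv i₁ (X k) + b • pderiv i₂ (X k)))
    (Q : Pol n) : pderiv i (rot s t Q) = rot s t (a • pderiv i₁ Q + b • pderiv i₂ Q) := by
  induction Q using MvPolynomial.induction_on with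
  | C c => rw [rot_C, pderiv_C, pderiv_C, pderiv_C, smul_zero, smul_zero, add_zero, map_zero]
  | add p q hp hq =>
    simp only [map_add, map_smul, smul_add] at hp hq ⊢
    rw [hp, hq]
    abel
  | mul_X p k hp =>
    rw [map_mul, pderiv_mul, hp, h, pderiv_mul, pderiv_mul]
    simp only [map_add, map_mul, smul_eq_C_mul, rot_C]
    ring

theorem chainA (s t : ℝ) (j : Fin n) (Q : Pol n) : pderiv (Sum.inl j) (rot s t Q) =
    rot s t ((s : ℂ) • pderiv (Sum.inl j) Q + (t : ℂ) • pderiv (Sum.inr j) Q) := by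
  refine chain_aux s t _ _ _ _ _ (fun k => ?_) Q
  cases k with
  | inl k =>
    rw [rot_inl]
    by_cases h : k = j
    · subst h
      simp [pderiv_X, -Complex.coe_smul]
    · simp [pderiv_X, h]
  | inr k =>
    rw [rot_inr]
    by_cases h : k = j
    · subst h
      simp [pderiv_X, -Complex.coe_smul]
    · simp [pderiv_X, h]

theorem chainB (s t : ℝ) (j : Fin n) (Q : Pol n) : pderiv (Sum.inr j) (rot s t Q) =
    rot s t ((-t : ℂ) • pderiv (Sum.inl j) Q + (s : ℂ) • pderiv (Sum.inr j) Q) := by
  refine chain_aux s t _ _ _ _ _ (fun k => ?_) Q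
  cases k with
  | inl k =>
    rw [rot_inl]
    by_cases h : k = j
    · subst h
      simp [pderiv_X, -Complex.coe_smul]
    · simp [pderiv_X, h]
  | inr k =>
    rw [rot_inr]
    by_cases h : k = j
    · subst h
      simp [pderiv_X, -Complex.coe_smul]
    · simp [pderiv_X, h]

theorem constantCoeff_rot (s t : ℝ) (Q : Pol n) : constantCoeff (rot s t Q) = constantCoeff Q := by
  induction Q using MvPolynomial.induction_on with
  | C c => rw [rot_C]
  | add p q hp hq => rw [map_add, map_add, map_add, hp, hq]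
  | mul_X p k _ =>
    rw [map_mul, map_mul, map_mul, constantCoeff_X, mul_zero]
    cases k with
    | inl k => simp [rot_inl]
    | inr k => simp [rot_inr]

theorem rot_iso {s t : ℝ} (hst : (s : ℂ) ^ 2 + (t : ℂ) ^ 2 = 1) (P : Pol n) : ∀ Q : Pol n,
    inner ℂ (J (rot s t P)) (J (rot s t Q)) = inner ℂ (J P) (J Q) := by
  induction P using MvPolynomial.induction_on with
  | C c =>
    intro Q
    rw [rot_C, ← monomial_zero', inner_monomial, inner_monomial, ← constantCoeff_eq,
      constantCoeff_rot]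
  | add p q hp hq =>
    intro Q
    rw [map_add, map_add, map_add, inner_add_left, inner_add_left, hp, hq]
  | mul_X p k hp =>
    intro Q
    rw [adj, map_mul]
    cases k with
    | inl k =>
      rw [rot_inl, mul_sub, mul_smul_comm, mul_smul_comm, map_sub, map_smul, map_smul,
        inner_sub_left, inner_smul_left, inner_smul_left, adj, adj, chainA, chainB, hp, hp]
      simp only [map_add, map_smul, inner_add_right, inner_smul_right, Complex.conj_ofReal]
      linear_combination (inner ℂ (J p) (J (pderiv (Sum.inl k) Q))) * hst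
    | inr k =>
      rw [rot_inr, mul_add, mul_smul_comm, mul_smul_comm, map_add, map_smul, map_smul,
        inner_add_left, inner_smul_left, inner_smul_left, adj, adj, chainA, chainB, hp, hp]
      simp only [map_add, map_smul, inner_add_right, inner_smul_right, Complex.conj_ofReal]
      linear_combination (inner ℂ (J p) (J (pderiv (Sum.inr k) Q))) * hst

theorem rot_inv {s t : ℝ} (hst : (s : ℂ) ^ 2 + (t : ℂ) ^ 2 = 1) (P : Pol n) :
    rot s t (rot s (-t) P) = P := by
  have h : (rot s t).comp (rot s (-t)) = AlgHom.id ℂ (Pol n) := by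
    refine algHom_ext fun k => ?_
    rw [AlgHom.comp_apply, AlgHom.id_apply]
    cases k with
    | inl k =>
      rw [rot_inl, map_sub, map_smul, map_smul, rot_inl, rot_inr]
      push_cast
      linear_combination (norm := module) hst • (X (Sum.inl k) : Pol n)
    | inr k =>
      rw [rot_inr, map_add, map_smul, map_smul, rot_inl, rot_inr]
      push_cast
      linear_combination (norm := module) hst • (X (Sum.inr k) : Pol n)
  exact DFunLike.congr_fun h P

theorem exists_unitary {s t : ℝ} (hst : (s : ℂ) ^ 2 + (t : ℂ) ^ 2 = 1) :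
    ∃ U : Op (Idx n × Idx n), U ∈ unitary (Op (Idx n × Idx n)) ∧
      ∀ P : Pol n, U (J P) = J (rot s t P) := by
  set v : Idx n × Idx n → Fock (Idx n × Idx n) := fun y =>
    J (rot s t (monomial (ex y) (wt (ex y) : ℂ)⁻¹)) with hv
  have hon : Orthonormal ℂ v := by
    rw [orthonormal_iff_ite]
    intro y y'
    simp only [hv]
    rw [rot_iso hst, ← ket_eq, ← ket_eq, inner_ket, ket, lp.single_apply, Pi.single_apply]
  have hmon : ∀ (y : Idx n × Idx n) (a : ℂ),
      J (rot s t (monomial (ex y) a)) = (a * wt (ex y)) • v y := by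
    intro y a
    simp only [hv]
    rw [← map_smul, ← map_smul, smul_monomial, smul_eq_mul, mul_assoc, mul_inv_cancel₀ (wt_ne _),
      mul_one]
  have hsp : (Submodule.span ℂ (Set.range v))ᗮ = ⊥ := by
    rw [Submodule.eq_bot_iff]
    intro x hx
    have h1 : ∀ P : Pol n, J (rot s t P) ∈ Submodule.span ℂ (Set.range v) := by
      intro P
      induction P using MvPolynomial.induction_on' with
      | add p q hp hq => rw [map_add, map_add]; exact Submodule.add_mem _ hp hq
      | monomial e a =>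
        obtain ⟨y, rfl⟩ := ex.surjective e
        rw [hmon]
        exact Submodule.smul_mem _ _ (Submodule.subset_span ⟨y, rfl⟩)
    ext z
    have h2 := (Submodule.mem_orthogonal _ _).mp hx _
      (h1 (rot s (-t) (monomial (ex z) (wt (ex z) : ℂ)⁻¹)))
    rw [rot_inv hst, ← ket_eq, inner_ket] at h2
    exact h2
  set b := HilbertBasis.mkOfOrthogonalEqBot hon hsp with hb
  refine ⟨(Unitary.linearIsometryEquiv.symm b.repr.symm : unitary (Op (Idx n × Idx n))),
    Subtype.property _, fun P => ?_⟩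
  show b.repr.symm (J P) = _
  induction P using MvPolynomial.induction_on' with
  | add p q hp hq => rw [map_add, map_add, map_add, map_add, hp, hq]
  | monomial e a =>
    obtain ⟨y, rfl⟩ := ex.surjective e
    rw [hmon, J_monomial, map_smul, Equiv.symm_apply_apply, ket, HilbertBasis.repr_symm_single, hb,
      HilbertBasis.coe_mkOfOrthogonalEqBot]

end EBS

theorem exists_bs (n : ℕ) {η : ℝ} (h0 : 0 ≤ η) (h1 : η ≤ 1) :
    ∃ U : Op (Idx n × Idx n), IsBeamSplitter η U := by
  have hst : (Real.sqrt η : ℂ) ^ 2 + (Real.sqrt (1 - η) : ℂ) ^ 2 = 1 := by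
    rw [← Complex.ofReal_pow, ← Complex.ofReal_pow, Real.sq_sqrt h0, Real.sq_sqrt (by linarith)]
    push_cast
    ring
  obtain ⟨U, hU, hJ⟩ := EBS.exists_unitary (n := n) hst
  refine ⟨U, hU, ?_, fun j y φ hφ => ?_, fun j y φ hφ => ?_⟩
  · rw [act, EBS.ket_eq, hJ, EBS.ex_zero, MvPolynomial.monomial_zero', EBS.rot_C]
  · unfold coef act at *
    rw [EBS.ket_eq] at hφ ⊢
    rw [EBS.annA_J, EBS.annB_J] at hφ
    rw [hJ, EBS.annA_J, EBS.chainA, ← hJ]
    congr 2
    ext z
    rw [hφ z, map_add, map_smul, map_smul]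
    rfl
  · unfold coef act at *
    rw [EBS.ket_eq] at hφ ⊢
    rw [EBS.annA_J, EBS.annB_J] at hφ
    rw [hJ, EBS.annB_J, EBS.chainB, ← hJ]
    congr 2
    ext z
    rw [hφ z, map_add, map_smul, map_smul]
    rfl

end Vale.Agent.P369
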