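import Vale.Agent.P369.Emb

open Matrix
open scoped Matrix.Norms.L2Operator ComplexOrder Kronecker

namespace Vale.Agent.P369

variable {ι : Type} [DecidableEq ι]

namespace ExistOp

open ContinuousLinearMap

theorem hs_norm {κ E : Type} [NormedAddCommGroup E] (f : lp (fun _ : κ => E) 2) :
    HasSum (fun i => ‖f i‖ ^ 2) (‖f‖ ^ 2) := by
  simpa using lp.hasSum_norm (p := 2) (by norm_num) f

theorem mem_two {κ E : Type} [NormedAddCommGroup E] {f : κ → E}
    (h : Summable fun i => ‖f i‖ ^ 2) : Memℓp f 2 :=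
  memℓp_gen (by simpa using h)

theorem hs_iff {κ H : Type} [NormedAddCommGroup H] [InnerProductSpace ℂ H] (v : κ → H) :
    HasSum (fun k => inner ℂ (v k) (v k)) 1 ↔ HasSum (fun k => ‖v k‖ ^ 2) 1 := by
  rw [← Complex.hasSum_ofReal]
  simp only [inner_self_eq_norm_sq_to_K]
  push_cast
  rfl

theorem inner_ket (k : ι) (f : Fock ι) : inner ℂ (ket k) f = f k := by
  rw [ket, lp.inner_single_left]
  simp

/-- A square summable family of vectors gives a state whose matrix is the Gram matrix. -/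
theorem gram {H : Type} [NormedAddCommGroup H] [InnerProductSpace ℂ H] [CompleteSpace H]
    (v : ι → H) (h : HasSum (fun k => inner ℂ (v k) (v k)) 1) :
    ∃ ρ : Op ι, IsState ρ ∧ ∀ k l, ent ρ k l = inner ℂ (v k) (v l) := by
  have h1 := (hs_iff v).1 h
  have h2 : ∀ (x : H) k, ‖inner ℂ (v k) x‖ ^ 2 ≤ ‖v k‖ ^ 2 * ‖x‖ ^ 2 := fun x k => by
    rw [← mul_pow]
    exact pow_le_pow_left₀ (norm_nonneg _) (norm_inner_le_norm _ _) 2
  have h3 : ∀ x : H, Memℓp (fun k => inner ℂ (v k) x) 2 := fun x =>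
    mem_two (Summable.of_nonneg_of_le (fun _ => by positivity) (h2 x) (h1.summable.mul_right _))
  let A0 : H →ₗ[ℂ] Fock ι :=
    { toFun := fun x => ⟨fun k => inner ℂ (v k) x, h3 x⟩
      map_add' := fun x y => by
        ext k
        exact inner_add_right _ _ _
      map_smul' := fun c x => by
        ext k
        exact inner_smul_right _ _ _ }
  have h4 : ∀ x, ‖A0 x‖ ≤ 1 * ‖x‖ := fun x => by
    have h5 := hasSum_le (h2 x) (hs_norm (A0 x)) (h1.mul_right (‖x‖ ^ 2))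
    rw [one_mul] at h5 ⊢
    exact (pow_le_pow_iff_left₀ (norm_nonneg _) (norm_nonneg _) two_ne_zero).1 h5
  let A : H →L[ℂ] Fock ι := A0.mkContinuous 1 h4
  have h6 : ∀ k, adjoint A (ket k) = v k := fun k => by
    refine ext_inner_right ℂ fun x => ?_
    rw [adjoint_inner_left, inner_ket]
    rfl
  have h7 : ∀ k l, ent (A ∘L adjoint A) k l = inner ℂ (v k) (v l) := fun k l => by
    rw [ent, ContinuousLinearMap.comp_apply, ← adjoint_inner_left, h6, h6]
  refine ⟨A ∘L adjoint A, ⟨isPositive_self_comp_adjoint A, ?_⟩, h7⟩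
  simpa only [h7] using h

theorem exists_sqrt {H : Type} [NormedAddCommGroup H] [InnerProductSpace ℂ H] [CompleteSpace H]
    {ρ : H →L[ℂ] H} (h : ρ.IsPositive) : ∃ R : H →L[ℂ] H, adjoint R = R ∧ R * R = ρ := by
  have h0 : 0 ≤ ρ := (nonneg_iff_isPositive ρ).2 h
  exact ⟨CFC.sqrt ρ, (CFC.sqrt_nonneg ρ).isSelfAdjoint, CFC.sqrt_mul_sqrt_self ρ h0⟩

theorem exists_vec {ρ : Op ι} (h : ρ.IsPositive) :
    ∃ r : ι → Fock ι, ∀ k l, ent ρ k l = inner ℂ (r k) (r l) := by
  obtain ⟨R, h1, h2⟩ := exists_sqrt h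
  refine ⟨fun k => R (ket k), fun k l => ?_⟩
  rw [ent, ← h2, mul_apply_eq_comp, ← adjoint_inner_left, h1]

omit [DecidableEq ι] in
theorem hs_mul' {f g : ι → ℂ} {F : ι × ι → ℂ} {a b c : ℂ} (hf : HasSum f a) (hg : HasSum g b)
    (hF : HasSum F c) (e : ∀ z, F z = f z.1 * g z.2) : c = a * b := by
  rw [funext e] at hF
  exact hF.unique (hf.mul hg hF.summable)

omit [DecidableEq ι] in
theorem exists_tmul : ∃ t : Fock ι → Fock ι → Fock (ι × ι), ∀ a b a' b',
    inner ℂ (t a b) (t a' b') = inner ℂ a a' * inner ℂ b b' := by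
  have h1 : ∀ a b : Fock ι, ∃ c : Fock (ι × ι), ∀ z, c z = a z.1 * b z.2 := fun a b => by
    refine ⟨⟨fun z : ι × ι => a z.1 * b z.2, mem_two ?_⟩, fun _ => rfl⟩
    simp only [norm_mul, mul_pow]
    exact Summable.mul_of_nonneg (f := fun i => ‖a i‖ ^ 2) (g := fun i => ‖b i‖ ^ 2)
      (hs_norm a).summable (hs_norm b).summable (fun _ => sq_nonneg _) (fun _ => sq_nonneg _)
  choose t ht using h1
  refine ⟨t, fun a b a' b' => hs_mul' (lp.hasSum_inner a a') (lp.hasSum_inner b b')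
    (lp.hasSum_inner (t a b) (t a' b')) fun z => ?_⟩
  simp only [ht, RCLike.inner_apply, map_mul]
  ring

omit [DecidableEq ι] in
theorem hs_swap {f : ι → ι → ℝ} {a b : ι → ℝ} {s : ℝ} (h0 : ∀ k l, 0 ≤ f k l)
    (ha : ∀ k, HasSum (fun l => f k l) (a k)) (hb : ∀ l, HasSum (fun k => f k l) (b l))
    (h : HasSum a s) : HasSum b s := by
  have h1 : Summable fun z : ι × ι => f z.1 z.2 := by
    refine (summable_prod_of_nonneg fun _ => h0 _ _).2 ⟨fun k => (ha k).summable, ?_⟩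
    simpa only [(ha _).tsum_eq] using h.summable
  have h2 := h1.hasSum
  rw [← h.unique (h2.prod_fiberwise ha)] at h2
  have h3 : HasSum (fun z : ι × ι => f z.2 z.1) s := (Equiv.prodComm ι ι).hasSum_iff.2 h2
  exact h3.prod_fiberwise hb

theorem hs_adjoint (B : Op ι) {s : ℝ} (h : HasSum (fun l => ‖adjoint B (ket l)‖ ^ 2) s) :
    HasSum (fun k => ‖B (ket k)‖ ^ 2) s := by
  have e : ∀ k l, ‖adjoint B (ket l) k‖ = ‖B (ket k) l‖ := fun k l => by
    rw [← inner_ket, ← inner_ket, adjoint_inner_right, norm_inner_symm]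
  refine hs_swap (f := fun l k => ‖adjoint B (ket l) k‖ ^ 2) (fun _ _ => sq_nonneg _)
    (fun l => hs_norm _) (fun k => ?_) h
  simp only [e]
  exact hs_norm _

omit [DecidableEq ι] in
theorem hs_mul {f g : ι → ℂ} (hf : HasSum f 1) (hg : HasSum g 1) :
    HasSum (fun z : ι × ι => f z.1 * g z.2) 1 := by
  simpa only [mul_one] using
    hf.mul hg (summable_mul_of_summable_norm hf.summable.norm hg.summable.norm)

end ExistOp

open ExistOp

theorem exists_tensor {ρ ρ' : Op ι} (h : IsState ρ) (h' : IsState ρ') :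
    ∃ σ : Op (ι × ι), IsState σ ∧ IsTensor σ ρ ρ' := by
  obtain ⟨r, hr⟩ := exists_vec h.pos
  obtain ⟨r', hr'⟩ := exists_vec h'.pos
  obtain ⟨t, ht⟩ := exists_tmul (ι := ι)
  have h3 := hs_mul h.trace h'.trace
  simp only [hr, hr', ← ht] at h3
  obtain ⟨σ, h4, h5⟩ := gram (fun z : ι × ι => t (r z.1) (r' z.2)) h3
  exact ⟨σ, h4, fun k l k' l' => by rw [h5, ht, hr, hr']⟩

theorem exists_marginal {ω : Op (ι × ι)} (h : IsState ω) :
    ∃ ρ : Op ι, IsState ρ ∧ IsMarginal ρ ω := by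
  obtain ⟨r, hr⟩ := exists_vec h.pos
  have h1 := h.trace
  simp only [hr] at h1
  have h2 : ∀ p, Memℓp (fun q => r (p, q)) 2 := fun p =>
    mem_two (((hs_iff r).1 h1).summable.prod_factor p)
  let v : ι → lp (fun _ : ι => Fock (ι × ι)) 2 := fun p => ⟨_, h2 p⟩
  have h3 : ∀ p p', HasSum (fun q => inner ℂ (r (p, q)) (r (p', q))) (inner ℂ (v p) (v p')) :=
    fun p p' => lp.hasSum_inner (v p) (v p')
  obtain ⟨ρ, h4, h5⟩ := gram v (h1.prod_fiberwise fun p => h3 p p)
  exact ⟨ρ, h4, fun p p' => by simpa only [hr, h5] using h3 p p'⟩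

open ContinuousLinearMap in
theorem IsState.conj {σ U : Op ι} (h : IsState σ) (hU : U ∈ unitary (Op ι)) :
    IsState (U * σ * star U) := by
  refine ⟨h.pos.conj_adjoint U, ?_⟩
  obtain ⟨R, h1, h2⟩ := exists_sqrt h.pos
  have h3 : adjoint (R * star U) = U * R := by
    rw [← star_eq_adjoint, star_mul, star_star, star_eq_adjoint R, h1]
  have h4 : ∀ k, ent σ k k = inner ℂ (R (ket k)) (R (ket k)) := fun k => by
    rw [ent, ← h2, mul_apply_eq_comp, ← adjoint_inner_left, h1]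
  have h5 : ∀ k, ent (U * σ * star U) k k
      = inner ℂ ((R * star U) (ket k)) ((R * star U) (ket k)) := fun k => by
    rw [← adjoint_inner_right, h3, ent, ← h2]
    rfl
  have h6 := h.trace
  simp only [h4, h5] at h6 ⊢
  refine (hs_iff _).2 (hs_adjoint _ ?_)
  simpa only [h3, mul_apply_eq_comp, norm_map_of_mem_unitary hU] using (hs_iff _).1 h6

end Vale.Agent.P369
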