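import Vale.Agent.P369.MinCondAux

open Matrix Filter Topology
open scoped Matrix.Norms.L2Operator ComplexOrder Kronecker

namespace Vale.Agent.P369

variable {ι A B C Q : Type} [Fintype ι] [DecidableEq ι] [Fintype A] [DecidableEq A]
  [Fintype B] [DecidableEq B] [Fintype C] [DecidableEq C] [Fintype Q] [DecidableEq Q]

theorem exists_min [Nonempty A] [Nonempty B] (V : Matrix (C × Q) (A × B) ℂ) {R : Matrix C C ℂ}
    (hR : R.IsHermitian) (FA : Matrix A A ℂ) (FB : Matrix B B ℂ) (lC lA lB : ℝ) :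
    ∃ ρA ∈ Dens A, ∃ ρB ∈ Dens B, ∀ ρA' ∈ Dens A, ∀ ρB' ∈ Dens B,
      Phi V R FA FB lC lA lB ρA ρB ≤ Phi V R FA FB lC lA lB ρA' ρB' := by
  have hne : ∀ (E : Type) [Fintype E] [DecidableEq E] [Nonempty E], (Dens E).Nonempty := by
    intro E _ _ _
    have hc : (0 : ℝ) < Fintype.card E := by exact_mod_cast Fintype.card_pos
    refine ⟨((Fintype.card E : ℝ)⁻¹) • (1 : Matrix E E ℂ), PosSemidef.one.smul (by positivity), ?_⟩
    rw [trace_smul, trace_one, Complex.real_smul]
    push_cast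
    exact inv_mul_cancel₀ (by exact_mod_cast hc.ne')
  have hK := (P371.Crit.isCompact_Dens (n := A)).prod (P371.Crit.isCompact_Dens (n := B))
  have c0 : Continuous fun x : Matrix A A ℂ × Matrix B B ℂ => out V (x.1 ⊗ₖ x.2) + R := by
    refine Continuous.add (continuous_matrix fun p p' => ?_) continuous_const
    simp only [out, of_apply, mul_apply, kroneckerMap_apply]
    fun_prop
  have c1 : ContinuousOn (fun x : Matrix A A ℂ × Matrix B B ℂ => Sf (out V (x.1 ⊗ₖ x.2) + R))
      (Dens A ×ˢ Dens B) :=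
    continuousOn_Sf.comp c0.continuousOn fun x hx =>
      (out_psd V (hx.1.1.kronecker hx.2.1)).1.add hR
  have c2 : ContinuousOn (fun x : Matrix A A ℂ × Matrix B B ℂ => Sf x.1) (Dens A ×ˢ Dens B) :=
    continuousOn_Sf.comp continuousOn_fst fun x hx => hx.1.1.1
  have c3 : ContinuousOn (fun x : Matrix A A ℂ × Matrix B B ℂ => Sf x.2) (Dens A ×ˢ Dens B) :=
    continuousOn_Sf.comp continuousOn_snd fun x hx => hx.2.1.1
  have c4 : Continuous fun x : Matrix A A ℂ × Matrix B B ℂ => tr (FA * x.1) :=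
    (P371.LogD.trL FA).continuous.comp continuous_fst
  have c5 : Continuous fun x : Matrix A A ℂ × Matrix B B ℂ => tr (FB * x.2) :=
    (P371.LogD.trL FB).continuous.comp continuous_snd
  have c6 : ContinuousOn (fun x : Matrix A A ℂ × Matrix B B ℂ =>
      Phi V R FA FB lC lA lB x.1 x.2) (Dens A ×ˢ Dens B) := by
    unfold Phi
    exact ((((continuousOn_const.fun_mul c1).fun_sub (continuousOn_const.fun_mul c2)).fun_sub
      (continuousOn_const.fun_mul c3)).fun_add c4.continuousOn).fun_add c5.continuousOn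
  obtain ⟨x, hx, hm⟩ := hK.exists_isMinOn ((hne A).prod (hne B)) c6
  exact ⟨x.1, hx.1, x.2, hx.2, fun a ha b hb => isMinOn_iff.1 hm (a, b) ⟨ha, hb⟩⟩

theorem min_cond (L : Matrix A A ℂ →ₗ[ℂ] Matrix C C ℂ)
    (hL : ∀ D, D.PosSemidef → (L D).PosSemidef) (hL' : ∀ D, L Dᴴ = (L D)ᴴ)
    (hLt : ∀ D, trace D = 0 → trace (L D) = 0) {R : Matrix C C ℂ} (hR : R.PosDef)
    {F : Matrix A A ℂ} (hF : F.IsHermitian) {lC lA : ℝ} (hA : 0 < lA) {ρ : Matrix A A ℂ}
    (hρ : ρ ∈ Dens A)
    (hmin : ∀ ρ' ∈ Dens A, lC * Sf (L ρ + R) - lA * Sf ρ + tr (F * ρ) ≤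
      lC * Sf (L ρ' + R) - lA * Sf ρ' + tr (F * ρ')) :
    ρ.PosDef ∧
      (∀ D, trace D = 0 →
        lC * trace (L D * mlog (L ρ + R)) = lA * trace (D * mlog ρ) + trace (D * F)) ∧
      ∀ D, D.IsHermitian → trace D = 0 →
        lC * tr (L D * dlog (L ρ + R) (L D)) ≤ lA * tr (D * dlog ρ D) := by
  have hLh : ∀ D : Matrix A A ℂ, D.IsHermitian → (L D).IsHermitian := fun D hD => by
    rw [IsHermitian, ← hL', hD.eq]
  have hP : (L ρ + R).PosDef := PosDef.posSemidef_add (hL ρ hρ.1) hR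
  have hline : ∀ (D : Matrix A A ℂ) (t : ℝ), L (ρ + t • D) + R = L ρ + R + t • L D := by
    intro D t
    rw [map_add, LinearMap.map_smul_of_tower]
    abel
  have hFl : ∀ (D : Matrix A A ℂ) (t : ℝ),
      HasDerivAt (fun t : ℝ => tr (F * (ρ + t • D))) (tr (F * D)) t := fun D t =>
    MC.hasDerivAt_trmul F (MC.hasDerivAt_line ρ D t)
  have hpos : ρ.PosDef := by
    by_contra hn
    have hne : Nonempty A := by
      by_contra he
      rw [not_nonempty_iff] at he
      have := hρ.2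
      simp [trace] at this
    have hc : (1 : ℝ) ≤ Fintype.card A := by exact_mod_cast Fintype.card_pos
    obtain ⟨c, hcd⟩ : ∃ c : ℝ, c = (Fintype.card A : ℝ)⁻¹ := ⟨_, rfl⟩
    have hc0 : 0 < c := by rw [hcd]; positivity
    have hc1 : c ≤ 1 := by rw [hcd]; exact inv_le_one_of_one_le₀ hc
    have hu : c • (1 : Matrix A A ℂ) ∈ Dens A := by
      refine ⟨PosSemidef.one.smul hc0.le, ?_⟩
      rw [trace_smul, trace_one, Complex.real_smul, hcd]
      push_cast
      exact inv_mul_cancel₀ (by exact_mod_cast (one_pos.trans_le hc).ne')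
    have hE : (c • (1 : Matrix A A ℂ) - ρ).IsHermitian := hu.1.1.sub hρ.1.1
    have h1 := (((MC.hasDerivAt_Sf hP.1 (hLh _ hE) (t := 0) (by simpa using hP)).const_mul lC).add
      (hFl (c • (1 : Matrix A A ℂ) - ρ) 0)).add ((hasDerivAt_id (0 : ℝ)).mul_const (lA * Sf ρ))
    refine MC.log_blow h1 hA hc0 fun t h0 ht => ?_
    have h2 : ρ + t • (c • (1 : Matrix A A ℂ) - ρ) ∈ Dens A := by
      have := P371.Crit.convex_Dens hρ hu (sub_nonneg.2 ht) h0.le (by ring)
      rwa [show (1 - t) • ρ + t • c • (1 : Matrix A A ℂ) =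
        ρ + t • (c • (1 : Matrix A A ℂ) - ρ) by module] at this
    have h3 := hmin _ h2
    rw [hline] at h3
    have h4 := mul_le_mul_of_nonneg_left (MC.Sf_mix_ge hρ.1 hn hc0.le hc1 h0.le ht) hA.le
    simp only [Pi.add_apply, id, zero_smul, add_zero, zero_mul]
    linarith
  have key : ∀ D : Matrix A A ℂ, D.IsHermitian → trace D = 0 →
      lC * tr (L D * mlog (L ρ + R)) = lA * tr (D * mlog ρ) + tr (F * D) ∧
        lC * tr (L D * dlog (L ρ + R) (L D)) ≤ lA * tr (D * dlog ρ D) := by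
    intro D hD hD0
    have t1 : tr D = 0 := by simp [P371.tr, hD0]
    have t2 : tr (L D) = 0 := by simp [P371.tr, hLt D hD0]
    have hm : IsLocalMin (fun t : ℝ => lC * Sf (L ρ + R + t • L D) - lA * Sf (ρ + t • D) +
        tr (F * (ρ + t • D))) 0 := by
      filter_upwards [MC.posDef_near hpos hD] with t ht
      have h2 : ρ + t • D ∈ Dens A :=
        ⟨ht.posSemidef, by rw [trace_add, trace_smul, hD0, smul_zero, add_zero, hρ.2]⟩
      have h3 := hmin _ h2
      rw [hline] at h3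
      simpa using h3
    have hf : ∀ᶠ t : ℝ in 𝓝 0, HasDerivAt (fun t : ℝ => lC * Sf (L ρ + R + t • L D) -
        lA * Sf (ρ + t • D) + tr (F * (ρ + t • D)))
        (-(lC * tr (L D * mlog (L ρ + R + t • L D))) + lA * tr (D * mlog (ρ + t • D)) +
          tr (F * D)) t := by
      filter_upwards [MC.posDef_near hpos hD, MC.posDef_near hP (hLh D hD)] with t h1 h2
      refine ((((MC.hasDerivAt_Sf hP.1 (hLh D hD) h2).const_mul lC).sub
        ((MC.hasDerivAt_Sf hpos.1 hD h1).const_mul lA)).add (hFl D t)).congr_deriv ?_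
      rw [t1, t2]
      ring
    have hg := ((((MC.hasDerivAt_trmul (L D) (MC.hasDerivAt_log_line hP.1 (hLh D hD) (t := 0)
      (by simpa using hP))).const_mul lC).neg).add ((MC.hasDerivAt_trmul D
        (MC.hasDerivAt_log_line hpos.1 hD (t := 0) (by simpa using hpos))).const_mul lA)).add_const
          (tr (F * D))
    obtain ⟨h1, h2⟩ := MC.second_deriv hm hf hg
    simp only [zero_smul, add_zero] at h1 h2
    constructor <;> linarith
  refine ⟨hpos, fun D hD => ?_, fun D hD hD0 => (key D hD hD0).2⟩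
  have k2 : ∀ D : Matrix A A ℂ, D.IsHermitian → trace D = 0 →
      lC * trace (L D * mlog (L ρ + R)) = lA * trace (D * mlog ρ) + trace (D * F) := by
    intro D hD hD0
    rw [MC.trace_herm (hLh D hD) (MC.mlog_herm _), MC.trace_herm hD (MC.mlog_herm _),
      MC.trace_herm hD hF, P371.kfam_tr_comm D F]
    exact_mod_cast (key D hD hD0).1
  obtain ⟨D₁, D₂, h1, h2, h3, h4, rfl⟩ := MC.exists_parts D hD
  have h5 := k2 D₁ h1 h3
  have h6 := k2 D₂ h2 h4
  simp only [map_add, map_smul, add_mul, smul_mul_assoc, trace_add, trace_smul, smul_eq_mul]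
  linear_combination h5 + Complex.I * h6

end Vale.Agent.P369
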