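import Vale.Agent.P369.StabAux

open Matrix Filter Topology
open scoped Matrix.Norms.L2Operator ComplexOrder Kronecker

namespace Vale.Agent.P369

namespace StabAux

variable {n L K : ℕ} {N : ℝ}

theorem thw_le_one (hN : 0 < N) (k : Idx n) : thw n N k ≤ 1 := by
  have h1 : ((N + 1)⁻¹) ^ n ≤ 1 :=
    pow_le_one₀ (by positivity) (inv_le_one_of_one_le₀ (by linarith))
  have h2 : (N / (N + 1)) ^ tot k ≤ 1 :=
    pow_le_one₀ (by positivity) ((div_le_one (by linarith)).2 (by linarith))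
  exact mul_le_one₀ h1 (by positivity) h2

theorem mass_le_one (hN : 0 < N) : ∑ k : Box n K, thw n N (val k) ≤ 1 := by
  rw [sum_thw hN]
  have hr0 : 0 ≤ N / (N + 1) := by positivity
  have hr1 : N / (N + 1) ≤ 1 := (div_le_one (by linarith)).2 (by linarith)
  exact pow_le_one₀ (sub_nonneg.2 (pow_le_one₀ hr0 hr1)) (sub_le_self _ (by positivity))

theorem mass_pos (hN : 0 < N) : 0 < ∑ k : Box n K, thw n N (val k) :=
  Finset.sum_pos (fun _ _ => thw_pos hN _) Finset.univ_nonempty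

theorem tail_le {ρ : Matrix (Box n L) (Box n L) ℂ} (hρ : ρ.PosSemidef)
    (hE : ∀ j, tr (dg L (fun k => (k j : ℝ)) * ρ) ≤ N + 1) :
    ∑ k, (if ∀ j, val k j ≤ K then 0 else (ρ k k).re) ≤ n * (N + 1) / ((K : ℝ) + 1) := by
  have hK : (0 : ℝ) < (K : ℝ) + 1 := by positivity
  rw [le_div_iff₀ hK, Finset.sum_mul]
  calc _ ≤ ∑ k : Box n L, ∑ j, (val k j : ℝ) * (ρ k k).re := by
        refine Finset.sum_le_sum fun k _ => ?_
        have h0 := diag_re_nonneg hρ k
        split_ifs with hk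
        · rw [zero_mul]
          exact Finset.sum_nonneg fun j _ => by positivity
        · obtain ⟨j, hj⟩ := not_forall.1 hk
          have h1 : (K : ℝ) + 1 ≤ val k j := by exact_mod_cast Nat.succ_le_of_lt (not_le.1 hj)
          refine le_trans ?_ (Finset.single_le_sum (f := fun j => (val k j : ℝ) * (ρ k k).re)
            (fun j _ => by positivity) (Finset.mem_univ j))
          rw [mul_comm]
          exact mul_le_mul_of_nonneg_right h1 h0
    _ ≤ ∑ _j : Fin n, (N + 1) := by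
        rw [Finset.sum_comm]
        refine Finset.sum_le_sum fun j _ => ?_
        have := hE j
        rwa [tr_dg] at this
    _ = _ := by rw [Finset.sum_const, Finset.card_univ, Fintype.card_fin, nsmul_eq_mul]

/-- the explicit lower bound -/
theorem lower (hN : 0 < N) (hK : K ≤ L) {s ξ m G τ A H t : ℝ} (hs : 0 < s) (hξ : 0 ≤ ξ)
    (hm : m = ∑ _k : Box n K, (1 : ℝ)) (hG : G = ∑ k : Box n K, -Real.log (thw n N (val k)))
    (hτ : τ = n * (N + 1) / ((K : ℝ) + 1)) (hA : A = ∑ k : Box n K, thw n N (val k))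
    (hH : H = ∑ k : Box n K, thw n N (val k) * -Real.log (thw n N (val k)))
    (ht : t = ∑ k : Box n K, (thw n N (val k))⁻¹) (hτs : (1 + 1 / s) * τ ≤ 1)
    {ρ : Matrix (Box n L) (Box n L) ℂ} (hρ : ρ.PosDef) (h1 : 1 ≤ tr ρ) (h2 : tr ρ ≤ 1 + ξ)
    (hE : ∀ j, tr (dg L (fun k => (k j : ℝ)) * ρ) ≤ N + 1)
    (hw : ∀ j k l, ‖wop N ρ (ann n L j) k l‖ ≤ ξ) :
    (1 - τ - m * ξ) * H - ξ * G
      - Real.log ((1 + s) * ((1 + ξ + m * ξ) / A + m * ξ * t)) * (1 + ξ) ≤ Sf ρ := by
  set c : ℝ := (N + 1) ^ n * (ρ 0 0).re with hc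
  set lam : ℝ := (1 + s) * ((1 + ξ + m * ξ) / A + m * ξ * t) with hlam
  have hp := diag_re_nonneg hρ.posSemidef
  have hc0 : 0 ≤ c := mul_nonneg (by positivity) (hp 0)
  have hclose := entry_close hN hξ hρ.1 hw
  have hdiag : ∀ k, |(ρ k k).re - c * thw n N (val k)| ≤ ξ := by
    intro k
    have h := hclose k k
    rw [if_pos rfl] at h
    refine le_trans ?_ ((Complex.abs_re_le_norm _).trans h)
    rw [Complex.sub_re, Complex.ofReal_re]
  have htail := tail_le (K := K) hρ.posSemidef hE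
  rw [← hτ] at htail
  have hA0 : 0 < A := hA ▸ mass_pos hN
  have hA1 : A ≤ 1 := hA ▸ mass_le_one hN
  have hm0 : 0 ≤ m := hm ▸ Finset.sum_nonneg fun _ _ => zero_le_one
  have ht0 : 0 ≤ t := ht ▸ Finset.sum_nonneg fun k _ => (inv_pos.2 (thw_pos hN _)).le
  have hlog : ∀ k : Idx n, 0 ≤ -Real.log (thw n N k) := fun k =>
    neg_nonneg.2 (Real.log_nonpos (thw_pos hN k).le (thw_le_one hN k))
  have hH0 : 0 ≤ H := hH ▸ Finset.sum_nonneg fun k _ => mul_nonneg (thw_pos hN _).le (hlog _)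
  rw [← sum_inside hK fun _ => (1 : ℝ)] at hm
  rw [← sum_inside hK fun k => -Real.log (thw n N k)] at hG
  rw [← sum_inside hK (thw n N)] at hA
  rw [← sum_inside hK fun k => thw n N k * -Real.log (thw n N k)] at hH
  rw [← sum_inside hK fun k => (thw n N k)⁻¹] at ht
  set P : ℝ := ∑ k : Box n L, (if ∀ j, val k j ≤ K then (ρ k k).re else 0) with hP
  have htr : tr ρ = P + ∑ k, (if ∀ j, val k j ≤ K then 0 else (ρ k k).re) := by
    rw [hP, ← Finset.sum_add_distrib]
    simp only [tr, trace, diag_apply, Complex.re_sum]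
    refine Finset.sum_congr rfl fun k _ => ?_
    split_ifs <;> simp
  have htail0 : 0 ≤ ∑ k, (if ∀ j, val k j ≤ K then 0 else (ρ k k).re) :=
    Finset.sum_nonneg fun k _ => by
      split_ifs
      · exact le_rfl
      · exact hp k
  have hP1 : P ≤ 1 + ξ := by linarith
  have hP2 : 1 - τ ≤ P := by linarith
  have hcA1 : c * A ≤ P + m * ξ := by
    rw [hA, hP, hm, Finset.mul_sum, Finset.sum_mul, ← Finset.sum_add_distrib]
    refine Finset.sum_le_sum fun k _ => ?_
    have := abs_le.1 (hdiag k)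
    split_ifs
    · linarith [this.1]
    · simp
  have hcA2 : P ≤ c * A + m * ξ := by
    rw [hA, hP, hm, Finset.mul_sum, Finset.sum_mul, ← Finset.sum_add_distrib]
    refine Finset.sum_le_sum fun k _ => ?_
    have := abs_le.1 (hdiag k)
    split_ifs
    · linarith [this.2]
    · simp
  have hc1 : c ≤ (1 + ξ + m * ξ) / A := by
    rw [le_div_iff₀ hA0]
    linarith
  have hc2 : 1 - τ - m * ξ ≤ c := by
    have : c * A ≤ c := mul_le_of_le_one_right hc0 hA1
    linarith
  have hlam1 : 1 ≤ lam := by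
    have h3 : 1 ≤ (1 + ξ + m * ξ) / A := by
      rw [le_div_iff₀ hA0]
      have : 0 ≤ m * ξ := by positivity
      linarith
    have h4 : 0 ≤ m * ξ * t := by positivity
    exact one_le_mul_of_one_le_of_one_le (by linarith) (by linarith)
  have hdom := dom hρ.posSemidef (fun k => ∀ j, val k j ≤ K) (fun k => c * thw n N (val k))
    (fun k => if ∀ j, val k j ≤ K then lam * thw n N (val k) else 1) hξ hs hclose htail hm.ge
    (fun k hk => by
      rw [if_pos hk, hlam, mul_assoc (1 + s)]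
      refine mul_le_mul_of_nonneg_left ?_ (by linarith)
      have h3 : (thw n N (val k))⁻¹ ≤ t := by
        rw [ht]
        refine le_trans (le_of_eq ?_) (Finset.single_le_sum
          (f := fun k : Box n L => if ∀ j, val k j ≤ K then (thw n N (val k))⁻¹ else 0)
          (fun k _ => ?_) (Finset.mem_univ k))
        · exact (if_pos hk).symm
        · split_ifs
          · exact (inv_pos.2 (thw_pos hN _)).le
          · exact le_rfl
      have h4 := thw_pos hN (val k)
      have h5 : 1 ≤ t * thw n N (val k) := by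
        have := mul_le_mul_of_nonneg_right h3 h4.le
        rwa [inv_mul_cancel₀ h4.ne'] at this
      have h6 := mul_le_mul_of_nonneg_right hc1 h4.le
      have h7 : m * ξ ≤ m * ξ * (t * thw n N (val k)) :=
        le_mul_of_one_le_right (by positivity) h5
      nlinarith)
    (fun k hk => by rw [if_neg hk]; exact hτs)
  refine le_trans ?_ (Sf_ge_of_le hρ _ hdom)
  have hL0 : 0 ≤ Real.log lam := Real.log_nonneg hlam1
  have h8 : c * H - ξ * G - Real.log lam * P ≤ -∑ k, (ρ k k).re *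
      Real.log (if ∀ j, val k j ≤ K then lam * thw n N (val k) else 1) := by
    rw [hH, hG, hP, Finset.mul_sum, Finset.mul_sum, Finset.mul_sum, ← Finset.sum_sub_distrib,
      ← Finset.sum_sub_distrib, ← Finset.sum_neg_distrib]
    refine Finset.sum_le_sum fun k _ => ?_
    split_ifs
    · rw [Real.log_mul (by linarith) (thw_pos hN _).ne']
      have h9 := mul_le_mul_of_nonneg_right (abs_le.1 (hdiag k)).1 (hlog (val k))
      linarith
    · simp
  have h9 := mul_le_mul_of_nonneg_right hc2 hH0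
  have h10 := mul_le_mul_of_nonneg_left hP1 hL0
  linarith

end StabAux

open StabAux in
theorem stab (n : ℕ) {N ζ : ℝ} (hN : 0 < N) (hζ : 0 < ζ) : ∃ ξ : ℝ, 0 < ξ ∧ ∃ L0 : ℕ,
    ∀ L, L0 ≤ L → ∀ ρ : Matrix (Box n L) (Box n L) ℂ, ρ.PosDef → 1 ≤ tr ρ → tr ρ ≤ 1 + ξ →
      (∀ j, tr (dg L (fun k => (k j : ℝ)) * ρ) ≤ N + 1) →
      (∀ j k l, ‖wop N ρ (ann n L j) k l‖ ≤ ξ) → n * g N - ζ ≤ Sf ρ := by
  have hs : 0 < ζ / 2 := by positivity
  have hτ : Tendsto (fun K : ℕ => n * (N + 1) / ((K : ℝ) + 1)) atTop (𝓝 0) :=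
    tendsto_const_nhds.div_atTop (tendsto_atTop_add_const_right _ _ tendsto_natCast_atTop_atTop)
  have h1 : ∀ᶠ K : ℕ in atTop, (1 + 1 / (ζ / 2)) * (n * (N + 1) / ((K : ℝ) + 1)) < 1 := by
    refine (hτ.const_mul (1 + 1 / (ζ / 2))).eventually_lt_const ?_
    simp
  have h2 : Tendsto (fun K : ℕ => (1 - n * (N + 1) / ((K : ℝ) + 1)) *
      (∑ k : Box n K, thw n N (val k) * -Real.log (thw n N (val k)))
      - Real.log ((1 + ζ / 2) * (1 / ∑ k : Box n K, thw n N (val k)))) atTop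
      (𝓝 ((1 - 0) * (n * g N) - Real.log ((1 + ζ / 2) * (1 / 1)))) :=
    ((hτ.const_sub 1).mul (tendsto_ent hN)).sub
      (((tendsto_const_nhds.div (tendsto_mass hN) one_ne_zero).const_mul _).log (by positivity))
  have h3 : n * g N - ζ < (1 - 0) * (n * g N) - Real.log ((1 + ζ / 2) * (1 / 1)) := by
    have := Real.log_le_sub_one_of_pos (x := (1 + ζ / 2) * (1 / 1)) (by positivity)
    linarith
  obtain ⟨K, hK1, hK2⟩ := (h1.and (h2.eventually_const_lt h3)).exists
  set m : ℝ := ∑ _k : Box n K, (1 : ℝ) with hm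
  set G : ℝ := ∑ k : Box n K, -Real.log (thw n N (val k)) with hG
  set τ : ℝ := n * (N + 1) / ((K : ℝ) + 1) with hτ'
  set A : ℝ := ∑ k : Box n K, thw n N (val k) with hA
  set H : ℝ := ∑ k : Box n K, thw n N (val k) * -Real.log (thw n N (val k)) with hH
  set t : ℝ := ∑ k : Box n K, (thw n N (val k))⁻¹ with ht
  have hA0 : 0 < A := mass_pos hN
  have hcont : ContinuousAt (fun ξ : ℝ => (1 - τ - m * ξ) * H - ξ * G
      - Real.log ((1 + ζ / 2) * ((1 + ξ + m * ξ) / A + m * ξ * t)) * (1 + ξ)) 0 := by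
    refine ContinuousAt.sub (by fun_prop) (ContinuousAt.mul (ContinuousAt.log (by fun_prop) ?_)
      (by fun_prop))
    simp only [mul_zero, add_zero, zero_mul]
    positivity
  have h4 : ∀ᶠ ξ : ℝ in 𝓝[>] 0, n * g N - ζ < (1 - τ - m * ξ) * H - ξ * G
      - Real.log ((1 + ζ / 2) * ((1 + ξ + m * ξ) / A + m * ξ * t)) * (1 + ξ) := by
    refine nhdsWithin_le_nhds (hcont.tendsto.eventually_const_lt ?_)
    simpa only [mul_zero, add_zero, zero_mul, sub_zero, mul_one] using hK2
  obtain ⟨ξ, hξ1, hξ2⟩ := (h4.and self_mem_nhdsWithin).exists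
  refine ⟨ξ, hξ2, K, fun L hL ρ hρ t1 t2 hE hw => hξ1.le.trans ?_⟩
  exact lower hN hL hs (le_of_lt hξ2) hm hG hτ' hA hH ht hK1.le hρ t1 t2 hE hw

end Vale.Agent.P369
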