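import Vale.Agent.P369.Key
import Vale.Agent.P369.MinCond
import Vale.Agent.P369.Stab

open Matrix
open scoped Matrix.Norms.L2Operator ComplexOrder Kronecker

namespace Vale.Agent.P369.Fin

section
variable {A B C Q : Type} [Fintype A] [DecidableEq A] [Fintype B] [DecidableEq B] [Fintype C]
  [DecidableEq C] [Fintype Q] [DecidableEq Q]

/-- the channel in the first input -/
noncomputable def LA (V : Matrix (C × Q) (A × B) ℂ) (ρB : Matrix B B ℂ) :
    Matrix A A ℂ →ₗ[ℂ] Matrix C C ℂ where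
  toFun D := out V (D ⊗ₖ ρB)
  map_add' X Y := by rw [add_kronecker, out_add]
  map_smul' c X := by rw [smul_kronecker, out_smul]; rfl

/-- the channel in the second input -/
noncomputable def LB (V : Matrix (C × Q) (A × B) ℂ) (ρA : Matrix A A ℂ) :
    Matrix B B ℂ →ₗ[ℂ] Matrix C C ℂ where
  toFun D := out V (ρA ⊗ₖ D)
  map_add' X Y := by rw [kronecker_add, out_add]
  map_smul' c X := by rw [kronecker_smul, out_smul]; rfl

theorem min_facts [Nonempty A] [Nonempty B] {V : Matrix (C × Q) (A × B) ℂ} (hV : Vᴴ * V = 1)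
    {R : Matrix C C ℂ} (hR : R.PosDef) {FA : Matrix A A ℂ} {FB : Matrix B B ℂ}
    (hFA : FA.IsHermitian) (hFB : FB.IsHermitian) (lC : ℝ) {lA lB : ℝ} (hlA : 0 < lA)
    (hlB : 0 < lB) : ∃ ρA ∈ Dens A, ∃ ρB ∈ Dens B, ρA.PosDef ∧ ρB.PosDef ∧
      (∀ ρA' ∈ Dens A, ∀ ρB' ∈ Dens B,
        Phi V R FA FB lC lA lB ρA ρB ≤ Phi V R FA FB lC lA lB ρA' ρB') ∧
      (∀ D : Matrix A A ℂ, trace D = 0 → lC * trace (out V (D ⊗ₖ ρB) *
        mlog (out V (ρA ⊗ₖ ρB) + R)) = lA * trace (D * mlog ρA) + trace (D * FA)) ∧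
      (∀ D : Matrix B B ℂ, trace D = 0 → lC * trace (out V (ρA ⊗ₖ D) *
        mlog (out V (ρA ⊗ₖ ρB) + R)) = lB * trace (D * mlog ρB) + trace (D * FB)) ∧
      (∀ D : Matrix A A ℂ, D.IsHermitian → trace D = 0 → lC * tr (out V (D ⊗ₖ ρB) *
        dlog (out V (ρA ⊗ₖ ρB) + R) (out V (D ⊗ₖ ρB))) ≤ lA * tr (D * dlog ρA D)) ∧
      (∀ D : Matrix B B ℂ, D.IsHermitian → trace D = 0 → lC * tr (out V (ρA ⊗ₖ D) *
        dlog (out V (ρA ⊗ₖ ρB) + R) (out V (ρA ⊗ₖ D))) ≤ lB * tr (D * dlog ρB D)) := by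
  obtain ⟨ρA, hA, ρB, hB, hmin⟩ := exists_min V hR.1 FA FB lC lA lB
  obtain ⟨a1, a2, a3⟩ := min_cond (LA V ρB) (fun D hD => out_psd V (hD.kronecker hB.1))
    (fun D => by
      change out V (Dᴴ ⊗ₖ ρB) = (out V (D ⊗ₖ ρB))ᴴ
      rw [← out_ct, conjTranspose_kronecker, hB.1.1])
    (fun D hD => by
      change trace (out V (D ⊗ₖ ρB)) = 0
      rw [trace_out hV, trace_kronecker, hD, zero_mul]) hR hFA (lC := lC) hlA hA
    (fun ρ' h' => by
      have := hmin ρ' h' ρB hB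
      simp only [Phi] at this
      change lC * Sf (out V (ρA ⊗ₖ ρB) + R) - _ + _ ≤ lC * Sf (out V (ρ' ⊗ₖ ρB) + R) - _ + _
      linarith)
  obtain ⟨b1, b2, b3⟩ := min_cond (LB V ρA) (fun D hD => out_psd V (hA.1.kronecker hD))
    (fun D => by
      change out V (ρA ⊗ₖ Dᴴ) = (out V (ρA ⊗ₖ D))ᴴ
      rw [← out_ct, conjTranspose_kronecker, hA.1.1])
    (fun D hD => by
      change trace (out V (ρA ⊗ₖ D)) = 0
      rw [trace_out hV, trace_kronecker, hD, mul_zero]) hR hFB (lC := lC) hlB hB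
    (fun ρ' h' => by
      have := hmin ρA hA ρ' h'
      simp only [Phi] at this
      change lC * Sf (out V (ρA ⊗ₖ ρB) + R) - _ + _ ≤ lC * Sf (out V (ρA ⊗ₖ ρ') + R) - _ + _
      linarith)
  exact ⟨ρA, hA, ρB, hB, a1, b1, hmin, a2, b2, a3, b3⟩

omit [DecidableEq C] in
theorem tr_add' (X Y : Matrix C C ℂ) : tr (X + Y) = tr X + tr Y := by simp [P371.tr]

omit [DecidableEq C] in
theorem tr_smul' (r : ℝ) (X : Matrix C C ℂ) : tr (r • X) = r * tr X := by simp [P371.tr]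

omit [Fintype C] [DecidableEq C] in
theorem diag_nonneg {ρ : Matrix C C ℂ} (h : ρ.PosSemidef) (k : C) : 0 ≤ (ρ k k).re :=
  (Complex.nonneg_iff.1 h.diag_nonneg).1

omit [DecidableEq C] in
theorem diag_le {ρ : Matrix C C ℂ} (h : ρ.PosSemidef) (k : C) : (ρ k k).re ≤ tr ρ := by
  rw [P371.tr, trace, Complex.re_sum]
  exact Finset.single_le_sum (f := fun i => (ρ i i).re) (fun i _ => diag_nonneg h i)
    (Finset.mem_univ k)

theorem ip_single (z : ℂ) (k l : C) (w : Matrix C C ℂ) :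
    ip (single k l z) w = star z * w k l := by
  simp [ip, conjTranspose_single, trace_single_mul]

theorem tr_single (z : ℂ) (k l : C) (ρ : Matrix C C ℂ) :
    tr (ρ * ((single k l z)ᴴ * single k l z + single k l z * (single k l z)ᴴ)) =
      ‖z‖ ^ 2 * ((ρ l l).re + (ρ k k).re) := by
  have e1 : star z * z = ((‖z‖ ^ 2 : ℝ) : ℂ) := by
    rw [Complex.star_def, Complex.conj_mul']; push_cast; rfl
  have e2 : z * star z = ((‖z‖ ^ 2 : ℝ) : ℂ) := by rw [mul_comm, e1]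
  rw [conjTranspose_single, single_mul_single_same, single_mul_single_same, e1, e2, Matrix.mul_add,
    P371.tr, trace_add, trace_mul_single, trace_mul_single]
  simp only [op_smul_eq_mul, Complex.add_re, Complex.re_mul_ofReal]
  ring

theorem entry_le {w ρ : Matrix C C ℂ} (hρ : ρ.PosSemidef) (ht : tr ρ ≤ 2) {x : ℝ} (hx : 0 < x)
    (h : ∀ H, 2 * (ip H w).re - tr (ρ * (Hᴴ * H + H * Hᴴ)) ≤ x ^ 2) (k l : C) :
    ‖w k l‖ ≤ 5 / 2 * x := by
  rcases eq_or_ne (w k l) 0 with h0 | h0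
  · rw [h0, norm_zero]; positivity
  have hn : 0 < ‖w k l‖ := norm_pos_iff.2 h0
  have h1 := h (single k l (((x / ‖w k l‖ : ℝ) : ℂ) * w k l))
  rw [ip_single, tr_single] at h1
  have e1 : (star (((x / ‖w k l‖ : ℝ) : ℂ) * w k l) * w k l).re = x * ‖w k l‖ := by
    rw [star_mul', Complex.star_def, Complex.conj_ofReal, mul_assoc, Complex.conj_mul',
      ← Complex.ofReal_pow, ← Complex.ofReal_mul, Complex.ofReal_re]
    field_simp
  have e2 : ‖((x / ‖w k l‖ : ℝ) : ℂ) * w k l‖ = x := by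
    rw [norm_mul, Complex.norm_real, Real.norm_of_nonneg (by positivity)]
    field_simp
  rw [e1, e2] at h1
  have := diag_le hρ k
  have := diag_le hρ l
  have h2 : x * ‖w k l‖ ≤ x * (5 / 2 * x) := by nlinarith [sq_nonneg x]
  exact le_of_mul_le_mul_left h2 hx

omit [DecidableEq C] in
theorem tr_ct (ρ H : Matrix C C ℂ) (hρ : ρ.IsHermitian) :
    trace (Hᴴ * ρ) = star (trace (H * ρ)) := by
  rw [← trace_conjTranspose, conjTranspose_mul, hρ.eq, trace_mul_comm]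

theorem entry_le_four {ρ : Matrix C C ℂ} (hρ : ρ.PosSemidef) (ht : tr ρ ≤ 2) (k l : C) :
    ‖ρ k l‖ ≤ 15 / 4 := by
  have := entry_le (w := ρ) hρ ht (x := 3 / 2) (by norm_num) (fun H => by
    have h1 := tr_mul_nonneg hρ (posSemidef_self_mul_conjTranspose (1 - H))
    have h3 := tr_mul_nonneg hρ (posSemidef_conjTranspose_mul_self H)
    have e1 : tr (ρ * ((1 - H) * (1 - H)ᴴ)) =
        tr ρ - 2 * (trace (Hᴴ * ρ)).re + tr (ρ * (H * Hᴴ)) := by
      have e : (trace (ρ * H)).re = (trace (Hᴴ * ρ)).re := by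
        rw [tr_ct ρ H hρ.1, trace_mul_comm]; simp
      simp only [conjTranspose_sub, conjTranspose_one, Matrix.sub_mul, Matrix.mul_sub,
        Matrix.one_mul, Matrix.mul_one, P371.tr, trace_sub, Complex.sub_re, e,
        trace_mul_comm ρ Hᴴ]
      ring
    rw [ip, Matrix.mul_add, tr_add']
    linarith) k l
  linarith

theorem wop_shift (N : ℝ) (ρ c : Matrix C C ℂ) (γ : ℂ) :
    wop N ρ (c - γ • 1) = wop N ρ c - γ • ρ := by
  simp only [wop, Matrix.sub_mul, Matrix.mul_sub, Matrix.smul_mul, Matrix.mul_smul,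
    Matrix.one_mul, Matrix.mul_one, smul_sub, add_smul, one_smul]
  abel

theorem mode_out {N x : ℝ} (hN : 0 < N) {ρ c : Matrix C C ℂ} (hρ : ρ.PosSemidef)
    (ht : tr ρ ≤ 1 + x) (hx : 0 < x) (hx4 : x ≤ 1 / 4) (hc : (cᴴ * c + 1 - c * cᴴ).PosSemidef)
    (hγ : ‖trace (c * ρ)‖ ^ 2 ≤ 2 * x ^ 2)
    (h : ∀ H, 2 * (ip H (wop N ρ (c - trace (c * ρ) • 1))).re -
      tr (ρ * (Hᴴ * H + H * Hᴴ)) ≤ x ^ 2) :
    (∀ k l, ‖wop N ρ c k l‖ ≤ 10 * x) ∧ tr (cᴴ * c * ρ) ≤ N + 4 * x * (N + 1) := by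
  have ht2 : tr ρ ≤ 2 := by linarith
  generalize hg : trace (c * ρ) = γ at hγ h
  rw [wop_shift] at h
  constructor
  · intro k l
    have h1 := entry_le hρ ht2 hx h k l
    have h2 := entry_le_four hρ ht2 k l
    have h3 : ‖γ‖ ≤ 2 * x := abs_le_of_sq_le_sq' (by nlinarith) (by positivity) |>.2
    have e : wop N ρ c k l = (wop N ρ c - γ • ρ) k l + γ * ρ k l := by simp
    rw [e]
    refine (norm_add_le _ _).trans ?_
    rw [norm_mul]
    have := mul_le_mul h3 h2 (norm_nonneg _) (by positivity)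
    linarith
  · have h1 := h (x • c)
    have h2 := tr_mul_nonneg hc hρ
    have h3 := tr_mul_nonneg (posSemidef_conjTranspose_mul_self c) hρ
    have e1 : (ip (x • c) (wop N ρ c - γ • ρ)).re =
        x * ((N + 1) * tr (cᴴ * c * ρ) - N * tr (c * cᴴ * ρ) - ‖γ‖ ^ 2) := by
      have e : trace (cᴴ * ρ * c) = trace (c * cᴴ * ρ) := by
        rw [trace_mul_comm, Matrix.mul_assoc]
      have e' : (γ * x • star γ).re = x * ‖γ‖ ^ 2 := by
        rw [mul_smul_comm, Complex.smul_re, Complex.star_def, Complex.mul_conj',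
          ← Complex.ofReal_pow, Complex.ofReal_re, smul_eq_mul]
      simp only [ip, wop, conjTranspose_smul, star_trivial, Matrix.smul_mul, Matrix.mul_sub,
        Matrix.mul_smul, trace_smul, trace_sub, e, tr_ct ρ c hρ.1, hg, P371.tr, Complex.sub_re,
        Complex.smul_re, smul_eq_mul, ← Matrix.mul_assoc, e']
      ring
    have e2 : tr (ρ * ((x • c)ᴴ * (x • c) + (x • c) * (x • c)ᴴ)) =
        x ^ 2 * (tr (cᴴ * c * ρ) + tr (c * cᴴ * ρ)) := by
      simp only [conjTranspose_smul, star_trivial, Matrix.smul_mul, Matrix.mul_smul,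
        Matrix.mul_add, P371.tr, trace_mul_comm ρ, trace_add, trace_smul,
        Complex.add_re, Complex.smul_re, smul_eq_mul]
      ring
    have e3 : tr ((cᴴ * c + 1 - c * cᴴ) * ρ) = tr (cᴴ * c * ρ) + tr ρ - tr (c * cᴴ * ρ) := by
      simp only [Matrix.sub_mul, Matrix.add_mul, Matrix.one_mul, P371.tr, trace_sub, trace_add,
        Complex.sub_re, Complex.add_re]
    rw [e1, e2] at h1
    rw [e3] at h2
    generalize tr (cᴴ * c * ρ) = E at *
    generalize tr (c * cᴴ * ρ) = E' at *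
    generalize tr ρ = r at *
    have h4 : x * (2 * ((N + 1) * E - N * E' - ‖γ‖ ^ 2) - x * (E + E')) ≤ x * x := by nlinarith
    have h5 := le_of_mul_le_mul_left h4 hx
    have h6 : (2 * N + x) * E' ≤ (2 * N + x) * (E + (1 + x)) :=
      mul_le_mul_of_nonneg_left (by linarith) (by positivity)
    by_contra hcon
    have h7 : (2 - 2 * x) * (N + 4 * x * (N + 1)) < (2 - 2 * x) * E :=
      mul_lt_mul_of_pos_left (not_le.1 hcon) (by linarith)
    have h8 : x * x * (N + 1) ≤ x * (1 / 4) * (N + 1) := by gcongr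
    have h9 : x * x ≤ x * (1 / 4) := by gcongr
    nlinarith [mul_pos hx hN]

theorem mode_in {η : ℝ} (h0 : 0 ≤ η) (h1 : η ≤ 1) {V : Matrix (C × Q) (A × B) ℂ}
    {a : Matrix A A ℂ} {b : Matrix B B ℂ} {c : Matrix C C ℂ} {d : Matrix Q Q ℂ}
    {P : Matrix (A × B) (A × B) ℂ} (hR : Rel (Real.sqrt η) (Real.sqrt (1 - η)) V a b c d P)
    {ρA : Matrix A A ℂ} {ρB : Matrix B B ℂ} {ρ τ : Matrix C C ℂ} (hA : ρA ∈ Dens A)
    (hB : ρB ∈ Dens B) (hτ : τ.PosSemidef) (tτ : tr τ ≤ 1) {N ε δ x : ℝ} (hN : 0 < N)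
    (hδ : 0 < δ) (hδx : δ ≤ x) (hx4 : x ≤ 1 / 4) (hε : 0 < ε) (hε1 : ε ≤ 1)
    (hρ : ρ = out V (ρA ⊗ₖ ρB) + δ • τ) (hw : wop N τ c = 0)
    (hc : (cᴴ * c + 1 - c * cᴴ).PosSemidef)
    (h : ∀ H, ε / (1 + ε) * (2 * (ip H (wop N ρ (c - trace (c * ρ) • 1))).re -
        tr (ρ * (Hᴴ * H + H * Hᴴ))) +
      ε / 2 * (η * ‖trace (a * ρA)‖ ^ 2 + (1 - η) * ‖trace (b * ρB)‖ ^ 2) ≤ ε * x ^ 2 / 2) :
    (∀ k l, ‖wop N ρ c k l‖ ≤ 10 * x) ∧ tr (cᴴ * c * ρ) ≤ N + 4 * x * (N + 1) ∧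
      η * tr (aᴴ * a * ρA) + (1 - η) * tr (bᴴ * b * ρB) ≤ N + 4 * x * (N + 1) + x ^ 2 := by
  have hx : 0 < x := hδ.trans_le hδx
  obtain ⟨m1, m2⟩ := out_mean hR hA hB
  have hO := out_psd V (hA.1.kronecker hB.1)
  have hP : ρ.PosSemidef := hρ ▸ hO.add (hτ.smul hδ.le)
  have ht : tr ρ ≤ 1 + x := by
    rw [hρ, tr_add', tr_smul', P371.tr, trace_out hR.iso, trace_kronecker, hA.2, hB.2]
    have := mul_le_mul_of_nonneg_left tτ hδ.le
    simp only [mul_one, Complex.one_re] at this ⊢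
    linarith
  have hcτ : trace (c * τ) = 0 := by
    have := congrArg trace hw
    rw [wop, trace_sub, trace_smul, trace_smul, trace_mul_comm τ, add_smul, one_smul,
      trace_zero] at this
    linear_combination this
  have hγ : trace (c * ρ) = Real.sqrt η * trace (a * ρA) + Real.sqrt (1 - η) * trace (b * ρB) := by
    rw [hρ, Matrix.mul_add, trace_add, m1, Matrix.mul_smul, trace_smul, hcτ, smul_zero, add_zero]
  generalize trace (a * ρA) = α at *
  generalize trace (b * ρB) = β at *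
  have s1 := Real.sq_sqrt h0
  have s2 := Real.sq_sqrt (sub_nonneg.2 h1)
  have s3 := Real.sqrt_nonneg η
  have s4 := Real.sqrt_nonneg (1 - η)
  generalize Real.sqrt η = s at *
  generalize Real.sqrt (1 - η) = t at *
  have hμ0 : 0 ≤ η * ‖α‖ ^ 2 + (1 - η) * ‖β‖ ^ 2 := by rw [← s2, ← s1]; positivity
  have hμ : η * ‖α‖ ^ 2 + (1 - η) * ‖β‖ ^ 2 ≤ x ^ 2 := by
    have h2 := h 0
    simp only [ip, conjTranspose_zero, Matrix.zero_mul, trace_zero, Complex.zero_re, add_zero,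
      P371.tr, mul_zero, sub_zero, zero_add] at h2
    refine le_of_mul_le_mul_left ?_ hε
    linarith
  have hst : 2 * (s * ‖α‖) * (t * ‖β‖) ≤ η * ‖α‖ ^ 2 + (1 - η) * ‖β‖ ^ 2 := by
    rw [← s2, ← s1]; nlinarith [sq_nonneg (s * ‖α‖ - t * ‖β‖)]
  have hγ2 : ‖trace (c * ρ)‖ ^ 2 ≤ 2 * x ^ 2 := by
    have h2 : ‖trace (c * ρ)‖ ≤ s * ‖α‖ + t * ‖β‖ := by
      rw [hγ]
      refine (norm_add_le _ _).trans ?_
      rw [norm_mul, norm_mul, Complex.norm_real, Complex.norm_real, Real.norm_of_nonneg s3,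
        Real.norm_of_nonneg s4]
    have h3 := pow_le_pow_left₀ (norm_nonneg _) h2 2
    have e : (s * ‖α‖ + t * ‖β‖) ^ 2 =
        η * ‖α‖ ^ 2 + (1 - η) * ‖β‖ ^ 2 + 2 * (s * ‖α‖) * (t * ‖β‖) := by
      rw [← s2, ← s1]; ring
    linarith
  obtain ⟨o1, o2⟩ := mode_out hN hP ht hx hx4 hc hγ2 (fun H => by
    have h2 := h H
    generalize 2 * (ip H (wop N ρ (c - trace (c * ρ) • 1))).re -
      tr (ρ * (Hᴴ * H + H * Hᴴ)) = X at h2 ⊢
    by_contra hcon
    have h3 : ε / 2 ≤ ε / (1 + ε) := div_le_div_of_nonneg_left hε.le (by linarith) (by linarith)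
    have h4 : x ^ 2 < X := not_le.1 hcon
    have h5 := mul_le_mul_of_nonneg_right h3 ((sq_nonneg x).trans h4.le)
    have h6 := mul_lt_mul_of_pos_left h4 (half_pos hε)
    have h7 := mul_nonneg (half_pos hε).le hμ0
    linarith)
  refine ⟨o1, o2, ?_⟩
  have h2 := tr_mul_nonneg (posSemidef_conjTranspose_mul_self c) hτ
  rw [hρ, Matrix.mul_add, tr_add', Matrix.mul_smul, tr_smul', m2, s1, s2] at o2
  have h3 : -(‖α‖ * ‖β‖) ≤ (star α * β).re := by
    have := (Complex.abs_re_le_norm (star α * β))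
    rw [norm_mul, norm_star] at this
    exact (abs_le.1 this).1
  have h4 := mul_le_mul_of_nonneg_left h3 (show 0 ≤ 2 * s * t by positivity)
  have h5 := mul_nonneg hδ.le h2
  nlinarith

end

end Vale.Agent.P369.Fin
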