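import Vale.Agent.P369.FinAux

open Matrix Filter Topology
open scoped Matrix.Norms.L2Operator ComplexOrder Kronecker

namespace Vale.Agent.P369.Fin

variable {n M : ℕ}

/-- the potential added to the functional -/
noncomputable def FF (n M : ℕ) (N a b : ℝ) : Matrix (Box n M) (Box n M) ℂ :=
  dg M fun k => a * tot k + b * ∑ i, pen N (k i)

theorem pen_nonneg {N : ℝ} (hN : 0 < N) (k : ℕ) : 0 ≤ pen N k :=
  Finset.sum_nonneg fun i _ => by positivity

theorem pen_mono {N : ℝ} (hN : 0 < N) {k l : ℕ} (h : k ≤ l) : pen N k ≤ pen N l :=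
  Finset.sum_le_sum_of_subset_of_nonneg (Finset.range_mono h) fun i _ _ => by positivity

theorem pen_grow {N : ℝ} (hN : 0 < N) (C : ℝ) (p : ℕ) :
    ∀ᶠ M : ℕ in atTop, C * ((M : ℝ) + 1) ^ p ≤ pen N M := by
  have hR : 1 < (N + 1) / N := (one_lt_div hN).2 (by linarith)
  generalize hr : (N + 1) / N = R at hR
  have h1 := ((tendsto_pow_const_div_const_pow_of_one_lt (p + 1) hR).comp
    (tendsto_add_atTop_nat 2)).const_mul (|C| * R ^ 2)
  rw [mul_zero] at h1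
  obtain ⟨m0, h2⟩ := eventually_atTop.1 (h1.eventually (ge_mem_nhds one_pos))
  refine eventually_atTop.2 ⟨m0 + 1, fun M hM => ?_⟩
  obtain ⟨m, rfl⟩ : ∃ m, M = m + 1 := ⟨M - 1, by omega⟩
  have h3 := h2 m (by omega)
  have hR0 : 0 < R := by linarith
  have h4 : R ^ m / (m + 1) ≤ pen N (m + 1) := by
    rw [pen, Finset.sum_range_succ, ← pen, hr]
    exact le_add_of_nonneg_left (pen_nonneg hN m)
  simp only [Function.comp] at h3
  rw [← mul_div_assoc, div_le_one (by positivity), pow_add R, pow_succ _ p] at h3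
  push_cast at h3 ⊢
  refine le_trans ?_ h4
  rw [le_div_iff₀ (by positivity)]
  refine le_of_mul_le_mul_right (le_trans ?_ h3) (pow_pos hR0 2)
  have e : (m : ℝ) + 1 + 1 = m + 2 := by ring
  rw [e]
  have h5 : C * (m + 2) ^ p * (m + 1) ≤ |C| * (m + 2) ^ p * (m + 2) := by
    gcongr
    · exact le_abs_self C
    · norm_num
  nlinarith [mul_le_mul_of_nonneg_right h5 (pow_pos hR0 2).le]

theorem tr_dg_mono {f f' : Idx n → ℝ} {ρ : Matrix (Box n M) (Box n M) ℂ} (hρ : ρ.PosSemidef)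
    (h : ∀ k : Box n M, ρ k k ≠ 0 → f (val k) ≤ f' (val k)) :
    tr (dg M f * ρ) ≤ tr (dg M f' * ρ) := by
  rw [tr_dg, tr_dg]
  refine Finset.sum_le_sum fun k _ => ?_
  by_cases h0 : ρ k k = 0
  · rw [h0]; simp
  · exact mul_le_mul_of_nonneg_right (h k h0) (diag_nonneg hρ k)

theorem tr_dg_smul (r : ℝ) (f : Idx n → ℝ) (ρ : Matrix (Box n M) (Box n M) ℂ) :
    tr (dg M (fun k => r * f k) * ρ) = r * tr (dg M f * ρ) := by
  rw [← BoxRel.smul_dg, Matrix.smul_mul, tr_smul']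

theorem tr_dg_const (r : ℝ) {ρ : Matrix (Box n M) (Box n M) ℂ} (hρ : ρ ∈ Dens (Box n M)) :
    tr (dg M (fun _ => r) * ρ) = r := by
  rw [tr_dg, ← Finset.mul_sum, BoxRel.diag_sum hρ, mul_one]

theorem FF_le {N a b : ℝ} (hN : 0 < N) (ha : 0 ≤ a) (hb : 0 ≤ b) {M0 : ℕ}
    {ρ : Matrix (Box n M) (Box n M) ℂ} (hρ : ρ ∈ Dens (Box n M))
    (h : ∀ k, ρ k k ≠ 0 → ∀ j, val k j ≤ M0) :
    tr (FF n M N a b * ρ) ≤ a * (n * M0) + b * (n * pen N M0) := by
  refine (tr_dg_mono hρ.1 fun k hk => ?_).trans (tr_dg_const _ hρ).le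
  have h1 : (tot (val k) : ℝ) ≤ n * M0 := by
    have := Finset.sum_le_card_nsmul Finset.univ (val k) M0 fun j _ => h k hk j
    rw [Finset.card_univ, Fintype.card_fin, smul_eq_mul] at this
    exact_mod_cast this
  have h2 := Finset.sum_le_card_nsmul Finset.univ (fun i => pen N (val k i)) (pen N M0)
    fun j _ => pen_mono hN (h k hk j)
  rw [Finset.card_univ, Fintype.card_fin, nsmul_eq_mul] at h2
  gcongr

theorem FF_ge_tot {N a b : ℝ} (hN : 0 < N) (hb : 0 ≤ b) {ρ : Matrix (Box n M) (Box n M) ℂ}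
    (hρ : ρ.PosSemidef) : a * tr (dg M (fun k => (tot k : ℝ)) * ρ) ≤ tr (FF n M N a b * ρ) := by
  rw [← tr_dg_smul]
  exact tr_dg_mono hρ fun k _ => le_add_of_nonneg_right
    (mul_nonneg hb (Finset.sum_nonneg fun i _ => pen_nonneg hN _))

theorem FF_ge_top {N a b : ℝ} (hN : 0 < N) (ha : 0 ≤ a) (hb : 0 ≤ b) (j : Fin n)
    {ρ : Matrix (Box n M) (Box n M) ℂ} (hρ : ρ.PosSemidef) :
    b * pen N M * tr (dg M (fun k => if k j = M then 1 else 0) * ρ) ≤ tr (FF n M N a b * ρ) := by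
  rw [← tr_dg_smul]
  refine tr_dg_mono hρ fun k _ => le_add_of_nonneg_of_le (by positivity) ?_
  rw [mul_assoc]
  refine mul_le_mul_of_nonneg_left (le_trans ?_ (Finset.single_le_sum
    (f := fun i => pen N (val k i)) (fun i _ => pen_nonneg hN _) (Finset.mem_univ j))) hb
  split_ifs with h
  · rw [h, mul_one]
  · rw [mul_zero]; exact pen_nonneg hN _

theorem tr_tot (ρ : Matrix (Box n M) (Box n M) ℂ) : tr (dg M (fun k => (tot k : ℝ)) * ρ) =
    ∑ j, tr ((ann n M j)ᴴ * ann n M j * ρ) := by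
  simp only [ann_ct_mul, tr_dg, tot, Nat.cast_sum, Finset.sum_mul]
  exact Finset.sum_comm

theorem ann_ccr (j : Fin n) :
    ((ann n M j)ᴴ * ann n M j + 1 - ann n M j * (ann n M j)ᴴ).PosSemidef := by
  rw [ann_ct_mul, ann_mul_ct, dg, dg, ← diagonal_one, diagonal_add, diagonal_sub]
  refine PosSemidef.diagonal fun k => ?_
  have : (0 : ℝ) ≤ (val k j : ℝ) + 1 - if val k j < M then (val k j : ℝ) + 1 else 0 := by
    split_ifs
    · rw [sub_self]
    · rw [sub_zero]; positivity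
  change (0 : ℂ) ≤ _
  rw [← Complex.ofReal_one, ← Complex.ofReal_add, ← Complex.ofReal_sub]
  exact Complex.zero_le_real.2 this

theorem card_box : (Fintype.card (Box n M) : ℝ) = ((M : ℝ) + 1) ^ n := by simp

/-- Gibbs bound in the form used below -/
theorem gibbs_T {N : ℝ} (hN : 0 < N) {ρ : Matrix (Box n M) (Box n M) ℂ}
    (hρ : ρ ∈ Dens (Box n M)) :
    (bt N)⁻¹ * Sf ρ ≤ tr (dg M (fun k => (tot k : ℝ)) * ρ) + n * (g N / bt N - N) := by
  have hb := bt_pos hN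
  have h := mul_le_mul_of_nonneg_left (gibbs_th hN hρ) (inv_pos.2 hb).le
  refine h.trans (le_of_eq ?_)
  rw [g_eq hN]
  field_simp
  ring

theorem tend_log : Tendsto (fun δ : ℝ => δ * (1 + Real.log (1 / δ)) ^ 2) (𝓝[>] 0) (𝓝 0) := by
  have h1 := (Real.isLittleO_pow_log_id_atTop (n := 2)).tendsto_div_nhds_zero
  have h2 : Tendsto (fun δ : ℝ => Real.exp 1 * δ⁻¹) (𝓝[>] 0) atTop :=
    tendsto_inv_nhdsGT_zero.const_mul_atTop (Real.exp_pos 1)
  have h3 := (h1.comp h2).const_mul (Real.exp 1)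
  rw [mul_zero] at h3
  refine h3.congr' (eventually_nhdsWithin_of_forall fun δ (hδ : 0 < δ) => ?_)
  simp only [Function.comp, id]
  rw [Real.log_mul (Real.exp_pos 1).ne' (inv_pos.2 hδ).ne', Real.log_exp, one_div]
  field_simp

theorem ev_le {f : ℝ → ℝ} (h : Tendsto f (𝓝[>] 0) (𝓝 0)) (C : ℝ) {y : ℝ} (hy : 0 < y) :
    ∀ᶠ x in 𝓝[>] (0 : ℝ), C * f x ≤ y := by
  have h1 := h.const_mul C
  rw [mul_zero] at h1
  exact h1.eventually (ge_mem_nhds hy)

theorem ev_id (C : ℝ) {y : ℝ} (hy : 0 < y) : ∀ᶠ x in 𝓝[>] (0 : ℝ), C * x ≤ y :=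
  ev_le (f := fun x => x) (tendsto_nhdsWithin_of_tendsto_nhds tendsto_id) C hy

end Vale.Agent.P369.Fin
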