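import Vale.Agent.P369.FinBox

open Matrix Filter Topology
open scoped Matrix.Norms.L2Operator ComplexOrder Kronecker

namespace Vale.Agent.P369.Fin

theorem top_real {D W B e P t m : ℝ} {n : ℕ} (hD : 0 < D) (hW : 0 < W) (hB : 0 < B) (he : 0 < e)
    (hm : 0 < m) (ht : 0 ≤ t) (h1 : 2 * W * B ^ 2 / (D * e ^ 2) * m ^ (n + 4) ≤ P)
    (h2 : D * P * t ≤ W * m ^ n) : t ≤ (e / (B * m ^ 2)) ^ 2 / 2 := by
  have h3 : D * (2 * W * B ^ 2 / (D * e ^ 2) * m ^ (n + 4)) * t ≤ W * m ^ n :=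
    le_trans (by gcongr) h2
  have e1 : D * (2 * W * B ^ 2 / (D * e ^ 2) * m ^ (n + 4)) * t =
      (W * m ^ n) * (t / ((e / (B * m ^ 2)) ^ 2 / 2)) := by
    field_simp
    ring
  rw [e1, mul_le_iff_le_one_right (by positivity), div_le_one (by positivity)] at h3
  exact h3

theorem err_real {S A b e : ℝ} {n M : ℕ} (hS : 0 < S) (hA : 0 ≤ A) (hb : 0 < b) (he : 0 < e) :
    8 * S * (1 + 4 * (A + b * (n * (2 * M : ℕ))) / b) * Real.sqrt (2 * M : ℕ) ^ 2 *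
      (e / (16 * S * (1 + 4 * A / b + 8 * n) * ((M : ℝ) + 1) ^ 2)) ≤ e := by
  rw [Real.sq_sqrt (Nat.cast_nonneg _), ← mul_div_assoc, div_le_iff₀ (by positivity), mul_comm e]
  refine mul_le_mul_of_nonneg_right ?_ he.le
  have e1 : 4 * (A + b * (n * (2 * M : ℕ))) / b = 4 * A / b + 8 * n * M := by
    push_cast
    field_simp
    ring
  have h1 : 0 ≤ 4 * A / b := by positivity
  rw [e1]
  push_cast
  generalize 4 * A / b = a at h1
  have hM : (0 : ℝ) ≤ M := Nat.cast_nonneg M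
  have hn : (0 : ℝ) ≤ n := Nat.cast_nonneg n
  have h2 : 1 + (a + 8 * n * M) ≤ (1 + a + 8 * n) * (M + 1) := by nlinarith [mul_nonneg h1 hM]
  calc 8 * S * (1 + (a + 8 * n * M)) * (2 * M)
      ≤ 8 * S * ((1 + a + 8 * n) * (M + 1)) * (2 * (M + 1)) := by gcongr; linarith
    _ = _ := by ring

theorem core {n : ℕ} {η : ℝ} (h0 : 0 < η) (h1 : η < 1)
    {u : Idx n × Idx n → Idx n × Idx n → ℂ} (h : BS (Real.sqrt η) (Real.sqrt (1 - η)) u)
    {NA NB NC : ℝ} (hNA : 0 < NA) (hNB : 0 < NB) (hNC : NC = η * NA + (1 - η) * NB)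
    {ε δ δ' x ζ ξ χ' e Φ0 B W : ℝ} {M : ℕ} (hε1 : ε ≤ 1) (hδ : 0 < δ) (hδx : δ ≤ x)
    (hδε : 8 * δ ≤ ε) (hx4 : x ≤ 1 / 4) (hδ' : 0 < δ') (he : 0 < e) (hxξ : 10 * x ≤ ξ)
    (hxN : 4 * x * (NC + 1) ≤ 1)
    (hst : ∀ ρ : Matrix (Box n (2 * M)) (Box n (2 * M)) ℂ, ρ.PosDef → 1 ≤ tr ρ → tr ρ ≤ 1 + ξ →
      (∀ j, tr (dg (2 * M) (fun k => (k j : ℝ)) * ρ) ≤ NC + 1) →
      (∀ j k l, ‖wop NC ρ (ann n (2 * M) j) k l‖ ≤ ξ) → n * g NC - ζ ≤ Sf ρ)
    (hχ : ∀ (j : Fin n) (ρ : Matrix (Box n (2 * M)) (Box n (2 * M)) ℂ),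
      (ρ - δ • dg (2 * M) (thw n NC)).PosSemidef → tr ρ ≤ 2 →
      ‖trace (dg (2 * M) (thw n NC) * cm (ann n (2 * M) j) (mlog ρ))‖ ≤ χ')
    (herr : δ * (χ' / bt NC) ^ 2 + 2 * (δ' * (NA + NB)) + e ≤ ε * x ^ 2 / 2)
    (hB : B = 16 * (NA + NB + 1) *
      (1 + 4 * (1 + Real.log (1 / δ) + n * Real.log (NC + 1)) / bt NC + 8 * n))
    (hW : W = |Φ0| + 2 * (bt NC)⁻¹ + 2 * (bt NA)⁻¹ + 2 * (bt NB)⁻¹)
    (pA : 2 * W * B ^ 2 / (η * δ' * e ^ 2) * ((M : ℝ) + 1) ^ (n + 4) ≤ pen NA M)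
    (pB : 2 * W * B ^ 2 / ((1 - η) * δ' * e ^ 2) * ((M : ℝ) + 1) ^ (n + 4) ≤ pen NB M)
    {KA KB : Matrix (Box n M) (Box n M) ℂ} (hKA : KA ∈ Dens (Box n M)) (hKB : KB ∈ Dens (Box n M))
    (hΦ : Phi (Vm u M) (δ • dg (2 * M) (thw n NC)) (FF n M NA (η * ε) (η * δ'))
      (FF n M NB ((1 - η) * ε) ((1 - η) * δ')) (bt NC)⁻¹ ((1 + ε) * η * (bt NA)⁻¹)
      ((1 + ε) * (1 - η) * (bt NB)⁻¹) KA KB ≤ Φ0) (hV : (Vm u M)ᴴ * Vm u M = 1) :
    (bt NC)⁻¹ * (n * g NC - ζ) - n * (NC + 4 * x * (NC + 1) + x ^ 2) -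
      (1 + ε) * n * (η * (g NA / bt NA - NA) + (1 - η) * (g NB / bt NB - NB)) ≤ Φ0 := by
  have h1' : 0 < 1 - η := sub_pos.2 h1
  have hN : 0 < NC := by rw [hNC]; positivity
  have hε : 0 < ε := by linarith
  have hx : 0 < x := hδ.trans_le hδx
  have hδ1 : δ ≤ 1 := by linarith
  have c1 : (1 + ε) * η ≤ 2 := (mul_le_of_le_one_right (by positivity) h1.le).trans (by linarith)
  have c2 : (1 + ε) * (1 - η) ≤ 2 :=
    (mul_le_of_le_one_right (by positivity) (sub_le_self _ h0.le)).trans (by linarith)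
  have q1 : η * δ' * NA ≤ δ' * (NA + NB) := by
    linarith only [mul_pos hδ' hNB, mul_pos h1' (mul_pos hδ' hNA)]
  have q2 : (1 - η) * δ' * NB ≤ δ' * (NA + NB) := by
    linarith only [mul_pos hδ' hNA, mul_pos h0 (mul_pos hδ' hNB)]
  have tA := inv_pos.2 (bt_pos hNA)
  have tB := inv_pos.2 (bt_pos hNB)
  have tC := inv_pos.2 (bt_pos hN)
  have hτ : (dg (2 * M) (thw n NC)).PosDef := th_posDef hN
  have hτt : tr (dg (2 * M) (thw n NC)) ≤ 1 := tr_th_le hN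
  obtain ⟨ρA, hA, ρB, hB', pdA, pdB, hmin, EA, EB, HA, HB⟩ := min_facts hV (hτ.smul hδ)
    (FA := FF n M NA (η * ε) (η * δ')) (FB := FF n M NB ((1 - η) * ε) ((1 - η) * δ'))
    (dg_herm _) (dg_herm _) (bt NC)⁻¹ (lA := (1 + ε) * η * (bt NA)⁻¹)
    (lB := (1 + ε) * (1 - η) * (bt NB)⁻¹) (by positivity) (by positivity)
  have hm := (hmin KA hKA KB hKB).trans hΦ
  rw [Phi] at hm
  obtain ⟨ρ, hρ⟩ : ∃ ρ, ρ = out (Vm u M) (ρA ⊗ₖ ρB) + δ • dg (2 * M) (thw n NC) := ⟨_, rfl⟩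
  rw [← hρ] at hm EA EB HA HB
  have hO := out_psd (Vm u M) (hA.1.kronecker hB'.1)
  have hP : ρ.PosDef := hρ ▸ PosDef.posSemidef_add hO (hτ.smul hδ)
  have hd : (ρ - δ • dg (2 * M) (thw n NC)).PosSemidef := by rw [hρ, add_sub_cancel_right]; exact hO
  have ht : tr ρ = 1 + δ * tr (dg (2 * M) (thw n NC)) := by
    rw [hρ, tr_add', tr_smul', P371.tr, trace_out hV, trace_kronecker, hA.2, hB'.2, mul_one,
      Complex.one_re]
  have hτ0 : 0 ≤ tr (dg (2 * M) (thw n NC)) := by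
    have := tr_mul_nonneg hτ.posSemidef PosSemidef.one
    rwa [Matrix.mul_one] at this
  have ht1 : 1 ≤ tr ρ := by rw [ht]; exact le_add_of_nonneg_right (mul_nonneg hδ.le hτ0)
  have ht2 : tr ρ ≤ 1 + δ := by
    have := mul_le_mul_of_nonneg_left hτt hδ.le
    linarith only [this, ht]
  have ht3 : tr ρ ≤ 2 := by linarith only [ht2, hδ1]
  have fA := FF_ge_tot (a := η * ε) hNA (mul_pos h0 hδ').le hA.1
  have fB := FF_ge_tot (a := (1 - η) * ε) hNB (mul_pos h1' hδ').le hB'.1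
  have hm1 : (1 : ℝ) ≤ ((M : ℝ) + 1) ^ n := one_le_pow₀ (le_add_of_nonneg_left (Nat.cast_nonneg M))
  have hW0 : 0 < W := by rw [hW]; positivity
  have hl : 0 ≤ 1 + Real.log (1 / δ) + n * Real.log (NC + 1) := by
    have := Real.log_nonneg (show 1 ≤ 1 / δ from (one_le_div hδ).2 hδ1)
    have := Real.log_nonneg (show 1 ≤ NC + 1 by linarith)
    positivity
  have hB0 : 0 < B := by
    have := bt_pos hN
    rw [hB]; positivity
  have hF : tr (FF n M NA (η * ε) (η * δ') * ρA) + tr (FF n M NB ((1 - η) * ε) ((1 - η) * δ') * ρB)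
      ≤ W * ((M : ℝ) + 1) ^ n := by
    have a1 := mul_le_mul_of_nonneg_left (Sf_ge hP.posSemidef ht3) tC.le
    have a2 : (1 + ε) * η * (bt NA)⁻¹ * Sf ρA ≤ 2 * (bt NA)⁻¹ * ((M : ℝ) + 1) ^ n := by
      refine (mul_le_mul_of_nonneg_left ((Sf_le_card hA.1).trans card_box.le)
        (by positivity)).trans ?_
      gcongr
    have a3 : (1 + ε) * (1 - η) * (bt NB)⁻¹ * Sf ρB ≤ 2 * (bt NB)⁻¹ * ((M : ℝ) + 1) ^ n := by
      refine (mul_le_mul_of_nonneg_left ((Sf_le_card hB'.1).trans card_box.le)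
        (by positivity)).trans ?_
      gcongr
    have a4 := le_mul_of_one_le_right (show 0 ≤ |Φ0| + 2 * (bt NC)⁻¹ by positivity) hm1
    have a5 := le_abs_self Φ0
    rw [hW]
    linarith only [a1, a2, a3, a4, a5, hm]
  have zA : 0 ≤ tr (FF n M NA (η * ε) (η * δ') * ρA) := by
    refine le_trans ?_ fA
    rw [tr_tot]
    exact mul_nonneg (mul_pos h0 hε).le (Finset.sum_nonneg fun j _ =>
      tr_mul_nonneg (posSemidef_conjTranspose_mul_self _) hA.1)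
  have zB : 0 ≤ tr (FF n M NB ((1 - η) * ε) ((1 - η) * δ') * ρB) := by
    refine le_trans ?_ fB
    rw [tr_tot]
    exact mul_nonneg (mul_pos h1' hε).le (Finset.sum_nonneg fun j _ =>
      tr_mul_nonneg (posSemidef_conjTranspose_mul_self _) hB'.1)
  have htop : ∀ (j : Fin n) {σ : Matrix (Box n M) (Box n M) ℂ}, σ.PosSemidef →
      0 ≤ tr (dg M (fun k => if k j = M then 1 else 0) * σ) := fun j σ hσ => by
    rw [tr_dg]
    exact Finset.sum_nonneg fun k _ => mul_nonneg (by split_ifs <;> norm_num) (diag_nonneg hσ k)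
  have mode := fun j : Fin n => mode_in h0.le h1.le (rel_box h M j) hA hB' hτ.posSemidef hτt hN hδ
    hδx hx4 hε hε1 hρ (wop_th hN j) (ann_ccr j) fun H => by
      have b1 := top_real (mul_pos h0 hδ') hW0 hB0 he (Nat.cast_add_one_pos M) (htop j hA.1) pA
        ((FF_ge_top hNA (mul_pos h0 hε).le (mul_pos h0 hδ').le j hA.1).trans (by linarith only [hF, zB]))
      have b2 := top_real (mul_pos h1' hδ') hW0 hB0 he (Nat.cast_add_one_pos M) (htop j hB'.1) pB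
        ((FF_ge_top hNB (mul_pos h1' hε).le (mul_pos h1' hδ').le j hB'.1).trans (by linarith only [hF, zA]))
      have nn : ‖ann n M j‖ ≤ Real.sqrt (2 * M : ℕ) :=
        (norm_ann j).trans (Real.sqrt_le_sqrt (Nat.cast_le.2 (by omega)))
      refine (key h0.le h1.le (rel_box h M j) pdA hA.2 pdB hB'.2 hτ hτt hNA hNB hNC hδ hδε hρ
        (wop_th hN j) (dg_herm _) (dg_herm _) EA EB HA HB (ω := δ' * (NA + NB))
        ((neg_le_neg q1).trans (pen_bound j hNA (mul_pos h0 hδ').le hA))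
        ((neg_le_neg q2).trans (pen_bound j hNB (mul_pos h1' hδ').le hB')) nn nn (norm_ann j)
        (norm_mlog_le hN hδ hδ1 hd ht3) (hχ j ρ hd ht3) (ϖ := e / (B * ((M : ℝ) + 1) ^ 2))
        (by positivity) ((tr_boundary j hA hB').trans (by linarith only [b1, b2])) H).trans ?_
      have := err_real (n := n) (M := M) (show 0 < NA + NB + 1 by positivity) hl (bt_pos hN) he
      rw [← hB] at this
      linarith only [this, herr]
  have s1 := hst ρ hP ht1 (by linarith only [ht2, hδx, hxξ, hx]) (fun j => by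
    have := (mode j).2.1
    rw [ann_ct_mul] at this
    linarith only [this, hxN]) fun j k l => ((mode j).1 k l).trans hxξ
  have s2 := mul_le_mul_of_nonneg_left s1 tC.le
  have s3 := Finset.sum_le_card_nsmul Finset.univ _ _ fun j _ => (mode j).2.2
  rw [Finset.sum_add_distrib, ← Finset.mul_sum, ← Finset.mul_sum, ← tr_tot, ← tr_tot,
    Finset.card_univ, Fintype.card_fin, nsmul_eq_mul] at s3
  have g1 := mul_le_mul_of_nonneg_left (gibbs_T hNA hA) (show 0 ≤ (1 + ε) * η by positivity)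
  have g2 := mul_le_mul_of_nonneg_left (gibbs_T hNB hB') (show 0 ≤ (1 + ε) * (1 - η) by positivity)
  linarith only [g1, g2, s2, s3, fA, fB, hm]

end Vale.Agent.P369.Fin
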