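import Vale.Agent.P369.FinCore

open Matrix Filter Topology
open scoped Matrix.Norms.L2Operator ComplexOrder Kronecker

namespace Vale.Agent.P369

theorem Vm_iso {n : ℕ} {s t : ℝ} {u : Idx n × Idx n → Idx n × Idx n → ℂ} (h : BS s t u) (M : ℕ) :
    (Vm u M)ᴴ * Vm u M = 1 := by
  ext y y'
  have h1 := hasSum_box₂ (M := 2 * M)
    (F := fun z => star (u z (val y.1, val y.2)) * u z (val y'.1, val y'.2))
    (fun z hz => BoxRel.supp h (right_ne_zero_of_mul hz))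
  have h2 := h1.unique (h.orth _ _)
  rw [mul_apply, one_apply]
  refine h2.trans (if_congr ⟨fun e => ?_, fun e => by rw [e]⟩ rfl rfl)
  exact Prod.ext (val_inj (congrArg Prod.fst e)) (val_inj (congrArg Prod.snd e))

open Vale.Agent.P369.Fin in
theorem fin_main {n : ℕ} {η : ℝ} (h0 : 0 < η) (h1 : η < 1)
    {u : Idx n × Idx n → Idx n × Idx n → ℂ} (h : BS (Real.sqrt η) (Real.sqrt (1 - η)) u)
    {NA NB NC : ℝ} (hNA : 0 < NA) (hNB : 0 < NB) (hNC : NC = η * NA + (1 - η) * NB)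
    (KA KB : Idx n → Idx n → ℂ) (M0 : ℕ) (SA SB SC : ℝ)
    (sA : ∀ k, KA k k ≠ 0 → ∀ j, k j ≤ M0) (sB : ∀ k, KB k k ≠ 0 → ∀ j, k j ≤ M0)
    (hA : ∀ M, M0 ≤ M → res M KA ∈ Dens (Box n M) ∧ Sf (res M KA) = SA)
    (hB : ∀ M, M0 ≤ M → res M KB ∈ Dens (Box n M) ∧ Sf (res M KB) = SB)
    (hC : ∀ M, M0 ≤ M → Sf (out (Vm u M) (res M KA ⊗ₖ res M KB)) = SC) :
    n * (g NC / bt NC - η * (g NA / bt NA) - (1 - η) * (g NB / bt NB)) ≤
      SC / bt NC - η * (SA / bt NA) - (1 - η) * (SB / bt NB) := by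
  have h1' : 0 < 1 - η := sub_pos.2 h1
  have hN : 0 < NC := by rw [hNC]; positivity
  have tC := inv_pos.2 (bt_pos hN)
  refine le_of_forall_pos_le_add fun y hy => ?_
  have hy' : 0 < y / 6 := by positivity
  have pos : ∀ᶠ x in 𝓝[>] (0 : ℝ), 0 < x := self_mem_nhdsWithin
  obtain ⟨K, hK, hχ⟩ := exists_chi n hN
  obtain ⟨K', hK', hS⟩ := exists_Sf_th n hN
  obtain ⟨ε, hε, hε1, hε2⟩ := (pos.and ((ev_id 1 one_pos).and (ev_id
    (n * (η * (g NA / bt NA - NA) + (1 - η) * (g NB / bt NB - NB)) -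
      (η * (SA / bt NA) + (1 - η) * (SB / bt NB)) + n * M0) hy'))).exists
  obtain ⟨ζ, hζ, hζ1⟩ := (pos.and (ev_id (bt NC)⁻¹ hy')).exists
  obtain ⟨ξ, hξ, L0, hst⟩ := stab n hN hζ
  obtain ⟨x, hx, hx1, hx2, hx3, hx4⟩ := (pos.and ((ev_id 4 one_pos).and ((ev_id 10 hξ).and
    ((ev_id (4 * (NC + 1)) one_pos).and (ev_id (n * (4 * (NC + 1) + 1)) hy'))))).exists
  have he : 0 < ε * x ^ 2 / 6 := by positivity
  obtain ⟨δ, hδ, hδ1, hδ2, hδ3, hδ4⟩ := (pos.and ((ev_id 1 hx).and ((ev_id 8 hε).and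
    ((ev_le tend_log ((K / bt NC) ^ 2) he).and
      (ev_le tend_log ((bt NC)⁻¹ * (K' + 1)) hy'))))).exists
  obtain ⟨δ', hδ', hδ'1, hδ'2⟩ := (pos.and ((ev_id (2 * (NA + NB)) he).and
    (ev_id (η * (n * pen NA M0) + (1 - η) * (n * pen NB M0)) hy'))).exists
  rw [one_mul] at hε1 hδ1
  have hδ0 : δ ≤ 1 := by linarith
  obtain ⟨Φ0, hΦ0⟩ : ∃ Φ0, Φ0 = (bt NC)⁻¹ * (SC + δ * (K' + Real.log (1 / δ))) -
    (1 + ε) * η * (bt NA)⁻¹ * SA - (1 + ε) * (1 - η) * (bt NB)⁻¹ * SB +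
    (η * ε * (n * M0) + η * δ' * (n * pen NA M0)) +
    ((1 - η) * ε * (n * M0) + (1 - η) * δ' * (n * pen NB M0)) := ⟨_, rfl⟩
  obtain ⟨M, hM0, hM1, hM2, hM3⟩ := ((eventually_ge_atTop M0).and ((eventually_ge_atTop L0).and
    ((pen_grow hNA _ (n + 4)).and (pen_grow hNB _ (n + 4))))).exists
  obtain ⟨a1, a2⟩ := hA M hM0
  obtain ⟨b1, b2⟩ := hB M hM0
  have hV : (Vm u M)ᴴ * Vm u M = 1 := Vm_iso h M
  have c := core h0 h1 h hNA hNB hNC (Φ0 := Φ0) hε1 hδ hδ1 hδ2 (by linarith) hδ' he hx2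
    (by linarith) (hst (2 * M) (by omega)) (fun j ρ => hχ (2 * M) j δ ρ hδ hδ0)
    (by
      have e : δ * (K * (1 + Real.log (1 / δ)) / bt NC) ^ 2 =
        (K / bt NC) ^ 2 * (δ * (1 + Real.log (1 / δ)) ^ 2) := by ring
      rw [e]
      linarith) rfl rfl hM2 hM3 a1 b1
    (by
      have i1 := mul_le_mul_of_nonneg_left ((Sf_add_le (out_psd (Vm u M) (a1.1.kronecker b1.1))
        ((th_posDef hN).smul hδ)).trans (add_le_add_right (hS (2 * M) δ hδ hδ0) _)) tC.le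
      have i2 := FF_le hNA (mul_pos h0 hε).le (mul_pos h0 hδ').le a1 fun k => sA (val k)
      have i3 := FF_le hNB (mul_pos h1' hε).le (mul_pos h1' hδ').le b1 fun k => sB (val k)
      rw [hC M hM0] at i1
      rw [Phi, a2, b2, hΦ0]
      linarith only [i1, i2, i3]) hV
  have hl := Real.log_nonneg (show 1 ≤ 1 / δ from (one_le_div hδ).2 hδ0)
  have i1 : K' + Real.log (1 / δ) ≤ (K' + 1) * (1 + Real.log (1 / δ)) ^ 2 := by
    nlinarith only [hl, hK', mul_nonneg hK' hl, mul_nonneg hK' (sq_nonneg (Real.log (1 / δ)))]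
  have i2 := mul_le_mul_of_nonneg_left i1 (mul_pos tC hδ).le
  have i3 : (n : ℝ) * x ^ 2 ≤ n * x :=
    mul_le_mul_of_nonneg_left (by nlinarith only [hx, hx1]) (Nat.cast_nonneg n)
  have i4 : (n : ℝ) * NC = n * (η * NA + (1 - η) * NB) := by rw [hNC]
  rw [hΦ0] at c
  simp only [div_eq_mul_inv] at c hε2 hδ4 i2 ⊢
  linarith only [c, i2, i3, i4, hε2, hζ1, hx4, hδ4, hδ'2, hy]

end Vale.Agent.P369
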