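import Mathlib

/-! The integrals behind the bridge conductance. -/

open MeasureTheory Set Filter Topology

namespace Vale.Agent.P369.Itp

variable {ι : Type} [Fintype ι] [DecidableEq ι]

/-- the weight `∏ (t + x i) ^ (- b i)` -/
noncomputable def w (b x : ι → ℝ) (t : ℝ) : ℝ := Real.exp (-∑ i, b i * Real.log (t + x i))

/-- moments of the weight -/
noncomputable def I (k : ℕ) (b x : ι → ℝ) : ℝ := ∫ t in Ioi (0 : ℝ), t ^ k * w b x t

/-- raising one exponent -/
def up (b : ι → ℝ) (i : ι) : ι → ℝ := b + Pi.single i 1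

theorem sum_up (b : ι → ℝ) (i : ι) : ∑ j, up b i j = ∑ j, b j + 1 := by
  simp [up, Finset.sum_add_distrib]

omit [Fintype ι] in
theorem le_up (b : ι → ℝ) (i j : ι) : b j ≤ up b i j := by
  by_cases h : j = i
  · subst h; simp [up]
  · simp [up, h]

omit [DecidableEq ι] in
theorem w_pos (b x : ι → ℝ) (t : ℝ) : 0 < w b x t := Real.exp_pos _

theorem w_up (b : ι → ℝ) {x : ι → ℝ} (hx : ∀ i, 0 < x i) (i : ι) {t : ℝ} (ht : 0 ≤ t) :
    w b x t = (t + x i) * w (up b i) x t := by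
  have h : 0 < t + x i := by linarith [hx i]
  have e : ∑ j, up b i j * Real.log (t + x j) =
      ∑ j, b j * Real.log (t + x j) + Real.log (t + x i) := by
    simp [up, add_mul, Finset.sum_add_distrib, Pi.single_apply]
  rw [w, w, e, neg_add, Real.exp_add, Real.exp_neg (Real.log _), Real.exp_log h]
  field_simp

theorem hasDerivAt_w (b : ι → ℝ) {x : ι → ℝ} (hx : ∀ i, 0 < x i) {t : ℝ} (ht : 0 ≤ t) :
    HasDerivAt (w b x) (-∑ i, b i * w (up b i) x t) t := by
  have h1 : HasDerivAt (fun t => -∑ i, b i * Real.log (t + x i)) (-∑ i, b i * (t + x i)⁻¹) t := by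
    refine (HasDerivAt.fun_sum fun i _ => ?_).neg
    have h : t + x i ≠ 0 := by linarith [hx i]
    have := (((hasDerivAt_id t).add_const (x i)).log h).const_mul (b i)
    simpa using this
  refine h1.exp.congr_deriv ?_
  rw [mul_neg, Finset.mul_sum, neg_inj]
  refine Finset.sum_congr rfl fun i _ => ?_
  have h : t + x i ≠ 0 := by linarith [hx i]
  have := w_up b hx i ht
  rw [w] at this
  rw [this]; field_simp

omit [DecidableEq ι] in
theorem exists_bound {b x : ι → ℝ} (hb : ∀ i, 0 ≤ b i) (hx : ∀ i, 0 < x i) {k r : ℕ}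
    (hs : (k : ℝ) + r ≤ ∑ i, b i) : ∃ C, ∀ t, 0 ≤ t → t ^ k * w b x t ≤ C * ((1 + t) ^ r)⁻¹ := by
  refine ⟨Real.exp (-∑ i, b i * Real.log (min 1 (x i))), fun t ht => ?_⟩
  have h1 : 0 < 1 + t := by linarith
  have hl : 0 ≤ Real.log (1 + t) := Real.log_nonneg (by linarith)
  have e1 : ∑ i, b i * Real.log (min 1 (x i)) + (∑ i, b i) * Real.log (1 + t) ≤
      ∑ i, b i * Real.log (t + x i) := by
    rw [Finset.sum_mul, ← Finset.sum_add_distrib]
    refine Finset.sum_le_sum fun i _ => ?_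
    have hm : 0 < min 1 (x i) := lt_min one_pos (hx i)
    rw [← mul_add, ← Real.log_mul hm.ne' h1.ne']
    refine mul_le_mul_of_nonneg_left (Real.log_le_log (by positivity) ?_) (hb i)
    nlinarith [min_le_left 1 (x i), min_le_right 1 (x i)]
  have e2 : w b x t ≤ Real.exp (-∑ i, b i * Real.log (min 1 (x i))) * ((1 + t) ^ (k + r))⁻¹ := by
    rw [← Real.exp_log (pow_pos h1 (k + r)), ← Real.exp_neg, ← Real.exp_add, Real.log_pow, w]
    refine Real.exp_le_exp.2 ?_
    have := mul_le_mul_of_nonneg_right hs hl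
    push_cast
    linarith
  have e3 : t ^ k ≤ (1 + t) ^ k := pow_le_pow_left₀ ht (by linarith) k
  calc t ^ k * w b x t ≤ (1 + t) ^ k * (Real.exp (-∑ i, b i * Real.log (min 1 (x i))) *
        ((1 + t) ^ (k + r))⁻¹) := mul_le_mul e3 e2 (w_pos _ _ _).le (by positivity)
    _ = _ := by rw [pow_add]; field_simp

theorem contOn (b : ι → ℝ) {x : ι → ℝ} (hx : ∀ i, 0 < x i) (k : ℕ) :
    ContinuousOn (fun t => t ^ k * w b x t) (Ioi 0) := fun _ ht =>
  ((continuous_pow k).continuousAt.mul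
    (hasDerivAt_w b hx (le_of_lt ht)).continuousAt).continuousWithinAt

theorem integ {b x : ι → ℝ} (hb : ∀ i, 0 ≤ b i) (hx : ∀ i, 0 < x i) {k : ℕ}
    (hs : (k : ℝ) + 2 ≤ ∑ i, b i) : IntegrableOn (fun t => t ^ k * w b x t) (Ioi 0) := by
  obtain ⟨C, hC⟩ := exists_bound hb hx (k := k) (r := 2) (by exact_mod_cast hs)
  refine Integrable.mono' (integrable_inv_one_add_sq.const_mul |C|).integrableOn
    ((contOn b hx k).aestronglyMeasurable measurableSet_Ioi) ?_
  refine (ae_restrict_iff' measurableSet_Ioi).2 (Eventually.of_forall fun t ht => ?_)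
  have ht' : (0 : ℝ) < t := ht
  rw [Real.norm_of_nonneg (mul_nonneg (by positivity) (w_pos _ _ _).le)]
  refine (hC t ht'.le).trans (mul_le_mul (le_abs_self _) ?_ (by positivity) (abs_nonneg _))
  exact inv_anti₀ (by positivity) (by nlinarith)

theorem I_pos {b x : ι → ℝ} (hb : ∀ i, 0 ≤ b i) (hx : ∀ i, 0 < x i) {k : ℕ}
    (hs : (k : ℝ) + 2 ≤ ∑ i, b i) : 0 < I k b x := by
  have hp : ∀ t ∈ Ioi (0 : ℝ), 0 < t ^ k * w b x t := fun t ht =>
    mul_pos (pow_pos ht k) (w_pos _ _ _)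
  rw [I, setIntegral_pos_iff_support_of_nonneg_ae
    ((ae_restrict_iff' measurableSet_Ioi).2 (Eventually.of_forall fun t ht => (hp t ht).le))
    (integ hb hx hs)]
  have e : Ioi (0 : ℝ) ⊆ Function.support fun t => t ^ k * w b x t := fun t ht => (hp t ht).ne'
  rw [inter_eq_self_of_subset_right e]
  simp

theorem I_rec {b x : ι → ℝ} (hb : ∀ i, 0 ≤ b i) (hx : ∀ i, 0 < x i) {k : ℕ}
    (hs : (k : ℝ) + 2 ≤ ∑ i, b i) (i : ι) :
    I k b x = I (k + 1) (up b i) x + x i * I k (up b i) x := by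
  have hb' : ∀ j, 0 ≤ up b i j := fun j => (hb j).trans (le_up b i j)
  rw [I, I, I, ← integral_const_mul, ← integral_add (integ hb' hx (by rw [sum_up]; push_cast; linarith))
    ((integ hb' hx (by rw [sum_up]; linarith)).const_mul _)]
  refine setIntegral_congr_fun measurableSet_Ioi fun t ht => ?_
  rw [w_up b hx i (le_of_lt ht)]; ring

theorem I_ibp {b x : ι → ℝ} (hb : ∀ i, 0 ≤ b i) (hx : ∀ i, 0 < x i) {k : ℕ}
    (hs : (k : ℝ) + 2 ≤ ∑ i, b i) :
    ((k : ℝ) + 1) * I k b x = ∑ i, b i * I (k + 1) (up b i) x := by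
  have hb' : ∀ i j, 0 ≤ up b i j := fun i j => (hb j).trans (le_up b i j)
  have i1 := (integ hb hx hs).const_mul ((k : ℝ) + 1)
  have i2 : ∀ i, Integrable (fun t => b i * (t ^ (k + 1) * w (up b i) x t))
      (volume.restrict (Ioi 0)) := fun i =>
    (integ (hb' i) hx (by rw [sum_up]; push_cast; linarith)).const_mul _
  have i3 := integrable_finsetSum Finset.univ fun i _ => i2 i
  have hd : ∀ t ∈ Ici (0 : ℝ), HasDerivAt (fun t => t ^ (k + 1) * w b x t)
      (((k : ℝ) + 1) * (t ^ k * w b x t) - ∑ i, b i * (t ^ (k + 1) * w (up b i) x t)) t := by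
    intro t ht
    refine ((hasDerivAt_pow (k + 1) t).mul (hasDerivAt_w b hx ht)).congr_deriv ?_
    rw [mul_neg, Finset.mul_sum, sub_eq_add_neg]
    push_cast
    congr 1
    · ring
    · rw [neg_inj]; exact Finset.sum_congr rfl fun i _ => by ring
  have hl : Tendsto (fun t => t ^ (k + 1) * w b x t) atTop (𝓝 0) := by
    obtain ⟨C, hC⟩ := exists_bound hb hx (k := k + 1) (r := 1) (by push_cast; linarith)
    have h0 : Tendsto (fun t : ℝ => C * ((1 + t) ^ 1)⁻¹) atTop (𝓝 (C * 0)) := by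
      refine Tendsto.const_mul C (tendsto_inv_atTop_zero.comp ?_)
      simpa using tendsto_atTop_add_const_left atTop 1 tendsto_id
    rw [mul_zero] at h0
    refine squeeze_zero' ?_ ?_ h0
    · filter_upwards [eventually_ge_atTop 0] with t ht
      exact mul_nonneg (by positivity) (w_pos _ _ _).le
    · filter_upwards [eventually_ge_atTop 0] with t ht using hC t ht
  have h := integral_Ioi_of_hasDerivAt_of_tendsto' hd (i1.sub i3) hl
  rw [integral_sub i1 i3, integral_const_mul, integral_finsetSum _ fun i _ => i2 i] at h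
  simp only [integral_const_mul] at h
  simp only [I]
  simp at h
  linarith

theorem I_pw {b x : ι → ℝ} (hb : ∀ i, 0 ≤ b i) (hx : ∀ i, 0 < x i) {k : ℕ}
    (hs : (k : ℝ) + 2 ≤ ∑ i, b i) :
    (∑ i, b i - (k + 1)) * I k b x = ∑ i, b i * (x i * I k (up b i) x) := by
  rw [sub_mul, I_ibp hb hx hs, Finset.sum_mul, ← Finset.sum_sub_distrib]
  refine Finset.sum_congr rfl fun i _ => ?_
  rw [I_rec hb hx hs i]; ring

/-- the mean of `t` for the weight -/
noncomputable def K (b x : ι → ℝ) : ℝ := I 1 b x / I 0 b x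

theorem K_pos {b x : ι → ℝ} (hb : ∀ i, 0 ≤ b i) (hx : ∀ i, 0 < x i) (hs : 3 ≤ ∑ i, b i) :
    0 < K b x :=
  div_pos (I_pos hb hx (by push_cast; linarith)) (I_pos hb hx (by push_cast; linarith))

theorem K_rec {b x : ι → ℝ} (hb : ∀ i, 0 ≤ b i) (hx : ∀ i, 0 < x i) (hs : 3 ≤ ∑ i, b i) :
    K b x = ∑ i, b i / (∑ j, b j - 2) * ((x i)⁻¹ + (K (up b i) x)⁻¹)⁻¹ := by
  have hb' : ∀ i j, 0 ≤ up b i j := fun i j => (hb j).trans (le_up b i j)
  have h0 : 0 < I 0 b x := I_pos hb hx (by push_cast; linarith)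
  have h1 := I_pw hb hx (k := 1) (by push_cast; linarith)
  have h2 : (0 : ℝ) < ∑ j, b j - 2 := by linarith
  have e : I 1 b x = ∑ i, b i / (∑ j, b j - 2) * (x i * I 1 (up b i) x) := by
    have : I 1 b x = (∑ j, b j - 2)⁻¹ * ∑ i, b i * (x i * I 1 (up b i) x) := by
      rw [← h1]; push_cast; field_simp; ring
    rw [this, Finset.mul_sum]
    exact Finset.sum_congr rfl fun i _ => by ring
  rw [K, e, Finset.sum_div]
  refine Finset.sum_congr rfl fun i _ => ?_
  have r := I_rec hb hx (k := 0) (by push_cast; linarith) i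
  have p0 : 0 < I 0 (up b i) x := I_pos (hb' i) hx (by rw [sum_up]; push_cast; linarith)
  have p1 : 0 < I 1 (up b i) x := I_pos (hb' i) hx (by rw [sum_up]; push_cast; linarith)
  have := hx i
  rw [mul_div_assoc, K, r]
  congr 1
  field_simp

theorem K_lower {b x : ι → ℝ} (hb : ∀ i, 0 ≤ b i) (hx : ∀ i, 0 < x i) (hs : 3 ≤ ∑ i, b i) :
    1 ≤ K b x * ∑ i, b i / x i := by
  have hb' : ∀ i j, 0 ≤ up b i j := fun i j => (hb j).trans (le_up b i j)
  have h0 : 0 < I 0 b x := I_pos hb hx (by push_cast; linarith)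
  have h1 := I_ibp hb hx (k := 0) (by push_cast; linarith)
  rw [K, div_mul_eq_mul_div, le_div_iff₀ h0, Finset.mul_sum]
  simp only [Nat.cast_zero, zero_add] at h1
  rw [h1]
  refine Finset.sum_le_sum fun i _ => ?_
  have r := I_rec hb hx (k := 1) (by push_cast; linarith) i
  have p2 : 0 < I (1 + 1) (up b i) x := I_pos (hb' i) hx (by rw [sum_up]; push_cast; linarith)
  have := hx i
  have e : I 1 (up b i) x ≤ I 1 b x / x i := by rw [le_div_iff₀ this]; linarith
  calc _ ≤ b i * (I 1 b x / x i) := mul_le_mul_of_nonneg_left e (hb i)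
    _ = _ := by ring

theorem K_upper {b x : ι → ℝ} (hb : ∀ i, 0 ≤ b i) (hx : ∀ i, 0 < x i) (hs : 3 ≤ ∑ i, b i) {c : ℝ}
    (hc : ∀ i j, x j ≤ c * x i) : K b x * ∑ i, b i / x i ≤ 1 + 2 * c / (∑ i, b i - 2) := by
  have hb' : ∀ i j, 0 ≤ up b i j := fun i j => (hb j).trans (le_up b i j)
  have h0 : 0 < I 0 b x := I_pos hb hx (by push_cast; linarith)
  have h1 := I_ibp hb hx (k := 0) (by push_cast; linarith)
  have h2 : (0 : ℝ) < ∑ j, b j - 2 := by linarith
  simp only [Nat.cast_zero, zero_add, one_mul] at h1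
  rw [K, div_mul_eq_mul_div, div_le_iff₀ h0, Finset.mul_sum, h1, Finset.mul_sum]
  refine Finset.sum_le_sum fun i _ => ?_
  have r := I_rec hb hx (k := 1) (by push_cast; linarith) i
  have a1 := I_pw (hb' i) hx (k := 2) (by rw [sum_up]; push_cast; linarith)
  have a2 := I_ibp (hb' i) hx (k := 1) (by rw [sum_up]; push_cast; linarith)
  have a3 : ∑ j, up b i j * (x j * I 2 (up (up b i) j) x) ≤
      c * x i * ∑ j, up b i j * I (1 + 1) (up (up b i) j) x := by
    rw [Finset.mul_sum]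
    refine Finset.sum_le_sum fun j _ => ?_
    have p : 0 < I 2 (up (up b i) j) x := I_pos (fun l => (hb' i l).trans (le_up _ j l)) hx
      (by rw [sum_up, sum_up]; push_cast; linarith)
    have := mul_le_mul_of_nonneg_left (mul_le_mul_of_nonneg_right (hc i j) p.le) (hb' i j)
    calc _ ≤ _ := this
      _ = _ := by ring
  rw [← a1, ← a2, sum_up] at a3
  have hxi := hx i
  have a4 : I (1 + 1) (up b i) x ≤ 2 * c / (∑ i, b i - 2) * (x i * I 1 (up b i) x) := by
    rw [div_mul_eq_mul_div, le_div_iff₀ h2]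
    push_cast at a3
    linarith
  have a5 : I 1 b x / x i ≤ (1 + 2 * c / (∑ i, b i - 2)) * I 1 (up b i) x := by
    rw [div_le_iff₀ hxi]; linarith
  calc _ = b i * (I 1 b x / x i) := by ring
    _ ≤ b i * ((1 + 2 * c / (∑ i, b i - 2)) * I 1 (up b i) x) :=
      mul_le_mul_of_nonneg_left a5 (hb i)
    _ = _ := by ring

omit [DecidableEq ι] in
theorem w_one {x : ι → ℝ} (hx : ∀ i, 0 < x i) {t : ℝ} (ht : 0 ≤ t) :
    w (fun _ => 1) x t = (∏ i, (t + x i))⁻¹ := by
  rw [w, Real.exp_neg, Real.exp_sum]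
  congr 1
  exact Finset.prod_congr rfl fun i _ => by rw [one_mul, Real.exp_log (by linarith [hx i])]

end Vale.Agent.P369.Itp
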