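import Vale.Agent.P369.Basic
import Vale.Agent.P369.InterpAux

open Matrix
open scoped Matrix.Norms.L2Operator ComplexOrder Kronecker

namespace Vale.Agent.P369

open MeasureTheory Set

/-- logarithmic mean -/
noncomputable def lm (p q : ℝ) : ℝ := (∫ t in Ioi (0 : ℝ), ((t + p) * (t + q))⁻¹)⁻¹

/-- bridge conductance -/
noncomputable def kap (x : Fin 4 → ℝ) : ℝ :=
  (∫ t in Ioi (0 : ℝ), t * (∏ i, (t + x i))⁻¹) / ∫ t in Ioi (0 : ℝ), (∏ i, (t + x i))⁻¹

/-- effective conductance of the Wheatstone bridge -/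
noncomputable def wh (f0 f1 g0 g1 k : ℝ) : ℝ :=
  (f0 * g0 * (f1 + g1) + f1 * g1 * (f0 + g0) + k * (f0 + f1) * (g0 + g1)) /
    ((f0 + g0) * (f1 + g1) + k * (f0 + f1 + g0 + g1))

/-- the interpolated weight -/
noncomputable def Psi (f0 f1 g0 g1 : ℝ) : ℝ := wh f0 f1 g0 g1 (kap ![f0, f1, g0, g1])

/-- `T` is a contraction between weighted spaces -/
def Good {A C : Type} [Fintype A] [Fintype C] (T : (C → ℂ) →ₗ[ℂ] (A → ℂ)) (F : A → ℝ)
    (G : C → ℝ) : Prop :=
  ∀ z, ∑ a, F a * ‖T z a‖ ^ 2 ≤ ∑ c, G c * ‖z c‖ ^ 2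

namespace Itp

open Filter Topology

/-- inverse of the logarithmic mean -/
noncomputable def J (p q : ℝ) : ℝ := ∫ t in Ioi (0 : ℝ), ((t + p) * (t + q))⁻¹

theorem J_eq {p q : ℝ} (hp : 0 < p) (hq : 0 < q) : J p q = I 0 (fun _ => 1) ![p, q] := by
  refine setIntegral_congr_fun measurableSet_Ioi fun t ht => ?_
  rw [w_one (by intro i; fin_cases i <;> simpa) (le_of_lt ht)]
  simp

theorem J_integ {p q : ℝ} (hp : 0 < p) (hq : 0 < q) :
    IntegrableOn (fun t : ℝ => ((t + p) * (t + q))⁻¹) (Ioi 0) := by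
  have hx : ∀ i, 0 < (![p, q] : Fin 2 → ℝ) i := by intro i; fin_cases i <;> simpa
  refine (integ (b := fun _ => 1) (fun _ => zero_le_one) hx (k := 0) (by simp)).congr_fun
    (fun t ht => ?_) measurableSet_Ioi
  simp [w_one hx (le_of_lt ht)]

theorem J_pos {p q : ℝ} (hp : 0 < p) (hq : 0 < q) : 0 < J p q := by
  rw [J_eq hp hq]
  exact I_pos (fun _ => zero_le_one) (by intro i; fin_cases i <;> simpa) (by simp)

theorem J_mul {p q : ℝ} (hp : 0 < p) (hq : 0 < q) :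
    (p - q) * J p q = Real.log p - Real.log q := by
  have hd : ∀ t ∈ Ici (0 : ℝ), HasDerivAt (fun t => Real.log ((t + q) / (t + p)))
      ((p - q) * ((t + p) * (t + q))⁻¹) t := by
    intro t ht
    have ht' : (0 : ℝ) ≤ t := ht
    have h1 : t + p ≠ 0 := by positivity
    have h2 : t + q ≠ 0 := by positivity
    refine ((((hasDerivAt_id t).add_const q).div ((hasDerivAt_id t).add_const p) h1).log
      (div_ne_zero h2 h1)).congr_deriv ?_
    simp only [id, Pi.div_apply]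
    field_simp
    ring
  have hl : Tendsto (fun t => Real.log ((t + q) / (t + p))) atTop (𝓝 0) := by
    have h0 : Tendsto (fun t : ℝ => 1 + (q - p) * (t + p)⁻¹) atTop (𝓝 (1 + (q - p) * 0)) :=
      ((tendsto_inv_atTop_zero.comp (tendsto_atTop_add_const_right atTop p tendsto_id)).const_mul
        _).const_add 1
    rw [mul_zero, add_zero] at h0
    have h1 := (Real.continuousAt_log one_ne_zero).tendsto.comp h0
    rw [Real.log_one] at h1
    refine h1.congr' ?_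
    filter_upwards [eventually_ge_atTop 0] with t ht
    have : t + p ≠ 0 := by positivity
    simp only [Function.comp]
    congr 1
    field_simp
    ring
  have h := integral_Ioi_of_hasDerivAt_of_tendsto' hd ((J_integ hp hq).const_mul _) hl
  rw [integral_const_mul] at h
  rw [J, h, zero_add, zero_add, Real.log_div hq.ne' hp.ne']
  ring

theorem J_self {p : ℝ} (hp : 0 < p) : J p p = p⁻¹ := by
  have hx : ∀ i, 0 < (![p] : Fin 1 → ℝ) i := by intro i; fin_cases i; simpa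
  have hd : ∀ t ∈ Ici (0 : ℝ), HasDerivAt (fun t => -(t + p)⁻¹) (((t + p) * (t + p))⁻¹) t := by
    intro t ht
    have ht' : (0 : ℝ) ≤ t := ht
    have h1 : t + p ≠ 0 := by positivity
    refine (((hasDerivAt_id t).add_const p).inv h1).neg.congr_deriv ?_
    simp only [id]
    field_simp
  have hl : Tendsto (fun t => -(t + p)⁻¹) atTop (𝓝 (-0)) :=
    (tendsto_inv_atTop_zero.comp (tendsto_atTop_add_const_right atTop p tendsto_id)).neg
  have h := integral_Ioi_of_hasDerivAt_of_tendsto' hd (J_integ hp hp) hl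
  rw [J, h]; simp

theorem kap_eq {x : Fin 4 → ℝ} (hx : ∀ i, 0 < x i) : kap x = K (fun _ => 1) x := by
  rw [kap, K, I, I]
  congr 1
  · exact setIntegral_congr_fun measurableSet_Ioi fun t ht => by
      rw [w_one hx (le_of_lt ht), pow_one]
  · exact setIntegral_congr_fun measurableSet_Ioi fun t ht => by
      rw [w_one hx (le_of_lt ht), pow_zero, one_mul]

theorem kap_pos {x : Fin 4 → ℝ} (hx : ∀ i, 0 < x i) : 0 < kap x := by
  rw [kap_eq hx]; exact K_pos (fun _ => zero_le_one) hx (by norm_num)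

theorem pos4 {f0 f1 g0 g1 : ℝ} (h0 : 0 < f0) (h1 : 0 < f1) (h2 : 0 < g0) (h3 : 0 < g1) :
    ∀ i, 0 < (![f0, f1, g0, g1] : Fin 4 → ℝ) i := by
  intro i; fin_cases i <;> simpa

theorem kap_rel {f0 f1 g0 g1 : ℝ} (h0 : 0 < f0) (h1 : 0 < f1) (h2 : 0 < g0) (h3 : 0 < g1)
    (h : J f0 f1 = J g0 g1) :
    (f0 + f1 - (g0 + g1)) * kap ![f0, f1, g0, g1] = g0 * g1 - f0 * f1 := by
  have hx := pos4 h0 h1 h2 h3
  have p0 : 0 < I 0 (fun _ => 1) ![f0, f1, g0, g1] :=
    I_pos (fun _ => zero_le_one) hx (by norm_num)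
  have i0 := integ (b := fun _ => 1) (fun _ => zero_le_one) hx (k := 0) (by norm_num)
  have i1 := integ (b := fun _ => 1) (fun _ => zero_le_one) hx (k := 1) (by norm_num)
  have e : (f0 + f1 - (g0 + g1)) * I 1 (fun _ => 1) ![f0, f1, g0, g1] -
      (g0 * g1 - f0 * f1) * I 0 (fun _ => 1) ![f0, f1, g0, g1] = J g0 g1 - J f0 f1 := by
    rw [I, I, ← integral_const_mul, ← integral_const_mul,
      ← integral_sub (i1.const_mul _) (i0.const_mul _), J, J,
      ← integral_sub (J_integ h2 h3) (J_integ h0 h1)]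
    refine setIntegral_congr_fun measurableSet_Ioi fun t ht => ?_
    have ht' : (0 : ℝ) < t := ht
    simp only [w_one hx ht'.le, Fin.prod_univ_four, Matrix.cons_val]
    field_simp
    ring
  rw [kap_eq hx, K, ← mul_div_assoc, div_eq_iff p0.ne', ← sub_eq_zero, e, h, sub_self]

section
variable {A C : Type} [Fintype A] [Fintype C] {T : (C → ℂ) →ₗ[ℂ] (A → ℂ)}

theorem good_mono {F F' : A → ℝ} {G G' : C → ℝ} (h : Good T F G) (hF : ∀ a, F' a ≤ F a)
    (hG : ∀ c, G c ≤ G' c) : Good T F' G' := fun z =>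
  (Finset.sum_le_sum fun a _ => mul_le_mul_of_nonneg_right (hF a) (sq_nonneg _)).trans
    ((h z).trans (Finset.sum_le_sum fun c _ => mul_le_mul_of_nonneg_right (hG c) (sq_nonneg _)))

theorem good_smul {F : A → ℝ} {G : C → ℝ} (h : Good T F G) {r : ℝ} (hr : 0 ≤ r) :
    Good T (fun a => r * F a) fun c => r * G c := fun z => by
  simp only [mul_assoc, ← Finset.mul_sum]
  exact mul_le_mul_of_nonneg_left (h z) hr

theorem good_sum {κ : Type} [Fintype κ] {F : κ → A → ℝ} {G : κ → C → ℝ}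
    (h : ∀ i, Good T (F i) (G i)) : Good T (fun a => ∑ i, F i a) fun c => ∑ i, G i c := fun z => by
  simp only [Finset.sum_mul]
  rw [Finset.sum_comm, Finset.sum_comm (s := (Finset.univ : Finset C))]
  exact Finset.sum_le_sum fun i _ => h i z

theorem good_harm {κ : Type} [Fintype κ] [Nonempty κ] {F : κ → A → ℝ} {G : κ → C → ℝ}
    (hF : ∀ i a, 0 < F i a) (hG : ∀ i c, 0 < G i c) (h : ∀ i, Good T (F i) (G i)) :
    Good T (fun a => (∑ i, (F i a)⁻¹)⁻¹) fun c => (∑ i, (G i c)⁻¹)⁻¹ := fun z => by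
  have pG : ∀ c, 0 < ∑ i, (G i c)⁻¹ := fun c =>
    Finset.sum_pos (fun i _ => inv_pos.2 (hG i c)) Finset.univ_nonempty
  set zz : κ → C → ℂ := fun i c => (((∑ i, (G i c)⁻¹)⁻¹ * (G i c)⁻¹ : ℝ) : ℂ) * z c with hz
  have e : z = ∑ i, zz i := by
    funext c
    simp only [hz, Finset.sum_apply]
    rw [← Finset.sum_mul, ← Complex.ofReal_sum, ← Finset.mul_sum, inv_mul_cancel₀ (pG c).ne']
    simp
  calc ∑ a, (∑ i, (F i a)⁻¹)⁻¹ * ‖T z a‖ ^ 2 ≤ ∑ a, ∑ i, F i a * ‖T (zz i) a‖ ^ 2 := by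
        refine Finset.sum_le_sum fun a _ => ?_
        have h1 : ‖T z a‖ ≤ ∑ i, ‖T (zz i) a‖ := by
          conv_lhs => rw [e, map_sum, Finset.sum_apply]
          exact norm_sum_le _ _
        have h2 := Finset.sq_sum_div_le_sum_sq_div Finset.univ (fun i => ‖T (zz i) a‖)
          (g := fun i => (F i a)⁻¹) fun i _ => inv_pos.2 (hF i a)
        have h3 : 0 ≤ (∑ i, (F i a)⁻¹)⁻¹ :=
          inv_nonneg.2 (Finset.sum_nonneg fun i _ => (inv_pos.2 (hF i a)).le)
        calc _ ≤ (∑ i, (F i a)⁻¹)⁻¹ * (∑ i, ‖T (zz i) a‖) ^ 2 :=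
              mul_le_mul_of_nonneg_left (pow_le_pow_left₀ (norm_nonneg _) h1 2) h3
          _ = (∑ i, ‖T (zz i) a‖) ^ 2 / ∑ i, (F i a)⁻¹ := by ring
          _ ≤ _ := h2
          _ = _ := Finset.sum_congr rfl fun i _ => by rw [div_inv_eq_mul, mul_comm]
    _ ≤ ∑ i, ∑ c, G i c * ‖zz i c‖ ^ 2 := by
        rw [Finset.sum_comm]; exact Finset.sum_le_sum fun i _ => h i _
    _ = _ := by
        rw [Finset.sum_comm]
        refine Finset.sum_congr rfl fun c _ => ?_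
        have : ∀ i, G i c * ‖zz i c‖ ^ 2 =
            (G i c)⁻¹ * ((∑ i, (G i c)⁻¹)⁻¹ ^ 2 * ‖z c‖ ^ 2) := fun i => by
          have := (hG i c).ne'
          simp only [hz, norm_mul, Complex.norm_real, Real.norm_eq_abs, mul_pow, sq_abs]
          field_simp
        simp only [this]
        rw [← Finset.sum_mul]
        have := (pG c).ne'
        field_simp

theorem good_K {κ : Type} [Fintype κ] [DecidableEq κ] [Nonempty κ] {x : A → κ → ℝ}
    {y : C → κ → ℝ} (hx : ∀ a i, 0 < x a i) (hy : ∀ c i, 0 < y c i)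
    (h : ∀ i, Good T (fun a => x a i) fun c => y c i) {b : κ → ℝ} (hb : ∀ i, 0 < b i)
    (hs : 3 ≤ ∑ i, b i) : Good T (fun a => K b (x a)) fun c => K b (y c) := by
  obtain ⟨r, hr⟩ : ∃ r : ℝ, ∀ p : A × κ × κ, x p.1 p.2.2 / x p.1 p.2.1 ≤ r :=
    (Set.finite_range fun p : A × κ × κ => x p.1 p.2.2 / x p.1 p.2.1).bddAbove.imp
      fun r hr p => hr ⟨p, rfl⟩
  set ρ := max r 0 with hρ
  have hρ0 : 0 ≤ ρ := le_max_right _ _
  have hc : ∀ a i j, x a j ≤ ρ * x a i := fun a i j =>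
    (div_le_iff₀ (hx a i)).1 ((hr (a, i, j)).trans (le_max_left _ _))
  have key : ∀ (m : ℕ) (b : κ → ℝ), (∀ i, 0 < b i) → 3 ≤ ∑ i, b i →
      Good T (fun a => K b (x a)) fun c => (1 + 2 * ρ / (∑ i, b i + m - 2)) * K b (y c) := by
    intro m
    induction m with
    | zero =>
      intro b hb hs
      have h2 : (0 : ℝ) < ∑ j, b j - 2 := by linarith
      have hl : 0 ≤ 1 + 2 * ρ / (∑ i, b i - 2) := by positivity
      have g1 := good_smul (good_harm (F := fun i a => (b i)⁻¹ * x a i)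
        (G := fun i c => (b i)⁻¹ * y c i) (fun i a => mul_pos (inv_pos.2 (hb i)) (hx a i))
        (fun i c => mul_pos (inv_pos.2 (hb i)) (hy c i))
        fun i => good_smul (h i) (inv_pos.2 (hb i)).le) hl
      have e : ∀ v : κ → ℝ, ∑ i, ((b i)⁻¹ * v i)⁻¹ = ∑ i, b i / v i := fun v =>
        Finset.sum_congr rfl fun i _ => by rw [mul_inv, inv_inv, div_eq_mul_inv]
      have pp : ∀ v : κ → ℝ, (∀ i, 0 < v i) → 0 < ∑ i, b i / v i := fun v hv =>
        Finset.sum_pos (fun i _ => div_pos (hb i) (hv i)) Finset.univ_nonempty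
      refine good_mono g1 (fun a => ?_) fun c => ?_
      · rw [e, ← div_eq_mul_inv, le_div_iff₀ (pp _ (hx a))]
        exact K_upper (fun i => (hb i).le) (hx a) hs (hc a)
      · rw [e, Nat.cast_zero, add_zero]
        refine mul_le_mul_of_nonneg_left ?_ hl
        rw [inv_eq_one_div, div_le_iff₀ (pp _ (hy c))]
        exact K_lower (fun i => (hb i).le) (hy c) hs
    | succ m ih =>
      intro b hb hs
      have h2 : (0 : ℝ) < ∑ j, b j - 2 := by linarith
      have hm : (0 : ℝ) ≤ m := m.cast_nonneg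
      set l := 1 + 2 * ρ / (∑ i, b i + ((m + 1 : ℕ) : ℝ) - 2) with hl
      have hl1 : 1 ≤ l := by
        have : 0 ≤ 2 * ρ / (∑ i, b i + ((m + 1 : ℕ) : ℝ) - 2) :=
          div_nonneg (by linarith) (by push_cast; linarith)
        linarith
      have hb' : ∀ i j, 0 < up b i j := fun i j => (hb j).trans_le (le_up b i j)
      have hs' : ∀ i, 3 ≤ ∑ j, up b i j := fun i => by rw [sum_up]; linarith
      have kp : ∀ i (v : κ → ℝ), (∀ j, 0 < v j) → 0 < K (up b i) v := fun i v hv =>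
        K_pos (fun j => (hb' i j).le) hv (hs' i)
      have g1 : ∀ i, Good T (fun a => ((x a i)⁻¹ + (K (up b i) (x a))⁻¹)⁻¹)
          fun c => l * ((y c i)⁻¹ + (K (up b i) (y c))⁻¹)⁻¹ := by
        intro i
        have g2 := ih (up b i) (hb' i) (hs' i)
        have e : ∑ j, up b i j + m - 2 = ∑ i, b i + ((m + 1 : ℕ) : ℝ) - 2 := by
          rw [sum_up]; push_cast; ring
        rw [e, ← hl] at g2
        have g3 : Good T (fun a => x a i) fun c => l * y c i :=
          good_mono (h i) (fun _ => le_rfl) fun c => le_mul_of_one_le_left (hy c i).le hl1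
        have g4 := good_harm (κ := Bool)
          (F := fun β a => if β then x a i else K (up b i) (x a))
          (G := fun β c => if β then l * y c i else l * K (up b i) (y c))
          (fun β a => by cases β <;> simp [hx a i, kp i _ (hx a)])
          (fun β c => by
            cases β
            · exact mul_pos (by linarith) (kp i _ (hy c))
            · exact mul_pos (by linarith) (hy c i))
          (fun β => by
            cases β
            · exact g2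
            · exact g3)
        refine good_mono g4 (fun a => by simp) fun c => le_of_eq ?_
        simp only [Fintype.sum_bool, if_true, Bool.false_eq_true, if_false]
        rw [mul_inv, mul_inv, ← mul_add, mul_inv, inv_inv]
      refine good_mono (good_sum fun i => good_smul (g1 i) (div_pos (hb i) h2).le)
        (fun a => le_of_eq (K_rec (fun i => (hb i).le) (hx a) hs)) fun c => le_of_eq ?_
      rw [K_rec (fun i => (hb i).le) (hy c) hs, Finset.mul_sum]
      exact Finset.sum_congr rfl fun i _ => by ring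
  intro z
  have h0 : Tendsto (fun m : ℕ => 2 * ρ / (∑ i, b i + m - 2)) atTop (𝓝 0) :=
    Tendsto.div_atTop tendsto_const_nhds (tendsto_atTop_add_const_right atTop (-2)
      (tendsto_atTop_add_const_left atTop _ tendsto_natCast_atTop_atTop))
  have h1 := (h0.const_add 1).mul_const (∑ c, K b (y c) * ‖z c‖ ^ 2)
  rw [add_zero, one_mul] at h1
  refine ge_of_tendsto' h1 fun m => (key m b hb hs z).trans (le_of_eq ?_)
  rw [Finset.mul_sum]
  exact Finset.sum_congr rfl fun c _ => by ring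

theorem good_scale {F : A → ℝ} {G : C → ℝ} {θ : ℝ} (hθ : 0 < θ) :
    Good T F (fun c => θ * G c) ↔ Good ((((Real.sqrt θ)⁻¹ : ℝ) : ℂ) • T) F G := by
  refine forall_congr' fun z => ?_
  have e : ∀ a, F a * ‖((((Real.sqrt θ)⁻¹ : ℝ) : ℂ) • T) z a‖ ^ 2 = θ⁻¹ * (F a * ‖T z a‖ ^ 2) := by
    intro a
    rw [LinearMap.smul_apply, Pi.smul_apply, norm_smul, Complex.norm_real, Real.norm_eq_abs,
      mul_pow, sq_abs, inv_pow, Real.sq_sqrt hθ.le]
    ring
  simp only [e, mul_assoc, ← Finset.mul_sum]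
  rw [inv_mul_le_iff₀ hθ]

end

/-- potential at the first midpoint -/
noncomputable def s0 (f0 f1 g0 g1 k : ℝ) : ℝ :=
  (f0 * (f1 + g1 + k) + k * f1) / ((f0 + g0) * (f1 + g1) + k * (f0 + f1 + g0 + g1))

/-- potential at the second midpoint -/
noncomputable def s1 (f0 f1 g0 g1 k : ℝ) : ℝ :=
  (f1 * (f0 + g0 + k) + k * f0) / ((f0 + g0) * (f1 + g1) + k * (f0 + f1 + g0 + g1))

section
variable {f0 f1 g0 g1 k : ℝ} (h0 : 0 < f0) (h1 : 0 < f1) (h2 : 0 < g0) (h3 : 0 < g1) (h4 : 0 < k)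
include h0 h1 h2 h3 h4

theorem wh_facts : (f0 + g0 + k) * s0 f0 f1 g0 g1 k - k * s1 f0 f1 g0 g1 k = f0 ∧
    (f1 + g1 + k) * s1 f0 f1 g0 g1 k - k * s0 f0 f1 g0 g1 k = f1 ∧
    wh f0 f1 g0 g1 k = g0 * s0 f0 f1 g0 g1 k + g1 * s1 f0 f1 g0 g1 k := by
  have : (f0 + g0) * (f1 + g1) + k * (f0 + f1 + g0 + g1) ≠ 0 := by positivity
  refine ⟨?_, ?_, ?_⟩
  · rw [s0, s1]; field_simp; ring
  · rw [s0, s1]; field_simp; ring
  · rw [s0, s1, wh]; field_simp; ring

theorem wh_le (u v v' : ℝ) : wh f0 f1 g0 g1 k * u ^ 2 ≤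
    f0 * (u - v) ^ 2 + g0 * v ^ 2 + f1 * (u - v') ^ 2 + g1 * v' ^ 2 + k * (v - v') ^ 2 := by
  obtain ⟨a, b, c⟩ := wh_facts h0 h1 h2 h3 h4
  generalize s0 f0 f1 g0 g1 k = x at *
  generalize s1 f0 f1 g0 g1 k = y at *
  have e : f0 * (u - v) ^ 2 + g0 * v ^ 2 + f1 * (u - v') ^ 2 + g1 * v' ^ 2 + k * (v - v') ^ 2 -
      wh f0 f1 g0 g1 k * u ^ 2 = (f0 + g0) * (v - x * u) ^ 2 + (f1 + g1) * (v' - y * u) ^ 2 +
        k * ((v - x * u) - (v' - y * u)) ^ 2 := by
    rw [c]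
    linear_combination (2 * u * v - u ^ 2 * x - u ^ 2) * a + (2 * u * v' - u ^ 2 * y - u ^ 2) * b
  have : 0 ≤ (f0 + g0) * (v - x * u) ^ 2 + (f1 + g1) * (v' - y * u) ^ 2 +
      k * ((v - x * u) - (v' - y * u)) ^ 2 := by positivity
  linarith

theorem wh_le' (u v v' : ℂ) : wh f0 f1 g0 g1 k * ‖u‖ ^ 2 ≤ f0 * ‖u - v‖ ^ 2 + g0 * ‖v‖ ^ 2 +
    f1 * ‖u - v'‖ ^ 2 + g1 * ‖v'‖ ^ 2 + k * ‖v - v'‖ ^ 2 := by
  have a := wh_le h0 h1 h2 h3 h4 u.re v.re v'.re
  have b := wh_le h0 h1 h2 h3 h4 u.im v.im v'.im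
  simp only [Complex.sq_norm, Complex.normSq_apply, Complex.sub_re, Complex.sub_im]
  linarith

theorem wh_val {θ : ℝ} (hθ : 1 ≤ θ) :
    θ * f0 * (1 - s0 f0 f1 g0 g1 k) ^ 2 + g0 * s0 f0 f1 g0 g1 k ^ 2 +
      θ * f1 * (1 - s1 f0 f1 g0 g1 k) ^ 2 + g1 * s1 f0 f1 g0 g1 k ^ 2 +
      θ * k * (s0 f0 f1 g0 g1 k - s1 f0 f1 g0 g1 k) ^ 2 ≤
    θ * wh f0 f1 g0 g1 k - (θ - 1) * (wh f0 f1 g0 g1 k ^ 2 / (g0 + g1)) := by
  obtain ⟨a, b, c⟩ := wh_facts h0 h1 h2 h3 h4
  generalize s0 f0 f1 g0 g1 k = x at *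
  generalize s1 f0 f1 g0 g1 k = y at *
  have e : f0 * (1 - x) ^ 2 + g0 * x ^ 2 + f1 * (1 - y) ^ 2 + g1 * y ^ 2 + k * (x - y) ^ 2 =
      wh f0 f1 g0 g1 k := by
    rw [c]
    linear_combination (x - 1) * a + (y - 1) * b
  have e2 : wh f0 f1 g0 g1 k ^ 2 / (g0 + g1) ≤ g0 * x ^ 2 + g1 * y ^ 2 := by
    rw [div_le_iff₀ (by positivity), c]
    nlinarith [mul_nonneg (mul_pos h2 h3).le (sq_nonneg (x - y))]
  have e3 := mul_le_mul_of_nonneg_left e2 (sub_nonneg.2 hθ)
  rw [← e] at e3 ⊢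
  nlinarith

end

end Itp

open Itp

theorem lm_pos {p q : ℝ} (hp : 0 < p) (hq : 0 < q) : 0 < lm p q :=
  inv_pos.2 (J_pos hp hq)

theorem lm_comm (p q : ℝ) : lm p q = lm q p := by
  simp only [lm, mul_comm]

theorem lm_self {p : ℝ} (hp : 0 < p) : lm p p = p := by
  have := J_self hp
  rw [Itp.J] at this
  rw [lm, this, inv_inv]

theorem Psi_pos {f0 f1 g0 g1 : ℝ} (h0 : 0 < f0) (h1 : 0 < f1) (h2 : 0 < g0) (h3 : 0 < g1) :
    0 < Psi f0 f1 g0 g1 := by
  have := kap_pos (pos4 h0 h1 h2 h3)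
  rw [Psi, wh]
  positivity

theorem Psi_eq {p q N : ℝ} (hp : 0 < p) (hq : 0 < q) (hN : 0 < N) :
    Psi (bt N * N * lm p q) (bt N * (N + 1) * lm p q) p q *
      (1 - (bt N)⁻¹ * (Real.log p - Real.log q)) = (N + 1) * q - N * p := by
  have hm := lm_pos hp hq
  have hb := bt_pos hN
  have hJ : J p q = (lm p q)⁻¹ := (inv_inv _).symm
  have h0 : 0 < bt N * N * lm p q := by positivity
  have h1 : 0 < bt N * (N + 1) * lm p q := by positivity
  have e1 : Real.log p - Real.log q = (p - q) * (lm p q)⁻¹ := by rw [← J_mul hp hq, hJ]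
  have e2 : J (bt N * N * lm p q) (bt N * (N + 1) * lm p q) = J p q := by
    have := J_mul h1 h0
    rw [← Real.log_div h1.ne' h0.ne',
      show bt N * (N + 1) * lm p q / (bt N * N * lm p q) = 1 + 1 / N by field_simp,
      show Real.log (1 + 1 / N) = bt N from rfl] at this
    have c : J (bt N * N * lm p q) (bt N * (N + 1) * lm p q) =
        J (bt N * (N + 1) * lm p q) (bt N * N * lm p q) := by simp only [Itp.J, mul_comm]
    rw [c, hJ]
    field_simp at this ⊢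
    linarith
  have e3 := kap_rel h0 h1 hp hq e2
  have hk := kap_pos (pos4 h0 h1 hp hq)
  rw [Psi, wh, e1]
  generalize kap ![bt N * N * lm p q, bt N * (N + 1) * lm p q, p, q] = k at *
  have e4 : 1 - (bt N)⁻¹ * ((p - q) * (lm p q)⁻¹) = (bt N * lm p q - (p - q)) / (bt N * lm p q) := by
    field_simp
  rw [e4]
  have e5 : bt N * N * lm p q = N * (bt N * lm p q) := by ring
  have e6 : bt N * (N + 1) * lm p q = (N + 1) * (bt N * lm p q) := by ring
  rw [e5, e6] at e3 ⊢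
  have hx : 0 < bt N * lm p q := by positivity
  generalize bt N * lm p q = x at *
  rw [div_mul_div_comm, div_eq_iff (by positivity)]
  linear_combination (x * ((N + 1) * p - N * q)) * e3

theorem interp {A C : Type} [Fintype A] [Fintype C] (T : (C → ℂ) →ₗ[ℂ] (A → ℂ))
    {f0 f1 g0 g1 : A → ℝ} {F0 F1 G0 G1 : C → ℝ} (p0 : ∀ a, 0 < f0 a) (p1 : ∀ a, 0 < f1 a)
    (p2 : ∀ a, 0 < g0 a) (p3 : ∀ a, 0 < g1 a) (q0 : ∀ c, 0 < F0 c) (q1 : ∀ c, 0 < F1 c)
    (q2 : ∀ c, 0 < G0 c) (q3 : ∀ c, 0 < G1 c) {θ : ℝ} (hθ : 1 ≤ θ)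
    (h0 : Good T f0 fun c => θ * F0 c) (h1 : Good T f1 fun c => θ * F1 c)
    (h2 : Good T g0 G0) (h3 : Good T g1 G1) :
    Good T (fun a => Psi (f0 a) (f1 a) (g0 a) (g1 a)) fun c =>
      θ * Psi (F0 c) (F1 c) (G0 c) (G1 c) -
        (θ - 1) * (Psi (F0 c) (F1 c) (G0 c) (G1 c) ^ 2 / (G0 c + G1 c)) := by
  have hθ0 : 0 < θ := by linarith
  have up : ∀ {F : A → ℝ} {G : C → ℝ}, (∀ c, 0 < G c) → Good T F G →
      Good T F fun c => θ * G c := fun hG h =>
    good_mono h (fun _ => le_rfl) fun c => le_mul_of_one_le_left (hG c).le hθ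
  have hk : Good T (fun a => kap ![f0 a, f1 a, g0 a, g1 a])
      fun c => θ * kap ![F0 c, F1 c, G0 c, G1 c] := by
    rw [good_scale hθ0]
    have := good_K (T := (((Real.sqrt θ)⁻¹ : ℝ) : ℂ) • T) (x := fun a => ![f0 a, f1 a, g0 a, g1 a])
      (y := fun c => ![F0 c, F1 c, G0 c, G1 c]) (fun a => pos4 (p0 a) (p1 a) (p2 a) (p3 a))
      (fun c => pos4 (q0 c) (q1 c) (q2 c) (q3 c)) (fun i => by
        fin_cases i
        · exact (good_scale hθ0).1 h0
        · exact (good_scale hθ0).1 h1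
        · exact (good_scale hθ0).1 (up q2 h2)
        · exact (good_scale hθ0).1 (up q3 h3)) (b := fun _ => 1) (fun _ => one_pos) (by norm_num)
    exact good_mono this (fun a => le_of_eq (kap_eq (pos4 (p0 a) (p1 a) (p2 a) (p3 a))))
      fun c => le_of_eq (kap_eq (pos4 (q0 c) (q1 c) (q2 c) (q3 c))).symm
  intro z
  set x : C → ℝ := fun c => s0 (F0 c) (F1 c) (G0 c) (G1 c) (kap ![F0 c, F1 c, G0 c, G1 c]) with hx
  set y : C → ℝ := fun c => s1 (F0 c) (F1 c) (G0 c) (G1 c) (kap ![F0 c, F1 c, G0 c, G1 c]) with hy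
  set v : C → ℂ := fun c => (x c : ℂ) * z c with hv
  set v' : C → ℂ := fun c => (y c : ℂ) * z c with hv'
  have a0 := h0 (z - v)
  have a1 := h1 (z - v')
  have a2 := h2 v
  have a3 := h3 v'
  have a4 := hk (v - v')
  simp only [map_sub, Pi.sub_apply] at a0 a1 a4
  have n1 : ∀ (r : ℝ) (u : ℂ), ‖(r : ℂ) * u‖ ^ 2 = r ^ 2 * ‖u‖ ^ 2 := fun r u => by
    rw [norm_mul, Complex.norm_real, Real.norm_eq_abs, mul_pow, sq_abs]
  calc _ ≤ ∑ a, (f0 a * ‖T z a - T v a‖ ^ 2 + g0 a * ‖T v a‖ ^ 2 + f1 a * ‖T z a - T v' a‖ ^ 2 +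
        g1 a * ‖T v' a‖ ^ 2 + kap ![f0 a, f1 a, g0 a, g1 a] * ‖T v a - T v' a‖ ^ 2) :=
        Finset.sum_le_sum fun a _ => wh_le' (p0 a) (p1 a) (p2 a) (p3 a)
          (kap_pos (pos4 (p0 a) (p1 a) (p2 a) (p3 a))) _ _ _
    _ ≤ ∑ c, (θ * F0 c * ‖z c - v c‖ ^ 2 + G0 c * ‖v c‖ ^ 2 + θ * F1 c * ‖z c - v' c‖ ^ 2 +
        G1 c * ‖v' c‖ ^ 2 + θ * kap ![F0 c, F1 c, G0 c, G1 c] * ‖v c - v' c‖ ^ 2) := by
        simp only [Finset.sum_add_distrib]
        linarith
    _ ≤ _ := by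
        refine Finset.sum_le_sum fun c _ => ?_
        have b0 : z c - v c = ((1 - x c : ℝ) : ℂ) * z c := by simp only [hv]; push_cast; ring
        have b1 : z c - v' c = ((1 - y c : ℝ) : ℂ) * z c := by simp only [hv']; push_cast; ring
        have b2 : v c - v' c = ((x c - y c : ℝ) : ℂ) * z c := by
          simp only [hv, hv']; push_cast; ring
        rw [b0, b1, b2]
        simp only [hv, hv', n1]
        have := mul_le_mul_of_nonneg_right (wh_val (q0 c) (q1 c) (q2 c) (q3 c)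
          (kap_pos (pos4 (q0 c) (q1 c) (q2 c) (q3 c))) hθ) (sq_nonneg ‖z c‖)
        refine le_trans (le_of_eq ?_) this
        simp only [hx, hy]
        ring

end Vale.Agent.P369
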