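import Vale.Agent.P369.Basic

open Matrix
open scoped Matrix.Norms.L2Operator ComplexOrder Kronecker

namespace Vale.Agent.P369

variable {n : ℕ}

theorem ent_eq {ι : Type} [DecidableEq ι] (T : Op ι) (k l : ι) : ent T k l = T (ket l) k := by
  simp [ent, ket, lp.inner_single_left]

namespace Kernel

section
variable {ι : Type} [DecidableEq ι]

theorem ket_apply (k l : ι) : ket k l = if l = k then 1 else 0 := by
  simp [ket, lp.single_apply, Pi.single_apply]

theorem hasSum_ket (f : Fock ι) : HasSum (fun k => f k • ket k) f := by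
  simpa only [ket, ← lp.single_smul, smul_eq_mul, mul_one] using
    lp.hasSum_single ENNReal.ofNat_ne_top f

theorem star_ket (U : Op ι) (z y : ι) : (star U) (ket z) y = star (ent U z y) := by
  rw [← ent_eq, ent, ent, ContinuousLinearMap.star_eq_adjoint,
    ContinuousLinearMap.adjoint_inner_right, ← inner_conj_symm]
  rfl

theorem ent_conj_eq (U σ : Op ι) (z z' : ι) :
    ent (U * σ * star U) z z' = inner ℂ (star U (ket z)) (σ (star U (ket z'))) := by
  rw [ent, ContinuousLinearMap.star_eq_adjoint, ContinuousLinearMap.adjoint_inner_left]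
  rfl

theorem orth {U : Op ι} (h : star U * U = 1) (y y' : ι) :
    HasSum (fun z => star (U (ket y) z) * U (ket y') z) (if y = y' then 1 else 0) := by
  have h1 := lp.hasSum_inner (𝕜 := ℂ) (U (ket y)) (U (ket y'))
  have h2 : inner ℂ (U (ket y)) (U (ket y')) = ent (star U * U) y y' := by
    rw [ent, ContinuousLinearMap.star_eq_adjoint, ← ContinuousLinearMap.adjoint_inner_right]
    rfl
  rw [h2, h, ent_eq, one_apply_eq_self, ket_apply] at h1
  simpa only [RCLike.inner_apply, mul_comm, starRingEnd_apply] using h1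

/-- the adjoint of a lowering relation -/
theorem up {u : ι → ι → ℂ}
    (o1 : ∀ y y', HasSum (fun z => star (u z y) * u z y') (if y = y' then 1 else 0))
    (o2 : ∀ z z', HasSum (fun y => u z y * star (u z' y)) (if z = z' then 1 else 0))
    (hfin : ∀ y, {z | u z y ≠ 0}.Finite) {sh dn p q : ι → ι} {c α β : ι → ℝ}
    (h1 : ∀ w, dn (sh w) = w) (h2 : ∀ z, c z ≠ 0 → sh (dn z) = z)
    (low : ∀ w y, c (sh w) * u (sh w) y = α y * u w (p y) + β y * u w (q y))
    {y P Q : ι} {a b : ℝ}
    (hp : ∀ y', (α y' : ℂ) * (if p y' = y then 1 else 0) = a * if y' = P then 1 else 0)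
    (hq : ∀ y', (β y' : ℂ) * (if q y' = y then 1 else 0) = b * if y' = Q then 1 else 0) (z : ι) :
    c z * u (dn z) y = a * u z P + b * u z Q := by
  set F : ι → ℂ := fun z => c z * u (dn z) y - (a * u z P + b * u z Q) with hF
  have f1 : (Function.support F).Finite := by
    refine ((((hfin y).image sh).union (hfin P)).union (hfin Q)).subset fun z hz => ?_
    by_contra h
    simp only [Set.mem_union, Set.mem_image, Set.mem_ofPred_eq, not_or, not_exists, not_and,
      not_not] at h
    refine hz ?_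
    simp only [hF, h.1.2, h.2, mul_zero, add_zero, sub_zero, mul_eq_zero]
    by_contra h3
    push Not at h3
    exact h.1.1 _ h3.2 (h2 z (by exact_mod_cast h3.1))
  have f2 : ∀ y', ∑ z ∈ f1.toFinset, star (u z y') * F z = 0 := by
    intro y'
    have g1 : HasSum (fun z => star (u z y') * (c z * u (dn z) y))
        (α y' * (if p y' = y then 1 else 0) + β y' * if q y' = y then 1 else 0) := by
      refine ((Function.LeftInverse.injective h1).hasSum_iff fun z hz => ?_).1 ?_
      · rw [show c z = 0 from by_contra fun h => hz ⟨_, h2 z h⟩]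
        simp
      · refine (((o1 (p y') y).mul_left _).add ((o1 (q y') y).mul_left _)).congr' (.of_forall ?_)
        refine fun S => Finset.sum_congr rfl fun w _ => ?_
        have h3 := congrArg star (low w y')
        simp only [star_add, star_mul', Complex.star_def, Complex.conj_ofReal] at h3
        simp only [Function.comp, h1, Complex.star_def]
        linear_combination -(u w y) * h3
    have g2 := g1.sub (((o1 y' P).mul_left (a : ℂ)).add ((o1 y' Q).mul_left (b : ℂ)))
    rw [hp, hq, sub_self] at g2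
    refine (hasSum_sum_of_ne_finset_zero fun z hz => ?_).unique
      (g2.congr' (.of_forall fun S => Finset.sum_congr rfl fun w _ => by simp only [hF]; ring))
    rw [show F z = 0 by simpa using hz, mul_zero]
  have f3 := hasSum_sum (s := f1.toFinset) fun w _ => (o2 z w).mul_right (F w)
  simp only [mul_assoc, ← Finset.mul_sum, f2, mul_zero, ite_mul, one_mul, zero_mul,
    Finset.sum_ite_eq] at f3
  have f4 := f3.unique hasSum_zero
  rw [← sub_eq_zero]
  by_contra h
  rw [if_pos (by simpa using h)] at f4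
  exact h f4

end

theorem add_sub_ee (k : Idx n) (j : Fin n) : k + ee j - ee j = k := add_tsub_cancel_right _ _

theorem sub_add_ee {k : Idx n} {j : Fin n} (h : k j ≠ 0) : k - ee j + ee j = k :=
  tsub_add_cancel_of_le fun i => by
    rcases eq_or_ne i j with rfl | hi
    · simpa [ee] using Nat.one_le_iff_ne_zero.2 h
    · simp [ee, hi]

theorem sqrt_ee (k : Idx n) (j : Fin n) : Real.sqrt ((k + ee j) j) = Real.sqrt (k j + 1) := by
  simp [ee]

theorem sqrt_ne (x : ℕ) : (Real.sqrt (x + 1) : ℂ) ≠ 0 := by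
  have : 0 < Real.sqrt (x + 1) := by positivity
  exact_mod_cast this.ne'

theorem ne_of_sqrt {x : ℕ} (h : Real.sqrt x ≠ 0) : x ≠ 0 := fun h0 => h (by simp [h0])

theorem swA (j : Fin n) (y y' : Idx n × Idx n) (x : ℂ) :
    (Real.sqrt (y'.1 j) : ℂ) * (if (y'.1 - ee j, y'.2) = y then x else 0) =
      Real.sqrt (y.1 j + 1) * if y' = (y.1 + ee j, y.2) then x else 0 := by
  by_cases h : y' = (y.1 + ee j, y.2)
  · subst h
    simp only [add_sub_ee, sqrt_ee, if_true]
  · rw [if_neg h, mul_zero, mul_eq_zero]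
    by_contra h1
    push Not at h1
    have h2 : (y'.1 - ee j, y'.2) = y := by_contra fun h3 => h1.2 (if_neg h3)
    exact h (by rw [← h2, sub_add_ee (ne_of_sqrt (by exact_mod_cast h1.1))])

theorem swB (j : Fin n) (y y' : Idx n × Idx n) (x : ℂ) :
    (Real.sqrt (y'.2 j) : ℂ) * (if (y'.1, y'.2 - ee j) = y then x else 0) =
      Real.sqrt (y.2 j + 1) * if y' = (y.1, y.2 + ee j) then x else 0 := by
  simpa only [Prod.ext_iff, Prod.fst_swap, Prod.snd_swap, and_comm] using swA j y.swap y'.swap x

theorem ind₁ {P : Idx n → Prop} (h0 : P 0) (h : ∀ k j, P k → P (k + ee j)) (k : Idx n) : P k := by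
  generalize hm : tot k = m
  induction m generalizing k with
  | zero => exact (funext fun j => Finset.sum_eq_zero_iff.1 hm j (Finset.mem_univ j) : k = 0) ▸ h0
  | succ m ih =>
    obtain ⟨j, -, hj⟩ := Finset.exists_ne_zero_of_sum_ne_zero (hm.trans_ne m.succ_ne_zero)
    rw [← sub_add_ee hj] at hm ⊢
    refine h _ _ (ih _ ?_)
    simpa [tot, Finset.sum_add_distrib, ee] using hm

theorem ind₂ {P : Idx n × Idx n → Prop} (h0 : P (0, 0))
    (hA : ∀ z j, P z → P (z.1 + ee j, z.2)) (hB : ∀ z j, P z → P (z.1, z.2 + ee j))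
    (z : Idx n × Idx n) : P z :=
  ind₁ (P := fun k => P (k, z.2)) (ind₁ (P := fun l => P (0, l)) h0 (fun l => hB (0, l)) z.2)
    (fun k => hA (k, z.2)) z.1

variable {η : ℝ} {U : Op (Idx n × Idx n)}

theorem vac (h : IsBeamSplitter η U) (y : Idx n × Idx n) :
    ent U (0, 0) y = if y = (0, 0) then 1 else 0 := by
  have h1 : star U (ket (0, 0)) = ket (0, 0) := by
    conv_lhs => rw [← h.vac]
    exact congrArg (fun T : Op _ => T (ket (0, 0))) h.unit.1
  rw [← star_star (ent U _ y), ← star_ket, h1, ket_apply]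
  split_ifs <;> simp

theorem low (j : Fin n) (y : Idx n × Idx n) (a b : ℂ) :
    ∃ φ : Fock (Idx n × Idx n), (∀ z, φ z = a * annA j (ket y) z + b * annB j (ket y) z) ∧
      ∀ z, U φ z = a * (Real.sqrt (y.1 j) : ℂ) * ent U z (y.1 - ee j, y.2) +
        b * (Real.sqrt (y.2 j) : ℂ) * ent U z (y.1, y.2 - ee j) := by
  refine ⟨(a * Real.sqrt (y.1 j)) • ket (y.1 - ee j, y.2) +
    (b * Real.sqrt (y.2 j)) • ket (y.1, y.2 - ee j), fun z => ?_, fun z => by
      simp only [map_add, map_smul, ent_eq]
      rfl⟩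
  have h1 := swA j z y 1
  have h2 := swB j z y 1
  simp only [lp.coeFn_add, lp.coeFn_smul, Pi.add_apply, Pi.smul_apply, smul_eq_mul, ket_apply,
    annA, annB, mul_assoc, eq_comm (a := z), eq_comm (b := y), h1, h2]
  rfl

end Kernel

open Kernel

theorem op_ext {ι : Type} [DecidableEq ι] {S T : Op ι} (h : ∀ k l, ent S k l = ent T k l) :
    S = T := by
  refine ContinuousLinearMap.ext fun f => ((hasSum_ket f).mapL S).unique ?_
  have : ∀ l, S (ket l) = T (ket l) := fun l => lp.ext (funext fun k => by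
    rw [← ent_eq, ← ent_eq, h])
  simpa only [map_smul, this] using (hasSum_ket f).mapL T

theorem bs_of {η : ℝ} {U : Op (Idx n × Idx n)} (h : IsBeamSplitter η U) :
    BS (Real.sqrt η) (Real.sqrt (1 - η)) (ent U) := by
  have lowA : ∀ j z y, (Real.sqrt (z.1 j + 1) : ℂ) * ent U (z.1 + ee j, z.2) y =
      Real.sqrt η * (Real.sqrt (y.1 j) : ℂ) * ent U z (y.1 - ee j, y.2) +
        Real.sqrt (1 - η) * (Real.sqrt (y.2 j) : ℂ) * ent U z (y.1, y.2 - ee j) := fun j z y => by
    obtain ⟨φ, h1, h2⟩ := low (U := U) j y (Real.sqrt η) (Real.sqrt (1 - η))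
    rw [← h2, ent_eq]
    exact congrFun (h.relA j y φ h1) z
  have lowB : ∀ j z y, (Real.sqrt (z.2 j + 1) : ℂ) * ent U (z.1, z.2 + ee j) y =
      -Real.sqrt (1 - η) * (Real.sqrt (y.1 j) : ℂ) * ent U z (y.1 - ee j, y.2) +
        Real.sqrt η * (Real.sqrt (y.2 j) : ℂ) * ent U z (y.1, y.2 - ee j) := fun j z y => by
    obtain ⟨φ, h1, h2⟩ := low (U := U) j y (-Real.sqrt (1 - η)) (Real.sqrt η)
    rw [← h2, ent_eq]
    exact congrFun (h.relB j y φ h1) z
  have step : ∀ (j : Fin n) (z y : Idx n × Idx n) (a b : ℂ),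
      (∀ y, ent U z y ≠ 0 → z.1 + z.2 = y.1 + y.2) →
      a * (Real.sqrt (y.1 j) : ℂ) * ent U z (y.1 - ee j, y.2) +
        b * (Real.sqrt (y.2 j) : ℂ) * ent U z (y.1, y.2 - ee j) ≠ 0 →
      z.1 + z.2 + ee j = y.1 + y.2 := by
    intro j z y a b ih h0
    have h2 : ∀ x y : ℂ, x + y ≠ 0 → x ≠ 0 ∨ y ≠ 0 := fun x y h => by
      by_contra h1
      push Not at h1
      exact h (by rw [h1.1, h1.2, add_zero])
    rcases h2 _ _ h0 with h1 | h1
    · rw [ih _ (right_ne_zero_of_mul h1), add_right_comm, sub_add_ee (ne_of_sqrt (by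
        exact_mod_cast right_ne_zero_of_mul (left_ne_zero_of_mul h1)))]
    · rw [ih _ (right_ne_zero_of_mul h1), add_assoc, sub_add_ee (ne_of_sqrt (by
        exact_mod_cast right_ne_zero_of_mul (left_ne_zero_of_mul h1)))]
  have cons : ∀ z y, ent U z y ≠ 0 → z.1 + z.2 = y.1 + y.2 := by
    refine ind₂ (fun y hy => ?_) (fun z j ih y hy => ?_) fun z j ih y hy => ?_
    · rw [vac h] at hy
      rw [show y = (0, 0) from by_contra fun h0 => hy (if_neg h0)]
    · rw [← step j z y _ _ ih (lowA j z y ▸ mul_ne_zero (sqrt_ne _) hy), add_right_comm]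
    · rw [← step j z y _ _ ih (lowB j z y ▸ mul_ne_zero (sqrt_ne _) hy), add_assoc]
  have o1 : ∀ y y', HasSum (fun z => star (ent U z y) * ent U z y') (if y = y' then 1 else 0) :=
    fun y y' => by simpa only [ent_eq] using orth h.unit.1 y y'
  have o2 : ∀ z z', HasSum (fun y => ent U z y * star (ent U z' y)) (if z = z' then 1 else 0) :=
    fun z z' => by
      simpa only [star_ket, star_star] using orth (U := star U) (by simpa using h.unit.2) z z'
  have hfin : ∀ y, {z | ent U z y ≠ 0}.Finite := fun y =>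
    ((Set.finite_Iic (y.1 + y.2)).prod (Set.finite_Iic (y.1 + y.2))).subset fun z hz =>
      ⟨le_self_add.trans_eq (cons z y hz), le_add_self.trans_eq (cons z y hz)⟩
  have hp : ∀ (j : Fin n) (a : ℝ) (y y' : Idx n × Idx n),
      ((a * Real.sqrt (y'.1 j) : ℝ) : ℂ) * (if (y'.1 - ee j, y'.2) = y then 1 else 0) =
        (a * Real.sqrt (y.1 j + 1) : ℝ) * if y' = (y.1 + ee j, y.2) then 1 else 0 :=
    fun j a y y' => by rw [Complex.ofReal_mul, Complex.ofReal_mul, mul_assoc, swA, mul_assoc]
  have hq : ∀ (j : Fin n) (a : ℝ) (y y' : Idx n × Idx n),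
      ((a * Real.sqrt (y'.2 j) : ℝ) : ℂ) * (if (y'.1, y'.2 - ee j) = y then 1 else 0) =
        (a * Real.sqrt (y.2 j + 1) : ℝ) * if y' = (y.1, y.2 + ee j) then 1 else 0 :=
    fun j a y y' => by rw [Complex.ofReal_mul, Complex.ofReal_mul, mul_assoc, swB, mul_assoc]
  refine ⟨by simp [vac h], cons, o1, o2, lowA, lowB, fun j z y => ?_, fun j z y => ?_⟩
  · simpa only [Complex.ofReal_mul] using up o1 o2 hfin (sh := fun w => (w.1 + ee j, w.2))
      (dn := fun w => (w.1 - ee j, w.2)) (c := fun w => Real.sqrt (w.1 j))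
      (fun w => by rw [add_sub_ee]) (fun w hw => by rw [sub_add_ee (ne_of_sqrt hw)])
      (fun w y => by simpa only [sqrt_ee, Complex.ofReal_mul] using lowA j w y)
      (hp j _ y) (hq j _ y) z
  · simpa only [Complex.ofReal_mul, Complex.ofReal_neg] using up o1 o2 hfin
      (sh := fun w => (w.1, w.2 + ee j)) (dn := fun w => (w.1, w.2 - ee j))
      (c := fun w => Real.sqrt (w.2 j))
      (fun w => by rw [add_sub_ee]) (fun w hw => by rw [sub_add_ee (ne_of_sqrt hw)])
      (fun w y => by
        simpa only [sqrt_ee, Complex.ofReal_mul, Complex.ofReal_neg] using lowB j w y)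
      (hp j (-Real.sqrt (1 - η)) y) (hq j _ y) z

theorem ent_conj {η : ℝ} {U : Op (Idx n × Idx n)} (h : IsBeamSplitter η U)
    (σ : Op (Idx n × Idx n)) (z z' : Idx n × Idx n) (M : ℕ) (hz : ∀ j, z.1 j + z.2 j ≤ M)
    (hz' : ∀ j, z'.1 j + z'.2 j ≤ M) :
    ent (U * σ * star U) z z' = ∑ y : Box n M × Box n M, ∑ y' : Box n M × Box n M,
      ent U z (val y.1, val y.2) * ent σ (val y.1, val y.2) (val y'.1, val y'.2) *
        star (ent U z' (val y'.1, val y'.2)) := by
  have key : ∀ z : Idx n × Idx n, (∀ j, z.1 j + z.2 j ≤ M) → star U (ket z) =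
      ∑ y : Box n M × Box n M, star (ent U z (val y.1, val y.2)) • ket (val y.1, val y.2) := by
    intro z hz
    have h1 := hasSum_ket (star U (ket z))
    simp only [star_ket] at h1
    refine h1.unique (hasSum_box₂ fun y hy j => ?_)
    have h2 := congrFun ((bs_of h).cons z y fun h0 => hy (by simp [h0])) j
    have h3 := hz j
    simp only [Pi.add_apply] at h2
    omega
  rw [ent_conj_eq, key z hz, key z' hz', sum_inner]
  refine Finset.sum_congr rfl fun y _ => ?_
  rw [map_sum, inner_sum]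
  refine Finset.sum_congr rfl fun y' _ => ?_
  rw [map_smul, inner_smul_left, inner_smul_right, starRingEnd_apply, star_star, mul_comm (star _),
    ← mul_assoc]
  rfl

end Vale.Agent.P369
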