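import Vale.Agent.P369.Basic

/-! Auxiliary estimates for the key inequality. -/

open Matrix
open scoped Matrix.Norms.L2Operator ComplexOrder Kronecker MatrixOrder

namespace Vale.Agent.P369.KeyAux

variable {A B C Q D : Type} [Fintype A] [DecidableEq A]
  [Fintype B] [DecidableEq B] [Fintype C] [DecidableEq C] [Fintype Q] [DecidableEq Q]
  [Fintype D] [DecidableEq D]

omit [DecidableEq D] in
theorem cs {σ : Matrix D D ℂ} (hσ : σ.PosSemidef) (X Y : Matrix D D ℂ) :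
    ‖trace (Y * σ * Xᴴ)‖ ^ 2 ≤ tr (X * σ * Xᴴ) * tr (Y * σ * Yᴴ) := by
  let c : PreInnerProductSpace.Core ℂ (Matrix D D ℂ) :=
    { inner := fun x y => (y * σ * xᴴ).trace
      conj_inner_symm := fun _ _ => by
        simp only [Matrix.mul_assoc, starRingEnd_apply, ← trace_conjTranspose, conjTranspose_mul,
          conjTranspose_conjTranspose, hσ.isHermitian.eq]
      re_inner_nonneg := fun x =>
        (RCLike.nonneg_iff.mp (hσ.mul_mul_conjTranspose_same x).trace_nonneg).1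
      add_left := by simp [mul_add]
      smul_left := by simp }
  have h := @InnerProductSpace.Core.inner_mul_inner_self_le ℂ _ _ _ _ c X Y
  have h2 := @InnerProductSpace.Core.norm_inner_symm ℂ _ _ _ _ c Y X
  rw [h2, ← sq] at h
  exact h

theorem tr_le_norm {σ : Matrix D D ℂ} (hσ : σ.PosSemidef) (t1 : trace σ = 1) (H : Matrix D D ℂ) :
    tr (H * σ * Hᴴ) ≤ ‖H‖ ^ 2 := by
  obtain ⟨R, rfl⟩ := CStarAlgebra.nonneg_iff_eq_star_mul_self.1 hσ.nonneg
  have h1 : (algebraMap ℝ (Matrix D D ℂ) (‖H‖ ^ 2) - star H * H).PosSemidef :=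
    CStarAlgebra.star_mul_le_algebraMap_norm_sq (a := H)
  have h2 := P371.kfam_tr_nonneg (h1.mul_mul_conjTranspose_same R)
  have e1 : tr (R * Rᴴ) = 1 := by
    rw [P371.kfam_tr_comm, tr, ← star_eq_conjTranspose, t1, Complex.one_re]
  have e2 : tr (H * (star R * R) * Hᴴ) = tr (R * (star H * H) * Rᴴ) := by
    simp only [star_eq_conjTranspose, Matrix.mul_assoc]
    rw [← Matrix.mul_assoc H, P371.kfam_tr_comm]
    simp only [Matrix.mul_assoc]
  rw [Algebra.algebraMap_eq_smul_one, Matrix.mul_sub, Matrix.sub_mul, P371.kfam_tr_sub,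
    Matrix.mul_smul, Matrix.smul_mul, Matrix.mul_one, P371.kfam_tr_smul, e1] at h2
  linarith

/-- the state `σ` is almost supported by the projector `P` -/
structure Alm (σ P : Matrix D D ℂ) (ϖ : ℝ) : Prop where
  psd : σ.PosSemidef
  one : trace σ = 1
  pH : Pᴴ = P
  pI : P * P = P
  nn : 0 ≤ ϖ
  le : tr (σ * (1 - P)) ≤ ϖ ^ 2

theorem Alm.left {σ P : Matrix D D ℂ} {ϖ : ℝ} (h : Alm σ P ϖ) {E : Matrix D D ℂ}
    (hE : P * E = 0) : ‖trace (E * σ)‖ ≤ ‖E‖ * ϖ := by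
  have h1 := cs h.psd (1 - P) E
  have e0 : (1 - P)ᴴ = 1 - P := by rw [conjTranspose_sub, conjTranspose_one, h.pH]
  have e1 : trace (E * σ * (1 - P)) = trace (E * σ) := by
    rw [trace_mul_comm, ← Matrix.mul_assoc, Matrix.sub_mul, hE, Matrix.one_mul, sub_zero]
  have e2 : tr ((1 - P) * σ * (1 - P)) = tr (σ * (1 - P)) := by
    rw [Matrix.mul_assoc, P371.kfam_tr_comm, Matrix.mul_assoc, Matrix.sub_mul, Matrix.one_mul,
      Matrix.mul_sub P, Matrix.mul_one, h.pI, sub_self, sub_zero]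
  rw [e0, e1, e2] at h1
  have h2 := mul_le_mul h.le (tr_le_norm h.psd h.one E)
    (P371.kfam_tr_nonneg (h.psd.mul_mul_conjTranspose_same E)) (sq_nonneg ϖ)
  rw [← sq_le_sq₀ (norm_nonneg _) (mul_nonneg (norm_nonneg _) h.nn), mul_pow]
  linarith

theorem Alm.right {σ P : Matrix D D ℂ} {ϖ : ℝ} (h : Alm σ P ϖ) {E : Matrix D D ℂ}
    (hE : E * P = 0) : ‖trace (E * σ)‖ ≤ ‖E‖ * ϖ := by
  have h1 : P * Eᴴ = 0 := by rw [← h.pH, ← conjTranspose_mul, hE, conjTranspose_zero]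
  have h2 := h.left h1
  rwa [l2_opNorm_conjTranspose, ← h.psd.isHermitian.eq, ← conjTranspose_mul, trace_conjTranspose,
    norm_star, trace_mul_comm] at h2

theorem Alm.ip_wop {σ P : Matrix D D ℂ} {ϖ : ℝ} (h : Alm σ P ϖ) {E u : Matrix D D ℂ}
    (hE : P * E = 0) (hu : (1 - P) * u * P = 0) {N : ℝ} (hN : 0 ≤ N) :
    ‖ip E (wop N σ u)‖ ≤ (2 * N + 1) * (‖E‖ * ‖u‖ * ϖ) := by
  have h1 : Eᴴ * P = 0 := by rw [← h.pH, ← conjTranspose_mul, hE, conjTranspose_zero]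
  have h2 : Eᴴ * u * P = 0 := by
    have e : Eᴴ * u * P = Eᴴ * ((1 - P) * u * P) + Eᴴ * P * u * P := by noncomm_ring
    rw [e, hu, h1]
    simp
  have h3 : u * Eᴴ * P = 0 := by rw [Matrix.mul_assoc, h1, Matrix.mul_zero]
  have b2 : ‖trace (Eᴴ * u * σ)‖ ≤ ‖E‖ * ‖u‖ * ϖ := by
    refine (h.right h2).trans (mul_le_mul_of_nonneg_right ?_ h.nn)
    rw [← l2_opNorm_conjTranspose E]
    exact norm_mul_le _ _
  have b3 : ‖trace (u * Eᴴ * σ)‖ ≤ ‖E‖ * ‖u‖ * ϖ := by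
    refine (h.right h3).trans (mul_le_mul_of_nonneg_right ?_ h.nn)
    rw [← l2_opNorm_conjTranspose E, mul_comm]
    exact norm_mul_le _ _
  have e : ip E (wop N σ u) = (N + 1) • trace (Eᴴ * u * σ) - N • trace (u * Eᴴ * σ) := by
    rw [ip, wop, Matrix.mul_sub, Matrix.mul_smul, Matrix.mul_smul, trace_sub, trace_smul,
      trace_smul, ← Matrix.mul_assoc, ← Matrix.mul_assoc, trace_mul_cycle Eᴴ σ u]
  rw [e]
  refine (norm_sub_le _ _).trans ?_
  rw [norm_smul, norm_smul, Real.norm_of_nonneg hN, Real.norm_of_nonneg (by linarith)]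
  nlinarith

omit [Fintype A] [Fintype B] [DecidableEq A] [DecidableEq B] in
theorem sub_kron (X Y : Matrix A A ℂ) (Z : Matrix B B ℂ) : (X - Y) ⊗ₖ Z = X ⊗ₖ Z - Y ⊗ₖ Z := by
  ext i j; simp [sub_mul]

omit [Fintype A] [Fintype B] [DecidableEq A] [DecidableEq B] in
theorem kron_sub (X : Matrix A A ℂ) (Y Z : Matrix B B ℂ) : X ⊗ₖ (Y - Z) = X ⊗ₖ Y - X ⊗ₖ Z := by
  ext i j; simp [mul_sub]

theorem norm_kronL (a : Matrix A A ℂ) : ‖a ⊗ₖ (1 : Matrix B B ℂ)‖ ≤ ‖a‖ :=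
  NonUnitalStarAlgHom.norm_apply_le
    ({ toFun := fun x => x ⊗ₖ (1 : Matrix B B ℂ)
       map_smul' := fun r x => smul_kronecker r x 1
       map_zero' := zero_kronecker 1
       map_add' := fun x y => add_kronecker x y 1
       map_mul' := fun x y => by rw [← mul_kronecker_mul, Matrix.one_mul]
       map_star' := fun x => by
         rw [star_eq_conjTranspose, star_eq_conjTranspose, conjTranspose_kronecker,
           conjTranspose_one] } : Matrix A A ℂ →⋆ₙₐ[ℂ] Matrix (A × B) (A × B) ℂ) a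

theorem norm_kronR (b : Matrix B B ℂ) : ‖(1 : Matrix A A ℂ) ⊗ₖ b‖ ≤ ‖b‖ :=
  NonUnitalStarAlgHom.norm_apply_le
    ({ toFun := fun x => (1 : Matrix A A ℂ) ⊗ₖ x
       map_smul' := fun r x => kronecker_smul r 1 x
       map_zero' := kronecker_zero 1
       map_add' := fun x y => kronecker_add 1 x y
       map_mul' := fun x y => by rw [← mul_kronecker_mul, Matrix.one_mul]
       map_star' := fun x => by
         rw [star_eq_conjTranspose, star_eq_conjTranspose, conjTranspose_kronecker,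
           conjTranspose_one] } : Matrix B B ℂ →⋆ₙₐ[ℂ] Matrix (A × B) (A × B) ℂ) b

theorem norm_Gam {V : Matrix (C × Q) D ℂ} (hV : Vᴴ * V = 1) (G : Matrix C C ℂ) :
    ‖Gam V G‖ ≤ ‖G‖ := by
  have h1 : ‖(1 : Matrix D D ℂ)‖ ≤ 1 := by
    have h := l2_opNorm_conjTranspose_mul_self (1 : Matrix D D ℂ)
    rw [conjTranspose_one, Matrix.one_mul] at h
    nlinarith [norm_nonneg (1 : Matrix D D ℂ)]
  have h2 := l2_opNorm_conjTranspose_mul_self V
  rw [hV] at h2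
  have h3 := l2_opNorm_mul (Vᴴ * (G ⊗ₖ (1 : Matrix Q Q ℂ))) V
  have h4 := l2_opNorm_mul Vᴴ (G ⊗ₖ (1 : Matrix Q Q ℂ))
  rw [l2_opNorm_conjTranspose] at h4
  have h5 := norm_kronL (B := Q) G
  have h6 := norm_nonneg V
  calc ‖Gam V G‖ ≤ ‖V‖ * ‖G‖ * ‖V‖ := h3.trans (mul_le_mul_of_nonneg_right
        (h4.trans (mul_le_mul_of_nonneg_left h5 h6)) h6)
    _ = ‖G‖ * (‖V‖ * ‖V‖) := by ring
    _ ≤ ‖G‖ := mul_le_of_le_one_right (norm_nonneg _) (h2 ▸ h1)

theorem norm_cm (X Y : Matrix D D ℂ) : ‖cm X Y‖ ≤ 2 * (‖X‖ * ‖Y‖) := by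
  have h1 := norm_mul_le X Y
  have h2 := norm_mul_le Y X
  have h3 := norm_sub_le (X * Y) (Y * X)
  rw [cm]
  linarith [mul_comm ‖X‖ ‖Y‖]

omit [DecidableEq C] [Fintype D] [DecidableEq D] in
theorem Gam_add (V : Matrix (C × Q) D ℂ) (G H : Matrix C C ℂ) :
    Gam V (G + H) = Gam V G + Gam V H := by
  rw [Gam, Gam, Gam, add_kronecker, Matrix.mul_add, Matrix.add_mul]

omit [DecidableEq C] [Fintype D] [DecidableEq D] in
theorem Gam_sub (V : Matrix (C × Q) D ℂ) (G H : Matrix C C ℂ) :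
    Gam V (G - H) = Gam V G - Gam V H := by
  rw [Gam, Gam, Gam, sub_kron, Matrix.mul_sub, Matrix.sub_mul]

omit [DecidableEq C] [Fintype D] [DecidableEq D] in
theorem Gam_smul (V : Matrix (C × Q) D ℂ) (r : ℂ) (G : Matrix C C ℂ) :
    Gam V (r • G) = r • Gam V G := by
  rw [Gam, Gam, smul_kronecker, Matrix.mul_smul, Matrix.smul_mul]

omit [DecidableEq C] [Fintype D] [DecidableEq D] in
theorem Gam_rsmul (V : Matrix (C × Q) D ℂ) (r : ℝ) (G : Matrix C C ℂ) :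
    Gam V (r • G) = r • Gam V G := by
  rw [Gam, Gam, smul_kronecker, Matrix.mul_smul, Matrix.smul_mul]

/-- the error of a commutation relation -/
noncomputable def er (V : Matrix (C × Q) D ℂ) (c : Matrix C C ℂ) (u : Matrix D D ℂ) (r : ℝ)
    (G : Matrix C C ℂ) : Matrix D D ℂ := cm u (Gam V G) - r • Gam V (cm c G)

theorem norm_er {V : Matrix (C × Q) D ℂ} (hV : Vᴴ * V = 1) {c : Matrix C C ℂ} {u : Matrix D D ℂ}
    {r ν : ℝ} (h0 : 0 ≤ r) (h1 : r ≤ 1) (hu : ‖u‖ ≤ ν) (hc : ‖c‖ ≤ ν) (G : Matrix C C ℂ) :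
    ‖er V c u r G‖ ≤ 4 * (ν * ‖G‖) := by
  have a1 := norm_cm u (Gam V G)
  have a2 := mul_le_mul hu (norm_Gam hV G) (norm_nonneg _) ((norm_nonneg _).trans hu)
  have a3 := (norm_Gam hV (cm c G)).trans (norm_cm c G)
  have a4 := mul_le_mul_of_nonneg_right hc (norm_nonneg G)
  have a5 : ‖r • Gam V (cm c G)‖ ≤ ‖Gam V (cm c G)‖ := by
    rw [norm_smul, Real.norm_of_nonneg h0]
    exact mul_le_of_le_one_left (norm_nonneg _) h1
  have a6 := norm_sub_le (cm u (Gam V G)) (r • Gam V (cm c G))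
  rw [er]
  linarith

section Rel
variable {s t : ℝ} {V : Matrix (C × Q) (A × B) ℂ} {a : Matrix A A ℂ}
  {b : Matrix B B ℂ} {c : Matrix C C ℂ} {d : Matrix Q Q ℂ} {P : Matrix (A × B) (A × B) ℂ}

theorem Gam_mul (hR : Rel s t V a b c d P) (G : Matrix C C ℂ) :
    Gam V (G * c) = Gam V G * (s • (a ⊗ₖ (1 : Matrix B B ℂ)) + t • ((1 : Matrix A A ℂ) ⊗ₖ b)) := by
  rw [Gam, Gam, Matrix.mul_assoc _ V, ← hR.v1, ← Matrix.mul_assoc, Matrix.mul_assoc Vᴴ _ (c ⊗ₖ _),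
    ← mul_kronecker_mul, Matrix.one_mul]

theorem Gam_c (hR : Rel s t V a b c d P) :
    Gam V c = s • (a ⊗ₖ (1 : Matrix B B ℂ)) + t • ((1 : Matrix A A ℂ) ⊗ₖ b) := by
  have h := Gam_mul hR 1
  rwa [Matrix.one_mul, Gam_one hR.iso, Matrix.one_mul] at h

theorem er_zero (hR : Rel s t V a b c d P) (hst : s ^ 2 + t ^ 2 = 1) (G : Matrix C C ℂ) :
    P * er V c (a ⊗ₖ (1 : Matrix B B ℂ)) s G = 0 ∧
      P * er V c ((1 : Matrix A A ℂ) ⊗ₖ b) t G = 0 := by
  have h3 := congrArg conjTranspose hR.v3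
  have h4 := congrArg conjTranspose hR.v4
  simp only [conjTranspose_mul, conjTranspose_add, conjTranspose_smul, conjTranspose_kronecker,
    conjTranspose_one, conjTranspose_conjTranspose, star_trivial, hR.pH] at h3 h4
  have h1 := Gam_mul hR G
  have h2 := hR.v2
  generalize a ⊗ₖ (1 : Matrix B B ℂ) = u at h1 h2 h3 h4 ⊢
  generalize (1 : Matrix A A ℂ) ⊗ₖ b = v at h1 h2 h3 h4 ⊢
  have k1 : P * Gam V (c * G) = P * ((s • u + t • v) * Gam V G) := by
    have e : (c * G) ⊗ₖ (1 : Matrix Q Q ℂ) = c ⊗ₖ (1 : Matrix Q Q ℂ) * G ⊗ₖ (1 : Matrix Q Q ℂ) := by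
      rw [← mul_kronecker_mul, Matrix.one_mul]
    have h5 := congrArg (· * (G ⊗ₖ (1 : Matrix Q Q ℂ) * V)) h3
    simp only [Matrix.mul_assoc] at h5
    rw [Gam, Gam, e]
    simp only [Matrix.mul_assoc]
    exact h5
  have k2 : P * (((-t) • u + s • v) * Gam V G) = P * (Gam V G * ((-t) • u + s • v)) := by
    have e : (1 : Matrix C C ℂ) ⊗ₖ d * G ⊗ₖ (1 : Matrix Q Q ℂ) =
        G ⊗ₖ (1 : Matrix Q Q ℂ) * (1 : Matrix C C ℂ) ⊗ₖ d := by
      rw [← mul_kronecker_mul, ← mul_kronecker_mul, Matrix.one_mul, Matrix.mul_one,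
        Matrix.one_mul, Matrix.mul_one]
    have h5 := congrArg (· * (G ⊗ₖ (1 : Matrix Q Q ℂ) * V)) h4
    simp only [Matrix.mul_assoc] at h5
    rw [Gam]
    simp only [Matrix.mul_assoc]
    rw [← h5, ← h2, ← Matrix.mul_assoc ((1 : Matrix C C ℂ) ⊗ₖ d), e, Matrix.mul_assoc]
  have k3 : P * Gam V (cm c G) = s • (P * cm u (Gam V G)) + t • (P * cm v (Gam V G)) := by
    rw [cm, Gam_sub, Matrix.mul_sub, k1, h1]
    simp only [cm, Matrix.mul_add, Matrix.add_mul, Matrix.mul_sub, Matrix.mul_smul,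
      Matrix.smul_mul, smul_sub]
    abel
  have k4 : (-t) • (P * cm u (Gam V G)) + s • (P * cm v (Gam V G)) = 0 := by
    rw [← sub_eq_zero] at k2
    rw [← k2]
    simp only [cm, Matrix.mul_add, Matrix.add_mul, Matrix.mul_sub, Matrix.mul_smul,
      Matrix.smul_mul, smul_sub]
    abel
  simp only [er, Matrix.mul_sub, Matrix.mul_smul, k3]
  generalize P * cm u (Gam V G) = x at k4 ⊢
  generalize P * cm v (Gam V G) = y at k4 ⊢
  have e1 : x - s • (s • x + t • y) = (-t) • ((-t) • x + s • y) + (1 - (s ^ 2 + t ^ 2)) • x := by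
    module
  have e2 : y - t • (s • x + t • y) = s • ((-t) • x + s • y) + (1 - (s ^ 2 + t ^ 2)) • y := by
    module
  rw [e1, e2, k4, hst]
  simp

end Rel

omit [DecidableEq D] in
theorem trace_mul_wop (G u σ : Matrix D D ℂ) (N : ℝ) :
    trace (G * wop N σ u) = trace (G * u * σ) - N * trace (cm u G * σ) := by
  have e : trace (G * σ * u) = trace (u * G * σ) := trace_mul_cycle G σ u
  simp only [wop, cm, Matrix.mul_sub, Matrix.sub_mul, Matrix.mul_smul, trace_sub, trace_smul, e,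
    Complex.real_smul, ← Matrix.mul_assoc]
  push_cast
  ring

omit [DecidableEq D] in
theorem trace_wop (N : ℝ) (ρ a : Matrix D D ℂ) : trace (wop N ρ a) = trace (a * ρ) := by
  simp only [wop, trace_sub, trace_smul, trace_mul_comm ρ a, Complex.real_smul]
  push_cast
  ring

omit [DecidableEq A] in
theorem wop_kronL (N : ℝ) (ρA a : Matrix A A ℂ) (ρB : Matrix B B ℂ) :
    wop N ρA a ⊗ₖ ρB = wop N (ρA ⊗ₖ ρB) (a ⊗ₖ (1 : Matrix B B ℂ)) := by
  rw [wop, wop, sub_kron, smul_kronecker, smul_kronecker, ← mul_kronecker_mul,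
    ← mul_kronecker_mul, Matrix.one_mul, Matrix.mul_one]

omit [DecidableEq B] in
theorem wop_kronR (N : ℝ) (ρA : Matrix A A ℂ) (ρB b : Matrix B B ℂ) :
    ρA ⊗ₖ wop N ρB b = wop N (ρA ⊗ₖ ρB) ((1 : Matrix A A ℂ) ⊗ₖ b) := by
  rw [wop, wop, kron_sub, kronecker_smul, kronecker_smul, ← mul_kronecker_mul,
    ← mul_kronecker_mul, Matrix.one_mul, Matrix.mul_one]

omit [DecidableEq D] in
theorem wop_add (N δ : ℝ) (σ τ c : Matrix D D ℂ) :
    wop N (σ + δ • τ) c = wop N σ c + δ • wop N τ c := by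
  simp only [wop, Matrix.mul_add, Matrix.add_mul, Matrix.mul_smul, Matrix.smul_mul]
  module

theorem wop_shift (N : ℝ) (ρ a : Matrix D D ℂ) (γ : ℂ) :
    wop N ρ (a - γ • 1) = wop N ρ a - γ • ρ := by
  simp only [wop, Matrix.mul_sub, Matrix.sub_mul, Matrix.mul_smul, Matrix.smul_mul,
    Matrix.mul_one, Matrix.one_mul]
  generalize γ • ρ = y
  module

theorem Zop_shift (N : ℝ) (ρ a : Matrix D D ℂ) (γ : ℂ) :
    Zop N ρ (a - γ • 1) = Zop N ρ a - γ • 1 := by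
  simp only [Zop, cm, Matrix.mul_sub, Matrix.sub_mul, Matrix.mul_smul, Matrix.smul_mul,
    Matrix.mul_one, Matrix.one_mul]
  generalize γ • mlog ρ = y
  generalize γ • (1 : Matrix D D ℂ) = z
  module

theorem mlog_herm (ρ : Matrix D D ℂ) : (mlog ρ)ᴴ = mlog ρ :=
  (cfc_predicate (R := ℝ) _ ρ : IsSelfAdjoint _)

theorem trace_Zop (N : ℝ) {ρ : Matrix D D ℂ} (hρ : ρ.IsHermitian) (a : Matrix D D ℂ) :
    trace (Zop N ρ a * ρ) = trace (a * ρ) := by
  have h : Commute (mlog ρ) ρ := by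
    have h1 := cfc_commute_cfc Real.log (fun x : ℝ => x) ρ
    rwa [cfc_id' ℝ ρ hρ.isSelfAdjoint] at h1
  have e : trace (cm a (mlog ρ) * ρ) = 0 := by
    rw [cm, Matrix.sub_mul, trace_sub, trace_mul_cycle (mlog ρ), trace_mul_cycle ρ,
      Matrix.mul_assoc, Matrix.mul_assoc, h.eq, sub_self]
  rw [Zop, Matrix.add_mul, Matrix.smul_mul, trace_add, trace_smul, e, smul_zero, add_zero]

omit [DecidableEq D] in
theorem trace_ct {ρ : Matrix D D ℂ} (hρ : ρ.IsHermitian) (Z : Matrix D D ℂ) :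
    trace (Zᴴ * ρ) = star (trace (Z * ρ)) := by
  rw [← trace_conjTranspose, conjTranspose_mul, hρ.eq, trace_mul_comm]

theorem ip_shift {ρ : Matrix D D ℂ} (hρ : ρ.IsHermitian) (Z w : Matrix D D ℂ) (γ : ℂ) :
    ip (Z - γ • 1) (w - γ • ρ) =
      ip Z w - γ * star (trace (Z * ρ)) - star γ * trace w + star γ * γ * trace ρ := by
  simp only [ip, conjTranspose_sub, conjTranspose_smul, conjTranspose_one, Matrix.mul_sub,
    Matrix.sub_mul, Matrix.mul_smul, Matrix.smul_mul, Matrix.one_mul, trace_sub, trace_smul,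
    trace_ct hρ, smul_eq_mul]
  ring

omit [DecidableEq D] in
theorem ip_cm {G : Matrix D D ℂ} (hG : Gᴴ = G) (u w : Matrix D D ℂ) :
    ip (cm u G) w = trace ((uᴴ * w - w * uᴴ) * G) := by
  rw [ip, cm, conjTranspose_sub, conjTranspose_mul, conjTranspose_mul, hG, Matrix.sub_mul,
    Matrix.sub_mul, trace_sub, trace_sub, trace_mul_cycle uᴴ w G, trace_mul_cycle uᴴ G w]

omit [DecidableEq D] in
theorem alpha_abs (V : Matrix (C × Q) D ℂ) (N r : ℝ) (ρ c : Matrix C C ℂ) (u w : Matrix D D ℂ) :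
    r * ip (Gam V (Zop N ρ c)) w = r * ip (Gam V c) w +
      ((bt N)⁻¹ : ℝ) * ip (cm u (Gam V (mlog ρ))) w -
        ((bt N)⁻¹ : ℝ) * ip (er V c u r (mlog ρ)) w := by
  simp only [Zop, er, Gam_add, Gam_rsmul, ip, conjTranspose_add, conjTranspose_sub,
    conjTranspose_smul, star_trivial, Matrix.add_mul, Matrix.sub_mul, Matrix.smul_mul, trace_add,
    trace_sub, trace_smul, Complex.real_smul]
  ring

theorem el_abs {ρ F : Matrix D D ℂ} (hF : F.IsHermitian) (a w : Matrix D D ℂ) (N η ε : ℝ) :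
    (((1 + ε) * η * (bt N)⁻¹ : ℝ) : ℂ) * trace ((aᴴ * w - w * aᴴ) * mlog ρ) +
      trace ((aᴴ * w - w * aᴴ) * F) = (((1 + ε) * η : ℝ) : ℂ) * ip (Zop N ρ a) w - η * ip a w +
        ip (cm a F - (η * ε) • a) w := by
  rw [← ip_cm (mlog_herm ρ), ← ip_cm hF.eq]
  simp only [Zop, ip, conjTranspose_add, conjTranspose_sub,
    conjTranspose_smul, star_trivial, Matrix.add_mul, Matrix.sub_mul, Matrix.smul_mul, trace_add,
    trace_sub, trace_smul, Complex.real_smul]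
  push_cast
  ring

theorem norm_Zop {N ν χ : ℝ} (hN : 0 < N) {ρ c : Matrix D D ℂ} (hc : ‖c‖ ≤ ν)
    (hχ : ‖mlog ρ‖ ≤ χ) : ‖Zop N ρ c‖ ≤ ν * (1 + 2 * ((bt N)⁻¹ * χ)) := by
  have hT := (inv_pos.2 (bt_pos hN)).le
  have h1 := (norm_cm c (mlog ρ)).trans (mul_le_mul_of_nonneg_left
    (mul_le_mul hc hχ (norm_nonneg _) ((norm_nonneg _).trans hc)) zero_le_two)
  have h2 := norm_add_le c ((bt N)⁻¹ • cm c (mlog ρ))
  rw [norm_smul, Real.norm_of_nonneg hT] at h2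
  have h3 := mul_le_mul_of_nonneg_left h1 hT
  rw [Zop]
  linarith

section Rel
variable {s t : ℝ} {V : Matrix (C × Q) (A × B) ℂ} {a : Matrix A A ℂ}
  {b : Matrix B B ℂ} {c : Matrix C C ℂ} {d : Matrix Q Q ℂ} {P : Matrix (A × B) (A × B) ℂ}

theorem beta (hR : Rel s t V a b c d P) (Z : Matrix C C ℂ) (σ : Matrix (A × B) (A × B) ℂ)
    (NA NB : ℝ) :
    ip (Gam V Z) (s • wop NA σ (a ⊗ₖ (1 : Matrix B B ℂ)) +
        t • wop NB σ ((1 : Matrix A A ℂ) ⊗ₖ b)) =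
      ip Z (wop (s ^ 2 * NA + t ^ 2 * NB) (out V σ) c) -
        (s * NA : ℝ) * trace (er V c (a ⊗ₖ (1 : Matrix B B ℂ)) s Zᴴ * σ) -
        (t * NB : ℝ) * trace (er V c ((1 : Matrix A A ℂ) ⊗ₖ b) t Zᴴ * σ) := by
  rw [ip, ip, ← Gam_ct, trace_mul_wop, trace_mul_out, trace_mul_out, Gam_mul hR]
  simp only [er, Matrix.mul_add, Matrix.add_mul, Matrix.sub_mul, Matrix.mul_smul, Matrix.smul_mul,
    trace_add, trace_sub, trace_smul, trace_mul_wop, Complex.real_smul]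
  push_cast
  ring

theorem alphaA (hR : Rel s t V a b c d P) {ρB : Matrix B B ℂ} (hB : ρB.IsHermitian)
    (tB : trace ρB = 1) (ρ : Matrix C C ℂ) (w : Matrix A A ℂ) (N : ℝ) :
    s * ip (Gam V (Zop N ρ c)) (w ⊗ₖ ρB) = s ^ 2 * ip a w +
      s * t * (trace w * star (trace (b * ρB))) +
      ((bt N)⁻¹ : ℝ) * trace (out V ((aᴴ * w - w * aᴴ) ⊗ₖ ρB) * mlog ρ) -
        ((bt N)⁻¹ : ℝ) * ip (er V c (a ⊗ₖ (1 : Matrix B B ℂ)) s (mlog ρ)) (w ⊗ₖ ρB) := by
  rw [alpha_abs V N s ρ c (a ⊗ₖ (1 : Matrix B B ℂ)), ip_cm (by rw [← Gam_ct, mlog_herm]),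
    trace_mul_comm (out _ _), trace_mul_out, trace_mul_comm (Gam V (mlog ρ)), Gam_c hR,
    conjTranspose_kronecker, conjTranspose_one, ← mul_kronecker_mul, ← mul_kronecker_mul,
    Matrix.one_mul, Matrix.mul_one, ← sub_kron]
  congr 2
  simp only [ip, conjTranspose_add, conjTranspose_smul, star_trivial, conjTranspose_kronecker,
    conjTranspose_one, Matrix.add_mul, Matrix.smul_mul, ← mul_kronecker_mul, Matrix.one_mul,
    trace_add, trace_smul, trace_kronecker, tB, trace_ct hB, Complex.real_smul]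
  ring

theorem alphaB (hR : Rel s t V a b c d P) {ρA : Matrix A A ℂ} (hA : ρA.IsHermitian)
    (tA : trace ρA = 1) (ρ : Matrix C C ℂ) (w : Matrix B B ℂ) (N : ℝ) :
    t * ip (Gam V (Zop N ρ c)) (ρA ⊗ₖ w) = t ^ 2 * ip b w +
      s * t * (star (trace (a * ρA)) * trace w) +
      ((bt N)⁻¹ : ℝ) * trace (out V (ρA ⊗ₖ (bᴴ * w - w * bᴴ)) * mlog ρ) -
        ((bt N)⁻¹ : ℝ) * ip (er V c ((1 : Matrix A A ℂ) ⊗ₖ b) t (mlog ρ)) (ρA ⊗ₖ w) := by
  rw [alpha_abs V N t ρ c ((1 : Matrix A A ℂ) ⊗ₖ b), ip_cm (by rw [← Gam_ct, mlog_herm]),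
    trace_mul_comm (out _ _), trace_mul_out, trace_mul_comm (Gam V (mlog ρ)), Gam_c hR,
    conjTranspose_kronecker, conjTranspose_one, ← mul_kronecker_mul, ← mul_kronecker_mul,
    Matrix.one_mul, Matrix.mul_one, ← kron_sub]
  congr 2
  simp only [ip, conjTranspose_add, conjTranspose_smul, star_trivial, conjTranspose_kronecker,
    conjTranspose_one, Matrix.add_mul, Matrix.smul_mul, ← mul_kronecker_mul, Matrix.one_mul,
    trace_add, trace_smul, trace_kronecker, tA, trace_ct hA, Complex.real_smul]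
  ring

end Rel

theorem re_star_mul (z : ℂ) : (star z * z).re = ‖z‖ ^ 2 := by
  rw [Complex.star_def, Complex.conj_mul', ← Complex.ofReal_pow, Complex.ofReal_re]

theorem re_mul_star (z : ℂ) : (z * star z).re = ‖z‖ ^ 2 := by rw [mul_comm, re_star_mul]

theorem norm_comb (s t : ℝ) (α β : ℂ) :
    ‖s * α + t * β‖ ^ 2 = s ^ 2 * ‖α‖ ^ 2 + t ^ 2 * ‖β‖ ^ 2 + 2 * (s * t * (star α * β).re) ∧
      2 * (s * t * (star α * β).re) ≤ s ^ 2 * ‖α‖ ^ 2 + t ^ 2 * ‖β‖ ^ 2 := by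
  simp only [Complex.sq_norm, Complex.normSq_apply, Complex.add_re, Complex.add_im,
    Complex.mul_re, Complex.mul_im, Complex.ofReal_re, Complex.ofReal_im, Complex.star_def,
    Complex.conj_re, Complex.conj_im]
  constructor
  · ring
  · nlinarith [sq_nonneg (s * α.re - t * β.re), sq_nonneg (s * α.im - t * β.im)]

theorem cross_le (γ κ : ℂ) {T χ : ℝ} (hT : 0 ≤ T) (h : ‖κ‖ ≤ χ) :
    -(2 * (T * (γ * star κ).re)) ≤ ‖γ‖ ^ 2 + (T * χ) ^ 2 := by
  have h1 := (neg_abs_le _).trans' (neg_le_neg (Complex.abs_re_le_norm (γ * star κ)))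
  rw [norm_mul, norm_star] at h1
  have h2 := mul_le_mul_of_nonneg_left h (norm_nonneg γ)
  have h3 := mul_le_mul_of_nonneg_left (neg_le_neg h2 |>.trans h1) hT
  nlinarith [sq_nonneg (‖γ‖ - T * χ)]

theorem re_ge {r e : ℝ} {z : ℂ} (hr : 0 ≤ r) (h : ‖z‖ ≤ e) : ((r : ℂ) * z).re ≤ r * e := by
  rw [Complex.re_ofReal_mul]
  exact mul_le_mul_of_nonneg_left ((Complex.re_le_norm z).trans h) hr

end Vale.Agent.P369.KeyAux
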