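import Vale.Agent.P369.Stam
import Vale.Agent.P369.KeyAux

open Matrix
open scoped Matrix.Norms.L2Operator ComplexOrder Kronecker

namespace Vale.Agent.P369

variable {ι A B C Q : Type} [Fintype ι] [DecidableEq ι] [Fintype A] [DecidableEq A]
  [Fintype B] [DecidableEq B] [Fintype C] [DecidableEq C] [Fintype Q] [DecidableEq Q]

theorem key {η : ℝ} (h0 : 0 ≤ η) (h1 : η ≤ 1) {V : Matrix (C × Q) (A × B) ℂ} {a : Matrix A A ℂ}
    {b : Matrix B B ℂ} {c : Matrix C C ℂ} {d : Matrix Q Q ℂ} {P : Matrix (A × B) (A × B) ℂ}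
    (hR : Rel (Real.sqrt η) (Real.sqrt (1 - η)) V a b c d P) {ρA FA : Matrix A A ℂ}
    {ρB FB : Matrix B B ℂ} {ρ τ : Matrix C C ℂ} (hA : ρA.PosDef) (tA : trace ρA = 1)
    (hB : ρB.PosDef) (tB : trace ρB = 1) (hτ : τ.PosDef) (tτ : tr τ ≤ 1)
    {NA NB NC ε δ ω ν χ χ' ϖ : ℝ} (hNA : 0 < NA) (hNB : 0 < NB)
    (hNC : NC = η * NA + (1 - η) * NB) (hδ : 0 < δ) (hε : 8 * δ ≤ ε)
    (hρ : ρ = out V (ρA ⊗ₖ ρB) + δ • τ) (hw : wop NC τ c = 0)
    (hFA : FA.IsHermitian) (hFB : FB.IsHermitian)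
    (EA : ∀ D : Matrix A A ℂ, trace D = 0 →
      ((bt NC)⁻¹ : ℝ) * trace (out V (D ⊗ₖ ρB) * mlog ρ) =
        ((1 + ε) * η * (bt NA)⁻¹ : ℝ) * trace (D * mlog ρA) + trace (D * FA))
    (EB : ∀ D : Matrix B B ℂ, trace D = 0 →
      ((bt NC)⁻¹ : ℝ) * trace (out V (ρA ⊗ₖ D) * mlog ρ) =
        ((1 + ε) * (1 - η) * (bt NB)⁻¹ : ℝ) * trace (D * mlog ρB) + trace (D * FB))
    (HA : ∀ D : Matrix A A ℂ, D.IsHermitian → trace D = 0 →
      (bt NC)⁻¹ * tr (out V (D ⊗ₖ ρB) * dlog ρ (out V (D ⊗ₖ ρB))) ≤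
        (1 + ε) * η * (bt NA)⁻¹ * tr (D * dlog ρA D))
    (HB : ∀ D : Matrix B B ℂ, D.IsHermitian → trace D = 0 →
      (bt NC)⁻¹ * tr (out V (ρA ⊗ₖ D) * dlog ρ (out V (ρA ⊗ₖ D))) ≤
        (1 + ε) * (1 - η) * (bt NB)⁻¹ * tr (D * dlog ρB D))
    (pA : -ω ≤ (ip (cm a FA - (η * ε) • a) (wop NA ρA a)).re)
    (pB : -ω ≤ (ip (cm b FB - ((1 - η) * ε) • b) (wop NB ρB b)).re)
    (na : ‖a‖ ≤ ν) (nb : ‖b‖ ≤ ν) (nc : ‖c‖ ≤ ν) (nχ : ‖mlog ρ‖ ≤ χ)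
    (nχ' : ‖trace (τ * cm c (mlog ρ))‖ ≤ χ') (hϖ : 0 ≤ ϖ)
    (nϖ : tr ((ρA ⊗ₖ ρB) * (1 - P)) ≤ ϖ ^ 2) (H : Matrix C C ℂ) :
    ε / (1 + ε) * (2 * (ip H (wop NC ρ (c - trace (c * ρ) • 1))).re -
        tr (ρ * (Hᴴ * H + H * Hᴴ))) +
      ε / 2 * (η * ‖trace (a * ρA)‖ ^ 2 + (1 - η) * ‖trace (b * ρB)‖ ^ 2) ≤
    δ * (χ' / bt NC) ^ 2 + 2 * ω + 8 * (NA + NB + 1) * (1 + 4 * χ / bt NC) * ν ^ 2 * ϖ := by
  have hs2 : Real.sqrt η ^ 2 = η := Real.sq_sqrt h0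
  have ht2 : Real.sqrt (1 - η) ^ 2 = 1 - η := Real.sq_sqrt (by linarith)
  have hs0 := Real.sqrt_nonneg η
  have ht0 := Real.sqrt_nonneg (1 - η)
  generalize Real.sqrt η = s at hR hs2 hs0
  generalize Real.sqrt (1 - η) = t at hR ht2 ht0
  have hs1 : s ≤ 1 := by nlinarith
  have ht1 : t ≤ 1 := by nlinarith
  have hNC0 : 0 < NC := by
    rw [hNC]
    rcases le_total NA NB with h | h <;> nlinarith
  have hT : 0 ≤ (bt NC)⁻¹ := (inv_pos.2 (bt_pos hNC0)).le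
  have hν : 0 ≤ ν := (norm_nonneg _).trans na
  have hχ : 0 ≤ χ := (norm_nonneg _).trans nχ
  have hσ : (ρA ⊗ₖ ρB).PosSemidef := hA.posSemidef.kronecker hB.posSemidef
  have tσ : trace (ρA ⊗ₖ ρB) = 1 := by rw [trace_kronecker, tA, tB, one_mul]
  have hal : KeyAux.Alm (ρA ⊗ₖ ρB) P ϖ := ⟨hσ, tσ, hR.pH, hR.pI, hϖ, nϖ⟩
  have hδτ : (δ • τ).PosDef := hτ.smul hδ
  have hρd : ρ.PosDef := hρ ▸ PosDef.posSemidef_add (out_psd V hσ) hδτ
  have hle : (ρ - out V (ρA ⊗ₖ ρB)).PosSemidef := by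
    rw [hρ, add_sub_cancel_left]; exact hδτ.posSemidef
  have hcτ : trace (c * τ) = 0 := by rw [← KeyAux.trace_wop NC, hw, trace_zero]
  have hcσ : trace (c * out V (ρA ⊗ₖ ρB)) = s * trace (a * ρA) + t * trace (b * ρB) := by
    rw [trace_mul_out, KeyAux.Gam_c hR]
    simp only [Matrix.add_mul, Matrix.smul_mul, ← mul_kronecker_mul, trace_add,
      trace_smul, trace_kronecker, tA, tB, Complex.real_smul, one_mul, mul_one]
  have hγ : trace (c * ρ) = s * trace (a * ρA) + t * trace (b * ρB) := by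
    rw [hρ, Matrix.mul_add, Matrix.mul_smul, trace_add, trace_smul, hcτ, smul_zero, add_zero, hcσ]
  have hwρ : wop NC ρ c = wop (s ^ 2 * NA + t ^ 2 * NB) (out V (ρA ⊗ₖ ρB)) c := by
    rw [hs2, ht2, ← hNC, hρ, KeyAux.wop_add, hw, smul_zero, add_zero]
  have tρ : trace ρ = 1 + (δ * tr τ : ℝ) := by
    have h2 : trace τ = (tr τ : ℝ) := by
      refine Complex.ext (Complex.ofReal_re _).symm ?_
      rw [Complex.ofReal_im]
      exact (Complex.nonneg_iff.1 hτ.posSemidef.trace_nonneg).2.symm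
    rw [hρ, trace_add, trace_out hR.iso, tσ, trace_smul, h2, Complex.real_smul, Complex.ofReal_mul]
  have hm : trace (Gam V (Zop NC ρ c) * (ρA ⊗ₖ ρB)) =
      trace (c * ρ) - (δ * (bt NC)⁻¹ : ℝ) * trace (τ * cm c (mlog ρ)) := by
    have h2 : out V (ρA ⊗ₖ ρB) = ρ - δ • τ := by rw [hρ, add_sub_cancel_right]
    rw [← trace_mul_out, h2, Matrix.mul_sub, trace_sub, KeyAux.trace_Zop NC hρd.1, Zop,
      Matrix.mul_smul, Matrix.add_mul, Matrix.smul_mul, trace_smul, trace_add, trace_smul, hcτ,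
      trace_mul_comm τ]
    simp only [Complex.real_smul]
    push_cast
    ring
  have ua := (KeyAux.norm_kronL (B := B) a).trans na
  have ub := (KeyAux.norm_kronR (A := A) b).trans nb
  have hst : s ^ 2 + t ^ 2 = 1 := by linarith
  have nZ := KeyAux.norm_Zop hNC0 nc nχ
  have F1 := KeyAux.beta hR (Zop NC ρ c) (ρA ⊗ₖ ρB) NA NB
  rw [← hwρ, ← KeyAux.wop_kronL, ← KeyAux.wop_kronR] at F1
  have nE : ∀ {u : Matrix (A × B) (A × B) ℂ} {r : ℝ}, 0 ≤ r → r ≤ 1 → ‖u‖ ≤ ν →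
      ‖KeyAux.er V c u r (Zop NC ρ c)ᴴ‖ * ϖ ≤ 4 * (ν * (ν * (1 + 2 * ((bt NC)⁻¹ * χ)))) * ϖ := by
    intro u r r0 r1 hu
    refine mul_le_mul_of_nonneg_right ((KeyAux.norm_er hR.iso r0 r1 hu nc _).trans ?_) hϖ
    rw [l2_opNorm_conjTranspose]
    gcongr
  have b1 := KeyAux.re_ge (mul_nonneg hs0 hNA.le)
    ((hal.left (KeyAux.er_zero hR hst (Zop NC ρ c)ᴴ).1).trans (nE hs0 hs1 ua))
  have b2 := KeyAux.re_ge (mul_nonneg ht0 hNB.le)
    ((hal.left (KeyAux.er_zero hR hst (Zop NC ρ c)ᴴ).2).trans (nE ht0 ht1 ub))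
  have nX : ∀ {u : Matrix (A × B) (A × B) ℂ} {r N : ℝ}, 0 ≤ r → r ≤ 1 → ‖u‖ ≤ ν → 0 < N →
      (2 * N + 1) * (‖KeyAux.er V c u r (mlog ρ)‖ * ‖u‖ * ϖ) ≤
        (2 * N + 1) * (4 * (ν * χ) * ν * ϖ) := by
    intro u r N r0 r1 hu hN
    have h2 : ‖KeyAux.er V c u r (mlog ρ)‖ ≤ 4 * (ν * χ) :=
      (KeyAux.norm_er hR.iso r0 r1 hu nc _).trans (by gcongr)
    gcongr
  have b3 := KeyAux.re_ge hT
    ((hal.ip_wop (KeyAux.er_zero hR hst (mlog ρ)).1 hR.pa hNA.le).trans (nX hs0 hs1 ua hNA))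
  have b4 := KeyAux.re_ge hT
    ((hal.ip_wop (KeyAux.er_zero hR hst (mlog ρ)).2 hR.pb hNB.le).trans (nX ht0 ht1 ub hNB))
  rw [← KeyAux.wop_kronL] at b3
  rw [← KeyAux.wop_kronR] at b4
  have FA1 := KeyAux.alphaA hR hB.1 tB ρ (wop NA ρA a) NC
  rw [EA _ (by rw [trace_sub, trace_mul_comm, sub_self]), KeyAux.el_abs hFA,
    KeyAux.trace_wop] at FA1
  have FB1 := KeyAux.alphaB hR hA.1 tA ρ (wop NB ρB b) NC
  rw [EB _ (by rw [trace_sub, trace_mul_comm, sub_self]), KeyAux.el_abs hFB,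
    KeyAux.trace_wop] at FB1
  have hsc : (s : ℂ) ^ 2 = η := by exact_mod_cast congrArg Complex.ofReal hs2
  have htc : (t : ℂ) ^ 2 = ((1 - η : ℝ) : ℂ) := by exact_mod_cast congrArg Complex.ofReal ht2
  rw [hsc] at FA1
  rw [htc] at FB1
  have F2 : ip (Gam V (Zop NC ρ c)) (s • (wop NA ρA a ⊗ₖ ρB) + t • (ρA ⊗ₖ wop NB ρB b)) =
      s * ip (Gam V (Zop NC ρ c)) (wop NA ρA a ⊗ₖ ρB) +
        t * ip (Gam V (Zop NC ρ c)) (ρA ⊗ₖ wop NB ρB b) := by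
    simp only [ip, Matrix.mul_add, Matrix.mul_smul, trace_add, trace_smul, Complex.real_smul]
  rw [FA1, FB1] at F2
  have hW : s • ((wop NA ρA a - trace (a * ρA) • ρA) ⊗ₖ ρB) +
      t • (ρA ⊗ₖ (wop NB ρB b - trace (b * ρB) • ρB)) =
      s • (wop NA ρA a ⊗ₖ ρB) + t • (ρA ⊗ₖ wop NB ρB b) - trace (c * ρ) • (ρA ⊗ₖ ρB) := by
    rw [KeyAux.sub_kron, KeyAux.kron_sub, smul_kronecker, kronecker_smul, hγ, add_smul, mul_smul,
      mul_smul, Complex.coe_smul, Complex.coe_smul, smul_sub, smul_sub]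
    abel
  have tW : trace (s • (wop NA ρA a ⊗ₖ ρB) + t • (ρA ⊗ₖ wop NB ρB b)) = trace (c * ρ) := by
    simp only [hγ, trace_add, trace_smul, trace_kronecker, KeyAux.trace_wop, tA, tB,
      Complex.real_smul, one_mul, mul_one]
  have F3 := stam V hR.iso hA tA hB tB hρd hle hNA hNB h0 h1 hNC (θ := 1 + ε) (by linarith) HA HB
    (a - trace (a * ρA) • 1) (b - trace (b * ρB) • 1) (c - trace (c * ρ) • 1) H s t
    (by rw [Matrix.sub_mul, Matrix.smul_mul, Matrix.one_mul, trace_sub, trace_smul, tA,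
      smul_eq_mul, mul_one, sub_self])
    (by rw [Matrix.sub_mul, Matrix.smul_mul, Matrix.one_mul, trace_sub, trace_smul, tB,
      smul_eq_mul, mul_one, sub_self])
  rw [add_sub_cancel_left, hs2, ht2] at F3
  generalize 2 * (ip H (wop NC ρ (c - trace (c * ρ) • 1))).re - tr (ρ * (Hᴴ * H + H * Hᴴ)) = K
    at F3 ⊢
  rw [KeyAux.Zop_shift, KeyAux.Zop_shift, KeyAux.Zop_shift, KeyAux.wop_shift, KeyAux.wop_shift,
    KeyAux.wop_shift, hW, KeyAux.Gam_sub, KeyAux.Gam_smul, Gam_one hR.iso,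
    KeyAux.ip_shift hσ.1, KeyAux.ip_shift hρd.1, KeyAux.ip_shift hA.1, KeyAux.ip_shift hB.1,
    KeyAux.trace_Zop NC hρd.1, KeyAux.trace_Zop NA hA.1, KeyAux.trace_Zop NB hB.1, tW,
    KeyAux.trace_wop, KeyAux.trace_wop, KeyAux.trace_wop, hm, tσ, tA, tB, tρ] at F3
  obtain ⟨g1, g2⟩ := KeyAux.norm_comb s t (trace (a * ρA)) (trace (b * ρB))
  rw [← hγ, hs2, ht2] at g1
  rw [hs2, ht2] at g2
  have g3 := KeyAux.cross_le (trace (c * ρ)) _ hT nχ'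
  have r1 := congrArg Complex.re F1
  have r2 := congrArg Complex.re F2
  have e1 : ((s : ℂ) * t * (trace (a * ρA) * star (trace (b * ρB)))).re =
      s * t * (star (trace (a * ρA)) * trace (b * ρB)).re := by
    simp only [Complex.mul_re, Complex.mul_im, Complex.ofReal_re, Complex.ofReal_im,
      Complex.star_def, Complex.conj_re, Complex.conj_im]
    ring
  have e2 : ((s : ℂ) * t * (star (trace (a * ρA)) * trace (b * ρB))).re =
      s * t * (star (trace (a * ρA)) * trace (b * ρB)).re := by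
    rw [← Complex.ofReal_mul, Complex.re_ofReal_mul]
  have e3 : (trace (c * ρ) * star (trace (c * ρ) -
      ((δ * (bt NC)⁻¹ : ℝ) : ℂ) * trace (τ * cm c (mlog ρ)))).re = ‖trace (c * ρ)‖ ^ 2 -
      δ * ((bt NC)⁻¹ * (trace (c * ρ) * star (trace (τ * cm c (mlog ρ)))).re) := by
    rw [star_sub, mul_sub, Complex.sub_re, KeyAux.re_mul_star, star_mul', Complex.star_def,
      Complex.conj_ofReal, mul_left_comm, Complex.re_ofReal_mul, mul_assoc]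
  have e4 : (star (trace (c * ρ)) * trace (c * ρ) * (1 + ((δ * tr τ : ℝ) : ℂ))).re =
      ‖trace (c * ρ)‖ ^ 2 + δ * (tr τ * ‖trace (c * ρ)‖ ^ 2) := by
    rw [mul_add, mul_one, Complex.add_re, mul_comm _ ((δ * tr τ : ℝ) : ℂ), Complex.re_ofReal_mul,
      KeyAux.re_star_mul, mul_assoc]
  simp only [Complex.add_re, Complex.sub_re, mul_one, e3, e4, KeyAux.re_star_mul,
    KeyAux.re_mul_star] at F3
  simp only [Complex.add_re, Complex.sub_re, e1, e2] at r1 r2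
  rw [Complex.re_ofReal_mul ((1 + ε) * η), Complex.re_ofReal_mul ((1 + ε) * (1 - η))] at r2
  have g4 : tr τ * ‖trace (c * ρ)‖ ^ 2 ≤ ‖trace (c * ρ)‖ ^ 2 :=
    mul_le_of_le_one_left (sq_nonneg _) tτ
  have g5 := mul_le_mul_of_nonneg_left g4 hδ.le
  have g6 := mul_le_mul_of_nonneg_left g3 hδ.le
  have hμ : 0 ≤ η * ‖trace (a * ρA)‖ ^ 2 + (1 - η) * ‖trace (b * ρB)‖ ^ 2 :=
    add_nonneg (mul_nonneg h0 (sq_nonneg _)) (mul_nonneg (by linarith) (sq_nonneg _))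
  have g7 := mul_le_mul_of_nonneg_right hε hμ
  have g8 : δ * ‖trace (c * ρ)‖ ^ 2 ≤
      δ * (2 * (η * ‖trace (a * ρA)‖ ^ 2 + (1 - η) * ‖trace (b * ρB)‖ ^ 2)) :=
    mul_le_mul_of_nonneg_left (by linarith) hδ.le
  have hx : 0 ≤ ν ^ 2 * ϖ := by positivity
  have hy : 0 ≤ (bt NC)⁻¹ * χ * (ν ^ 2 * ϖ) := by positivity
  have hz : 0 ≤ 4 * (ν * (ν * (1 + 2 * ((bt NC)⁻¹ * χ)))) * ϖ := by positivity
  have g9 := mul_le_mul_of_nonneg_right (mul_le_of_le_one_left hNA.le hs1) hz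
  have g10 := mul_le_mul_of_nonneg_right (mul_le_of_le_one_left hNB.le ht1) hz
  have g11 := mul_nonneg hNA.le hx
  have g12 := mul_nonneg hNB.le hx
  have g13 := mul_nonneg hNA.le hy
  have g14 := mul_nonneg hNB.le hy
  rw [div_eq_mul_inv χ', div_eq_mul_inv (4 * χ)]
  linarith

/-- mean value and energy of the output mode -/
theorem out_mean {s t : ℝ} {V : Matrix (C × Q) (A × B) ℂ} {a : Matrix A A ℂ}
    {b : Matrix B B ℂ} {c : Matrix C C ℂ} {d : Matrix Q Q ℂ} {P : Matrix (A × B) (A × B) ℂ}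
    (hR : Rel s t V a b c d P) {ρA : Matrix A A ℂ} {ρB : Matrix B B ℂ} (hA : ρA ∈ Dens A)
    (hB : ρB ∈ Dens B) :
    trace (c * out V (ρA ⊗ₖ ρB)) = s * trace (a * ρA) + t * trace (b * ρB) ∧
      tr (cᴴ * c * out V (ρA ⊗ₖ ρB)) = s ^ 2 * tr (aᴴ * a * ρA) + t ^ 2 * tr (bᴴ * b * ρB) +
        2 * s * t * (star (trace (a * ρA)) * trace (b * ρB)).re := by
  constructor
  · rw [trace_mul_out, KeyAux.Gam_c hR]
    simp only [Matrix.add_mul, Matrix.smul_mul, ← mul_kronecker_mul, trace_add,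
      trace_smul, trace_kronecker, hA.2, hB.2, Complex.real_smul, one_mul, mul_one]
  · rw [tr, trace_mul_out, KeyAux.Gam_mul hR, Gam_ct, KeyAux.Gam_c hR]
    simp only [conjTranspose_add, conjTranspose_smul, star_trivial, conjTranspose_kronecker,
      conjTranspose_one, Matrix.add_mul, Matrix.mul_add, Matrix.smul_mul, Matrix.mul_smul,
      ← mul_kronecker_mul, trace_add, trace_smul, trace_kronecker,
      hA.2, hB.2, KeyAux.trace_ct hA.1.1, KeyAux.trace_ct hB.1.1, Complex.real_smul, one_mul,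
      mul_one, tr, Complex.add_re, Complex.mul_re, Complex.mul_im, Complex.ofReal_re,
      Complex.ofReal_im, Complex.star_def, Complex.conj_re, Complex.conj_im]
    ring

end Vale.Agent.P369
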