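import Vale.Agent.P369.Cont
import Vale.Agent.P369.FinThm

open Matrix
open scoped Matrix.Norms.L2Operator ComplexOrder Kronecker

namespace Vale.Agent.P369

namespace Limit

open Filter Topology

variable {n : ℕ}

/-- pairs with a given sum -/
noncomputable def AD (x : Idx n) : Finset (Idx n × Idx n) :=
  (Finset.Iic x ×ˢ Finset.Iic x).filter fun y => y.1 + y.2 = x

theorem mem_AD {x : Idx n} {y : Idx n × Idx n} : y ∈ AD x ↔ y.1 + y.2 = x := by
  simp only [AD, Finset.mem_filter, Finset.mem_product, Finset.mem_Iic, and_iff_right_iff_imp]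
  rintro rfl
  exact ⟨le_self_add, le_add_self⟩

theorem box_sum {M : ℕ} {x : Idx n} {F : Idx n × Idx n → ℂ} (h1 : ∀ y, F y ≠ 0 → y.1 + y.2 = x)
    (h2 : ∀ y, F y ≠ 0 → ∀ j, y.1 j ≤ M ∧ y.2 j ≤ M) :
    ∑ k : Box n M × Box n M, F (val k.1, val k.2) = ∑ y ∈ AD x, F y :=
  (hasSum_box₂ h2).unique (hasSum_sum_of_ne_finset_zero fun y hy => by
    by_contra hc
    exact hy (mem_AD.2 (h1 y hc)))

/-- matrix elements of the conjugated product -/
noncomputable def GG (u : Idx n × Idx n → Idx n × Idx n → ℂ) (KA KB : Idx n → Idx n → ℂ)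
    (p p' q : Idx n) : ℂ :=
  ∑ y ∈ AD (p + q), ∑ y' ∈ AD (p' + q),
    u (p, q) y * (KA y.1 y'.1 * KB y.2 y'.2) * star (u (p', q) y')

/-- support in a box -/
def Supp (c : ℕ) (K : Idx n → Idx n → ℂ) : Prop :=
  ∀ k l, K k l ≠ 0 → (∀ j, k j ≤ c) ∧ ∀ j, l j ≤ c

theorem Supp.mono {c M : ℕ} {K : Idx n → Idx n → ℂ} (h : Supp c K) (hM : c ≤ M) : Supp M K :=
  fun k l hk => ⟨fun j => ((h k l hk).1 j).trans hM, fun j => ((h k l hk).2 j).trans hM⟩

variable {s t : ℝ} {u : Idx n × Idx n → Idx n × Idx n → ℂ} {KA KB : Idx n → Idx n → ℂ}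

theorem box_GG (h : BS s t u) {M : ℕ} (p p' q : Idx n)
    (hM : ∀ y y' : Idx n × Idx n, y.1 + y.2 = p + q → y'.1 + y'.2 = p' + q →
      KA y.1 y'.1 * KB y.2 y'.2 ≠ 0 → (∀ j, y.1 j ≤ M ∧ y.2 j ≤ M) ∧ ∀ j, y'.1 j ≤ M ∧ y'.2 j ≤ M) :
    ∑ y : Box n M × Box n M, ∑ y' : Box n M × Box n M, u (p, q) (val y.1, val y.2) *
      (KA (val y.1) (val y'.1) * KB (val y.2) (val y'.2)) * star (u (p', q) (val y'.1, val y'.2)) =
      GG u KA KB p p' q := by
  have key : ∀ y y' : Idx n × Idx n, u (p, q) y * (KA y.1 y'.1 * KB y.2 y'.2) *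
      star (u (p', q) y') ≠ 0 → y.1 + y.2 = p + q ∧ y'.1 + y'.2 = p' + q ∧
        KA y.1 y'.1 * KB y.2 y'.2 ≠ 0 := fun y y' h0 =>
    ⟨(h.cons _ _ (left_ne_zero_of_mul (left_ne_zero_of_mul h0))).symm,
      (h.cons _ _ (star_ne_zero.1 (right_ne_zero_of_mul h0))).symm,
      right_ne_zero_of_mul (left_ne_zero_of_mul h0)⟩
  have e1 : ∀ y : Idx n × Idx n, ∑ y' : Box n M × Box n M, u (p, q) y *
      (KA y.1 (val y'.1) * KB y.2 (val y'.2)) * star (u (p', q) (val y'.1, val y'.2)) =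
      ∑ y' ∈ AD (p' + q), u (p, q) y * (KA y.1 y'.1 * KB y.2 y'.2) * star (u (p', q) y') :=
    fun y => box_sum (F := fun y' => u (p, q) y * (KA y.1 y'.1 * KB y.2 y'.2) * star (u (p', q) y'))
      (fun y' h0 => (key y y' h0).2.1)
      fun y' h0 => (hM y y' (key y y' h0).1 (key y y' h0).2.1 (key y y' h0).2.2).2
  refine (Finset.sum_congr rfl fun y _ => e1 (val y.1, val y.2)).trans ?_
  refine box_sum (F := fun y => ∑ y' ∈ AD (p' + q),
    u (p, q) y * (KA y.1 y'.1 * KB y.2 y'.2) * star (u (p', q) y')) (fun y h0 => ?_) fun y h0 => ?_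
  · obtain ⟨y', -, h1⟩ := Finset.exists_ne_zero_of_sum_ne_zero h0
    exact (key y y' h1).1
  · obtain ⟨y', -, h1⟩ := Finset.exists_ne_zero_of_sum_ne_zero h0
    exact (hM y y' (key y y' h1).1 (key y y' h1).2.1 (key y y' h1).2.2).1

theorem hasSum_C {η : ℝ} {ρA ρB ρC : Op (Idx n)} {σ U : Op (Idx n × Idx n)}
    (hU : IsBeamSplitter η U) (hσ : IsTensor σ ρA ρB) (hC : IsMarginal ρC (U * σ * star U))
    (p p' : Idx n) : HasSum (GG (ent U) (ent ρA) (ent ρB) p p') (ent ρC p p') := by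
  have hb : ∀ (x : Idx n) j, x j ≤ tot x := fun x j =>
    Finset.single_le_sum (f := x) (fun _ _ => Nat.zero_le _) (Finset.mem_univ j)
  have e : GG (ent U) (ent ρA) (ent ρB) p p' = fun q => ent (U * σ * star U) (p, q) (p', q) := by
    funext q
    have b1 : ∀ j, p j + q j ≤ tot p + tot p' + tot q := fun j => by
      have := hb p j; have := hb q j; omega
    have b2 : ∀ j, p' j + q j ≤ tot p + tot p' + tot q := fun j => by
      have := hb p' j; have := hb q j; omega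
    rw [ent_conj hU σ (p, q) (p', q) _ b1 b2, ← box_GG (M := tot p + tot p' + tot q) (bs_of hU)]
    · simp only [hσ _ _ _ _]
    · intro y y' e1 e2 _
      refine ⟨fun j => ?_, fun j => ?_⟩
      · have := congrFun e1 j; have := b1 j; simp only [Pi.add_apply] at *; omega
      · have := congrFun e2 j; have := b2 j; simp only [Pi.add_apply] at *; omega
  rw [e]
  exact hC p p'

theorem GG_supp {M : ℕ} (hA : Supp M KA) (hB : Supp M KB) {p p' q : Idx n}
    (h0 : GG u KA KB p p' q ≠ 0) (j : Fin n) : p j + q j ≤ 2 * M ∧ p' j + q j ≤ 2 * M := by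
  obtain ⟨y, hy, h1⟩ := Finset.exists_ne_zero_of_sum_ne_zero h0
  obtain ⟨y', hy', h2⟩ := Finset.exists_ne_zero_of_sum_ne_zero h1
  have h3 := right_ne_zero_of_mul (left_ne_zero_of_mul h2)
  have a := hA _ _ (left_ne_zero_of_mul h3)
  have b := hB _ _ (right_ne_zero_of_mul h3)
  have e1 := congrFun (mem_AD.1 hy) j
  have e2 := congrFun (mem_AD.1 hy') j
  have := a.1 j; have := a.2 j; have := b.1 j; have := b.2 j
  simp only [Pi.add_apply] at e1 e2
  omega

theorem hasSum_out (h : BS s t u) {M : ℕ} (hA : Supp M KA) (hB : Supp M KB) (p p' : Idx n) :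
    HasSum (GG u KA KB p p') (ent (emb (out (Vm u M) (res M KA ⊗ₖ res M KB))) p p') := by
  by_cases hp : (∀ j, p j ≤ 2 * M) ∧ ∀ j, p' j ≤ 2 * M
  · obtain ⟨k, rfl⟩ := exists_val hp.1
    obtain ⟨k', rfl⟩ := exists_val hp.2
    rw [ent_emb]
    have e : out (Vm u M) (res M KA ⊗ₖ res M KB) k k' =
        ∑ q : Box n (2 * M), GG u KA KB (val k) (val k') (val q) := by
      refine Finset.sum_congr rfl fun q _ => ?_
      rw [← box_GG (M := M) h _ _ _ fun y y' _ _ h0 =>
        ⟨fun j => ⟨(hA _ _ (left_ne_zero_of_mul h0)).1 j, (hB _ _ (right_ne_zero_of_mul h0)).1 j⟩,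
          fun j => ⟨(hA _ _ (left_ne_zero_of_mul h0)).2 j, (hB _ _ (right_ne_zero_of_mul h0)).2 j⟩⟩,
        Finset.sum_comm]
      simp only [mul_apply, Finset.sum_mul, conjTranspose_apply, Vm, res, of_apply,
        kroneckerMap_apply]
    rw [e]
    exact hasSum_box fun q h0 j => by have := (GG_supp hA hB h0 j).1; omega
  · have e1 : ent (emb (out (Vm u M) (res M KA ⊗ₖ res M KB))) p p' = 0 := by
      by_contra hc
      exact hp (ent_emb_zero _ hc)
    have e2 : GG u KA KB p p' = fun _ => 0 := by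
      funext q
      by_contra hc
      exact hp ⟨fun j => by have := (GG_supp hA hB hc j).1; omega,
        fun j => by have := (GG_supp hA hB hc j).2; omega⟩
    rw [e1, e2]
    exact hasSum_zero

theorem row_le (h : BS s t u) (z x : _) {r : Idx n × Idx n → ℝ} (hr : ∀ y, 0 ≤ r y) :
    ∑ y ∈ AD x, ‖u z y‖ * √(r y) ≤ √(∑ y ∈ AD x, r y) := by
  have h1 : HasSum (fun y => ‖u z y‖ ^ 2) 1 := by
    have := Complex.reCLM.hasSum (h.orth' z z)
    simpa [Complex.mul_conj, Complex.normSq_eq_norm_sq, ← Complex.ofReal_pow] using this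
  have h2 := sum_le_hasSum (AD x) (fun y _ => sq_nonneg _) h1
  have h3 := Finset.sum_mul_sq_le_sq_mul_sq (AD x) (fun y => ‖u z y‖) fun y => √(r y)
  simp only [Real.sq_sqrt (hr _)] at h3
  exact Real.le_sqrt_of_sq_le (h3.trans
    (mul_le_of_le_one_left (Finset.sum_nonneg fun y _ => hr y) h2))

theorem norm_GG (h : BS s t u) {a b : Idx n → ℝ} (ha : ∀ k, 0 ≤ a k) (hb : ∀ k, 0 ≤ b k)
    (hA : ∀ k l, ‖KA k l‖ ≤ √(a k) * √(a l)) (hB : ∀ k l, ‖KB k l‖ ≤ √(b k) * √(b l))
    (p p' q : Idx n) : ‖GG u KA KB p p' q‖ ≤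
      ∑ y ∈ AD (p + q), a y.1 * b y.2 + ∑ y ∈ AD (p' + q), a y.1 * b y.2 := by
  have hr : ∀ y : Idx n × Idx n, 0 ≤ a y.1 * b y.2 := fun y => mul_nonneg (ha _) (hb _)
  have h1 := row_le h (p, q) (p + q) hr
  have h2 := row_le h (p', q) (p' + q) hr
  have h3 : ‖GG u KA KB p p' q‖ ≤ (∑ y ∈ AD (p + q), ‖u (p, q) y‖ * √(a y.1 * b y.2)) *
      ∑ y ∈ AD (p' + q), ‖u (p', q) y‖ * √(a y.1 * b y.2) := by
    rw [Finset.sum_mul_sum]
    refine norm_sum_le_of_le _ fun y _ => norm_sum_le_of_le _ fun y' _ => ?_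
    rw [norm_mul, norm_mul, norm_mul, norm_star, Real.sqrt_mul (ha _), Real.sqrt_mul (ha _)]
    calc _ ≤ ‖u (p, q) y‖ * (√(a y.1) * √(a y'.1) * (√(b y.2) * √(b y'.2))) * ‖u (p', q) y'‖ := by
          gcongr
          exacts [hA _ _, hB _ _]
      _ = _ := by ring
  have h4 := mul_le_mul h1 h2 (Finset.sum_nonneg fun _ _ => by positivity) (Real.sqrt_nonneg _)
  have h5 := Real.sq_sqrt (Finset.sum_nonneg fun y (_ : y ∈ AD (p + q)) => hr y)
  have h6 := Real.sq_sqrt (Finset.sum_nonneg fun y (_ : y ∈ AD (p' + q)) => hr y)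
  nlinarith [sq_nonneg (√(∑ y ∈ AD (p + q), a y.1 * b y.2) - √(∑ y ∈ AD (p' + q), a y.1 * b y.2))]

theorem summable_AD {r : Idx n × Idx n → ℝ} (hr : ∀ y, 0 ≤ r y) (h : Summable r) (p : Idx n) :
    Summable fun q => ∑ y ∈ AD (p + q), r y := by
  refine summable_of_sum_le (c := ∑' y, r y) (fun q => Finset.sum_nonneg fun y _ => hr y)
    fun S => ?_
  rw [← Finset.sum_biUnion fun q _ q' _ hne => Finset.disjoint_left.2 fun y h1 h2 =>
    hne (add_left_cancel ((mem_AD.1 h1).symm.trans (mem_AD.1 h2)))]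
  exact h.sum_le_tsum _ fun y _ => hr y

theorem iso (h : BS s t u) (M : ℕ) : (Vm u M)ᴴ * Vm u M = 1 := by
  ext y y'
  have h1 := (hasSum_box₂ (M := 2 * M) (F := fun z => star (u z (val y.1, val y.2)) *
    u z (val y'.1, val y'.2)) fun z h0 j => by
      have e := congrFun (h.cons _ _ (right_ne_zero_of_mul h0)) j
      have := val_le y'.1 j; have := val_le y'.2 j
      simp only [Pi.add_apply] at e
      omega).unique (h.orth _ _)
  simp only [mul_apply, conjTranspose_apply, Vm, of_apply, one_apply, h1,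
    val_inj.eq_iff, Prod.ext_iff]

theorem out_dens (h : BS s t u) {M : ℕ} {X Y : Matrix (Box n M) (Box n M) ℂ}
    (hX : X ∈ Dens (Box n M)) (hY : Y ∈ Dens (Box n M)) :
    out (Vm u M) (X ⊗ₖ Y) ∈ Dens (Box n (2 * M)) :=
  ⟨out_psd _ (hX.1.kronecker hY.1), by
    rw [trace_out (iso h M), trace_kronecker, hX.2, hY.2, mul_one]⟩

theorem tot_add (x y : Idx n) : tot (x + y) = tot x + tot y := Finset.sum_add_distrib

/-- the total number operator -/
noncomputable def DN (n M : ℕ) : Matrix (Box n M × Box n M) (Box n M × Box n M) ℂ :=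
  diagonal fun z => ((tot (val z.1) + tot (val z.2) : ℕ) : ℂ)

theorem out_energy (h : BS s t u) {M : ℕ} {X Y : Matrix (Box n M) (Box n M) ℂ}
    (hX : X ∈ Dens (Box n M)) (hY : Y ∈ Dens (Box n M)) :
    ∑ p, (tot (val p) : ℝ) * (out (Vm u M) (X ⊗ₖ Y) p p).re ≤
      ∑ k, (tot (val k) : ℝ) * (X k k).re + ∑ k, (tot (val k) : ℝ) * (Y k k).re := by
  have hW := (hX.1.kronecker hY.1).mul_mul_conjTranspose_same (Vm u M)
  have e1 : (DN n (2 * M) * Vm u M : Matrix _ _ ℂ) = Vm u M * DN n M := by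
    ext z y
    rw [DN, DN, diagonal_mul, mul_diagonal, mul_comm]
    by_cases h0 : Vm u M z y = 0
    · rw [h0, zero_mul, zero_mul]
    · rw [← tot_add, ← tot_add, h.cons _ _ h0]
  have e2 : trace (DN n (2 * M) * (Vm u M * X ⊗ₖ Y * (Vm u M)ᴴ)) = trace (DN n M * X ⊗ₖ Y) := by
    rw [← Matrix.mul_assoc, ← Matrix.mul_assoc, e1, trace_mul_comm, ← Matrix.mul_assoc,
      ← Matrix.mul_assoc, iso h, Matrix.one_mul]
  have t1 : ∑ k, X k k = 1 := hX.2
  have t2 : ∑ k, Y k k = 1 := hY.2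
  have e3 : trace (DN n M * X ⊗ₖ Y) =
      (∑ k, (tot (val k) : ℂ) * X k k) * ∑ k, Y k k +
        (∑ k, X k k) * ∑ k, (tot (val k) : ℂ) * Y k k := by
    simp only [DN, trace, diag_apply, diagonal_mul, kroneckerMap_apply, Fintype.sum_prod_type,
      Finset.sum_mul_sum, ← Finset.sum_add_distrib]
    refine Finset.sum_congr rfl fun k _ => Finset.sum_congr rfl fun l _ => ?_
    push_cast; ring
  rw [e3, t1, t2, mul_one, one_mul] at e2
  have e4 := congrArg Complex.re e2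
  simp only [DN, trace, diag_apply, diagonal_mul, Complex.add_re, Complex.re_sum, Complex.mul_re,
    Complex.natCast_re, Complex.natCast_im, zero_mul, sub_zero, Fintype.sum_prod_type] at e4
  rw [← e4]
  refine Finset.sum_le_sum fun p _ => ?_
  simp only [out, of_apply, Complex.re_sum, Finset.mul_sum]
  refine Finset.sum_le_sum fun q _ => mul_le_mul_of_nonneg_right (by push_cast; simp) ?_
  exact (Complex.nonneg_iff.1 hW.diag_nonneg).1

theorem energy_emb {M : ℕ} {X : Matrix (Box n M) (Box n M) ℂ} (hX : X ∈ Dens (Box n M))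
    (S : Finset (Idx n)) : ∑ k ∈ S, (tot k : ℝ) * (ent (emb X) k k).re ≤
      ∑ k, (tot (val k) : ℝ) * (X k k).re := by
  have h1 := hasSum_box (M := M) (F := fun k => (tot k : ℝ) * (ent (emb X) k k).re) fun k h0 =>
    (ent_emb_zero X (l := k) fun h1 => h0 (by simp [h1])).1
  simp only [ent_emb] at h1
  exact sum_le_hasSum S (fun k _ => mul_nonneg (Nat.cast_nonneg _)
    (Complex.nonneg_iff.1 (ent_diag_nonneg (isState_emb hX).pos k)).1) h1

theorem ent_res {M : ℕ} (h : Supp M KA) (k l : Idx n) : ent (emb (res M KA)) k l = KA k l := by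
  by_cases hp : (∀ j, k j ≤ M) ∧ ∀ j, l j ≤ M
  · obtain ⟨k, rfl⟩ := exists_val hp.1
    obtain ⟨l, rfl⟩ := exists_val hp.2
    exact ent_emb _ _ _
  · have e1 : ent (emb (res M KA)) k l = 0 := by
      by_contra hc
      exact hp (ent_emb_zero _ hc)
    have e2 : KA k l = 0 := by
      by_contra hc
      exact hp (h k l hc)
    rw [e1, e2]

/-- normalized truncations of a state -/
theorem trunc {ρ : Op (Idx n)} (hρ : IsState ρ) (e : FiniteEnergy ρ) :
    ∃ (K : ℕ → Idx n → Idx n → ℂ) (c : ℕ → ℕ) (a : Idx n → ℝ) (E : ℝ), (∀ k, 0 ≤ a k) ∧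
      Summable a ∧ (∀ m, Supp (c m) (K m)) ∧ (∀ m M, c m ≤ M → res M (K m) ∈ Dens (Box n M)) ∧
      (∀ k l, Tendsto (fun m => K m k l) atTop (𝓝 (ent ρ k l))) ∧
      (∀ m k l, ‖K m k l‖ ≤ √(a k) * √(a l)) ∧
      ∀ m M, ∑ k : Box n M, (tot (val k) : ℝ) * (res M (K m) k k).re ≤ E := by
  have h0 : ∀ k, 0 ≤ (ent ρ k k).re := fun k => (Complex.nonneg_iff.1 (ent_diag_nonneg hρ.pos k)).1
  have h0' : ∀ k, ((ent ρ k k).re : ℂ) = ent ρ k k := fun k =>
    Complex.ext rfl (Complex.nonneg_iff.1 (ent_diag_nonneg hρ.pos k)).2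
  have h1 : HasSum (fun k => (ent ρ k k).re) 1 := Complex.reCLM.hasSum hρ.trace
  let t : ℕ → ℝ := fun m => ∑ k ∈ Finset.Iic (fun _ => m : Idx n), (ent ρ k k).re
  have hb : ∀ x : Idx n, ∀ m, tot x ≤ m → ∀ j, x j ≤ m := fun x m hm j =>
    (Finset.single_le_sum (f := x) (fun _ _ => Nat.zero_le _) (Finset.mem_univ j)).trans hm
  have h2 : Tendsto t atTop (𝓝 1) := h1.comp (tendsto_atTop_finset_of_monotone
    (fun m m' hm => Finset.Iic_subset_Iic.2 fun _ => hm)
    fun x => ⟨tot x, Finset.mem_Iic.2 (hb x _ le_rfl)⟩)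
  obtain ⟨m0, h3⟩ := eventually_atTop.1 (h2.eventually_const_le (by norm_num : (1 / 2 : ℝ) < 1))
  have h4 : ∀ m, 0 < t (m + m0) := fun m => by have := h3 (m + m0) (by omega); linarith
  have h5 : ∀ m, (t (m + m0))⁻¹ ≤ 2 := fun m =>
    (inv_le_comm₀ (h4 m) two_pos).2 (by have := h3 (m + m0) (by omega); linarith)
  refine ⟨fun m k l => if (∀ j, k j ≤ m + m0) ∧ ∀ j, l j ≤ m + m0 then
      (((t (m + m0))⁻¹ : ℝ) : ℂ) * ent ρ k l else 0, fun m => m + m0, fun k => 2 * (ent ρ k k).re,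
    2 * ∑' k, (tot k : ℝ) * (ent ρ k k).re, fun k => by have := h0 k; positivity,
    h1.summable.mul_left 2, fun m k l h => ?_, fun m M hM => ⟨?_, ?_⟩, fun k l => ?_,
    fun m k l => ?_, fun m M => ?_⟩
  · by_contra hc
    exact h (if_neg hc)
  · have h6 := ((res_psd hρ.pos M).mul_mul_conjTranspose_same (diagonal fun k : Box n M =>
      if ∀ j, val k j ≤ m + m0 then (1 : ℂ) else 0)).smul
      (a := (((t (m + m0))⁻¹ : ℝ) : ℂ)) (Complex.zero_le_real.2 (inv_pos.2 (h4 m)).le)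
    refine (congrArg PosSemidef ?_).mp h6
    ext k l
    rw [diagonal_conjTranspose, Matrix.smul_apply, mul_diagonal, diagonal_mul]
    by_cases hk : ∀ j, val k j ≤ m + m0 <;> by_cases hl : ∀ j, val l j ≤ m + m0 <;>
      simp [res, hk, hl]
  · have h6 := (hasSum_box (M := M) (F := fun k => if (∀ j, k j ≤ m + m0) ∧ ∀ j, k j ≤ m + m0 then
        (((t (m + m0))⁻¹ : ℝ) : ℂ) * ent ρ k k else 0) fun k h j => by
          by_contra hc
          exact h (if_neg fun h7 => hc ((h7.1 j).trans hM))).unique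
      (hasSum_sum_of_ne_finset_zero (s := Finset.Iic (fun _ => m + m0 : Idx n)) fun k hk =>
        if_neg fun h7 => hk (Finset.mem_Iic.2 h7.1))
    refine h6.trans ?_
    rw [Finset.sum_congr rfl fun k hk => if_pos ⟨Finset.mem_Iic.1 hk, Finset.mem_Iic.1 hk⟩,
      ← Finset.mul_sum, ← Finset.sum_congr rfl fun k _ => h0' k, ← Complex.ofReal_sum,
      ← Complex.ofReal_mul, inv_mul_cancel₀ (h4 m).ne', Complex.ofReal_one]
  · have h6 : Tendsto (fun m => (((t (m + m0))⁻¹ : ℝ) : ℂ) * ent ρ k l) atTop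
        (𝓝 ((((1 : ℝ)⁻¹ : ℝ) : ℂ) * ent ρ k l)) :=
      ((Complex.continuous_ofReal.tendsto _).comp
        ((h2.comp (tendsto_add_atTop_nat m0)).inv₀ one_ne_zero)).mul_const _
    rw [inv_one, Complex.ofReal_one, one_mul] at h6
    refine h6.congr' (eventually_atTop.2 ⟨tot k + tot l, fun m hm => ?_⟩)
    exact (if_pos ⟨hb k _ (by omega), hb l _ (by omega)⟩).symm
  · have h6 : 2 * ‖ent ρ k l‖ ≤ √(2 * (ent ρ k k).re) * √(2 * (ent ρ l l).re) := by
      rw [← Real.sqrt_mul (by have := h0 k; positivity)]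
      exact Real.le_sqrt_of_sq_le (by have := ent_sq_le hρ.pos k l; nlinarith)
    dsimp only
    split_ifs
    · rw [norm_mul, Complex.norm_real, Real.norm_of_nonneg (inv_pos.2 (h4 m)).le]
      exact (mul_le_mul_of_nonneg_right (h5 m) (norm_nonneg _)).trans h6
    · rw [norm_zero]; positivity
  · have h6 := (e.sum_le_tsum (Finset.univ.map ⟨val, val_inj (M := M)⟩)
      fun k _ => mul_nonneg (Nat.cast_nonneg _) (h0 k))
    rw [Finset.sum_map] at h6
    refine le_trans ?_ (mul_le_mul_of_nonneg_left h6 zero_le_two)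
    rw [Finset.mul_sum]
    refine Finset.sum_le_sum fun k _ => ?_
    have h7 := h0 (val k)
    rw [mul_left_comm]
    refine mul_le_mul_of_nonneg_left ?_ (Nat.cast_nonneg _)
    simp only [res, of_apply, Function.Embedding.coeFn_mk]
    split_ifs
    · rw [Complex.re_ofReal_mul]
      exact mul_le_mul_of_nonneg_right (h5 m) h7
    · simp only [Complex.zero_re]; positivity

end Limit

open Limit Filter Topology in
theorem lin_ineq {n : ℕ} {η : ℝ} (h0 : 0 < η) (h1 : η < 1) {ρA ρB ρC : Op (Idx n)}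
    {σ U : Op (Idx n × Idx n)} (hA : IsState ρA) (hB : IsState ρB) (eA : FiniteEnergy ρA)
    (eB : FiniteEnergy ρB) (hU : IsBeamSplitter η U) (hσ : IsTensor σ ρA ρB)
    (hC : IsMarginal ρC (U * σ * star U)) {NA NB NC : ℝ} (hNA : 0 < NA) (hNB : 0 < NB)
    (hNC : NC = η * NA + (1 - η) * NB) :
    n * (g NC / bt NC - η * (g NA / bt NA) - (1 - η) * (g NB / bt NB)) ≤
      entropy ρC / bt NC - η * (entropy ρA / bt NA) - (1 - η) * (entropy ρB / bt NB) := by
  obtain ⟨KA, cA, a, EA, a0, a1, a2, a3, a4, a5, a6⟩ := trunc hA eA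
  obtain ⟨KB, cB, b, EB, b0, b1, b2, b3, b4, b5, b6⟩ := trunc hB eB
  have hu := bs_of hU
  let c : ℕ → ℕ := fun m => max (cA m) (cB m)
  have sA : ∀ m M, c m ≤ M → Supp M (KA m) := fun m M h => (a2 m).mono (le_of_max_le_left h)
  have sB : ∀ m M, c m ≤ M → Supp M (KB m) := fun m M h => (b2 m).mono (le_of_max_le_right h)
  have dA : ∀ m M, c m ≤ M → res M (KA m) ∈ Dens (Box n M) :=
    fun m M h => a3 m M (le_of_max_le_left h)
  have dB : ∀ m M, c m ≤ M → res M (KB m) ∈ Dens (Box n M) :=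
    fun m M h => b3 m M (le_of_max_le_right h)
  have tA : Tendsto (fun m => entropy (emb (res (c m) (KA m)))) atTop (𝓝 (entropy ρA)) :=
    entropy_tendsto (fun m => isState_emb (dA m _ le_rfl))
      (fun m S => (energy_emb (dA m _ le_rfl) S).trans (a6 m _))
      fun k l => (a4 k l).congr fun m => (ent_res (sA m _ le_rfl) k l).symm
  have tB : Tendsto (fun m => entropy (emb (res (c m) (KB m)))) atTop (𝓝 (entropy ρB)) :=
    entropy_tendsto (fun m => isState_emb (dB m _ le_rfl))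
      (fun m S => (energy_emb (dB m _ le_rfl) S).trans (b6 m _))
      fun k l => (b4 k l).congr fun m => (ent_res (sB m _ le_rfl) k l).symm
  have tC : Tendsto (fun m => entropy (emb (out (Vm (ent U) (c m))
      (res (c m) (KA m) ⊗ₖ res (c m) (KB m))))) atTop (𝓝 (entropy ρC)) := by
    refine entropy_tendsto (E := EA + EB)
      (fun m => isState_emb (out_dens hu (dA m _ le_rfl) (dB m _ le_rfl)))
      (fun m S => (energy_emb (out_dens hu (dA m _ le_rfl) (dB m _ le_rfl)) S).trans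
        ((out_energy hu (dA m _ le_rfl) (dB m _ le_rfl)).trans (add_le_add (a6 m _) (b6 m _))))
      fun p p' => ?_
    have hr : ∀ y : Idx n × Idx n, 0 ≤ a y.1 * b y.2 := fun y => mul_nonneg (a0 _) (b0 _)
    have hs := a1.mul_of_nonneg b1 a0 b0
    rw [← (hasSum_C hU hσ hC p p').tsum_eq]
    refine (tendsto_tsum_of_dominated_convergence
      (f := fun m q => GG (ent U) (KA m) (KB m) p p' q)
      ((summable_AD hr hs p).add (summable_AD hr hs p')) (fun q => ?_)
      (Eventually.of_forall fun m q => norm_GG hu a0 b0 (a5 m) (b5 m) p p' q)).congr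
      fun m => (hasSum_out hu (sA m _ le_rfl) (sB m _ le_rfl) p p').tsum_eq
    exact tendsto_finsetSum _ fun y _ => tendsto_finsetSum _ fun y' _ =>
      (((a4 _ _).mul (b4 _ _)).const_mul _).mul_const _
  refine ge_of_tendsto' (((tC.div_const _).sub ((tA.div_const _).const_mul η)).sub
    ((tB.div_const _).const_mul (1 - η))) fun m => ?_
  refine fin_main h0 h1 hu hNA hNB hNC (KA m) (KB m) (c m) _ _ _
    (fun k hk => (sA m _ le_rfl k k hk).1) (fun k hk => (sB m _ le_rfl k k hk).1)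
    (fun M hM => ⟨dA m M hM, ?_⟩) (fun M hM => ⟨dB m M hM, ?_⟩) fun M hM => ?_
  · rw [← entropy_emb (dA m M hM).1.1, op_ext fun k l =>
      (ent_res (sA m M hM) k l).trans (ent_res (sA m _ le_rfl) k l).symm]
  · rw [← entropy_emb (dB m M hM).1.1, op_ext fun k l =>
      (ent_res (sB m M hM) k l).trans (ent_res (sB m _ le_rfl) k l).symm]
  · rw [← entropy_emb (out_dens hu (dA m M hM) (dB m M hM)).1.1, op_ext fun k l =>
      (hasSum_out hu (sA m M hM) (sB m M hM) k l).unique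
        (hasSum_out hu (sA m _ le_rfl) (sB m _ le_rfl) k l)]

end Vale.Agent.P369
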