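import Vale.Agent.P369.Limit
import Vale.Agent.P369.Edge

open Matrix
open scoped Matrix.Norms.L2Operator ComplexOrder Kronecker

namespace Vale.Agent.P369

namespace MainAux

open Filter Topology

theorem g_cont : Continuous g :=
  (Real.continuous_mul_log.comp (continuous_id.add continuous_const)).sub Real.continuous_mul_log

theorem g_zero : g 0 = 0 := by simp [g]

theorem g_deriv {t : ℝ} (ht : 0 < t) : HasDerivAt g (Real.log (t + 1) - Real.log t) t := by
  have h1 := (Real.hasDerivAt_mul_log (x := t + 1) (by linarith)).comp_add_const t 1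
  have h2 := Real.hasDerivAt_mul_log ht.ne'
  have h3 := h1.sub h2
  rw [add_sub_add_right_eq_sub] at h3
  exact h3

theorem g_strict : StrictMonoOn g (Set.Ici 0) := by
  refine strictMonoOn_of_deriv_pos (convex_Ici 0) g_cont.continuousOn fun t ht => ?_
  rw [interior_Ici] at ht
  rw [(g_deriv ht).deriv]
  exact sub_pos.2 (Real.log_lt_log ht (by linarith))

theorem g_surj {x : ℝ} (hx : 0 ≤ x) : ∃ N ∈ Set.Ici (0 : ℝ), g N = x := by
  have he := Real.exp_pos x
  have h1 : Real.log (Real.exp x) ≤ Real.log (Real.exp x + 1) := Real.log_le_log he (by linarith)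
  have h2 : x ≤ g (Real.exp x) := by
    unfold g
    have h3 := mul_le_mul_of_nonneg_left h1 he.le
    rw [Real.log_exp] at h1
    nlinarith
  obtain ⟨N, hN, hg⟩ := intermediate_value_Icc he.le g_cont.continuousOn
    (show x ∈ Set.Icc (g 0) (g (Real.exp x)) from ⟨g_zero.le.trans hx, h2⟩)
  exact ⟨N, hN.1, hg⟩

theorem inv_nonneg' {x : ℝ} (hx : 0 ≤ x) : 0 ≤ Function.invFunOn g (Set.Ici 0) x :=
  Function.invFunOn_mem (g_surj hx)

theorem g_inv {x : ℝ} (hx : 0 ≤ x) : g (Function.invFunOn g (Set.Ici 0) x) = x :=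
  Function.invFunOn_eq (g_surj hx)

theorem le_inv {x N : ℝ} (hx : 0 ≤ x) (hN : 0 ≤ N) (h : g N ≤ x) :
    N ≤ Function.invFunOn g (Set.Ici 0) x :=
  (g_strict.le_iff_le hN (inv_nonneg' hx)).1 (by rwa [g_inv hx])

theorem inv_bt_le {N : ℝ} (h : 0 < N) : (bt N)⁻¹ ≤ N + 1 := by
  have h1 : 0 < 1 + 1 / N := by positivity
  have h2 := Real.one_sub_inv_le_log_of_pos h1
  have h3 : 1 - (1 + 1 / N)⁻¹ = (N + 1)⁻¹ := by
    field_simp
    ring
  rw [h3] at h2
  exact inv_le_of_inv_le₀ (by linarith) h2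

theorem bt_contAt {N : ℝ} (h : 0 < N) : ContinuousAt (fun z : ℝ => bt (N + z)) 0 := by
  unfold bt
  refine ContinuousAt.log (continuousAt_const.add (continuousAt_const.div
    (continuousAt_const.add continuousAt_id) (by simpa using h.ne'))) ?_
  have : 0 < 1 + 1 / (N + 0) := by
    rw [add_zero]
    positivity
  exact this.ne'

theorem div_bt_le {N z : ℝ} (hN : 0 ≤ N) (hz : 0 < z) :
    g (N + z) / bt (N + z) - g N / bt (N + z) ≤ (g (N + z) - g N) * (N + z + 1) := by
  have h1 : 0 ≤ g (N + z) - g N := sub_nonneg.2 (g_strict.monotoneOn hN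
    (show 0 ≤ N + z by linarith) (by linarith))
  rw [← sub_div, div_eq_mul_inv]
  exact mul_le_mul_of_nonneg_left (inv_bt_le (by linarith)) h1

/-- passage to the limit in the linear inequality -/
theorem limit {m η NA NB NC S : ℝ} (hm : 0 ≤ m) (h0 : 0 ≤ η) (h1 : η ≤ 1) (hA : 0 ≤ NA)
    (hB : 0 ≤ NB) (hC : 0 < NC)
    (h : ∀ z, 0 < z → m * (g (NC + z) / bt (NC + z) - η * (g (NA + z) / bt (NA + z)) -
      (1 - η) * (g (NB + z) / bt (NB + z))) ≤
      S / bt (NC + z) - η * (m * g NA / bt (NA + z)) - (1 - η) * (m * g NB / bt (NB + z))) :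
    m * g NC ≤ S := by
  have hg : ∀ N : ℝ, Continuous fun z : ℝ => g (N + z) := fun N =>
    g_cont.comp (continuous_const.add continuous_id)
  have hc : ContinuousAt (fun z : ℝ => m * g (NC + z) - bt (NC + z) *
      (m * (η * ((g (NA + z) - g NA) * (NA + z + 1)) +
        (1 - η) * ((g (NB + z) - g NB) * (NB + z + 1))))) 0 := by
    refine ContinuousAt.sub (continuous_const.mul (hg NC)).continuousAt
      ((bt_contAt hC).mul (Continuous.continuousAt ?_))
    have := hg NA
    have := hg NB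
    fun_prop
  have ht := hc.tendsto.mono_left (nhdsWithin_le_nhds (s := Set.Ioi 0))
  simp only [add_zero, sub_self, zero_mul, mul_zero, sub_zero] at ht
  refine le_of_tendsto ht (eventually_nhdsWithin_of_forall fun z hz => ?_)
  have hz' : 0 < z := hz
  have hb : 0 < bt (NC + z) := bt_pos (by linarith)
  have e1 := mul_le_mul_of_nonneg_left (div_bt_le hA hz') (mul_nonneg hm h0)
  have e2 := mul_le_mul_of_nonneg_left (div_bt_le hB hz') (mul_nonneg hm (sub_nonneg.2 h1))
  have e3 : m * g (NC + z) / bt (NC + z) - m * (η * ((g (NA + z) - g NA) * (NA + z + 1)) +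
      (1 - η) * ((g (NB + z) - g NB) * (NB + z + 1))) ≤ S / bt (NC + z) := by
    have := h z hz'
    simp only [mul_div_assoc] at this ⊢
    linarith
  have e4 := mul_le_mul_of_nonneg_left e3 hb.le
  rwa [mul_sub, mul_div_cancel₀ _ hb.ne', mul_div_cancel₀ _ hb.ne'] at e4

end MainAux

open MainAux

theorem epni {n : ℕ} (hn : 1 ≤ n) {η : ℝ} (h0 : 0 ≤ η) (h1 : η ≤ 1) {ρA ρB ρC : Op (Idx n)}
    {σ U : Op (Idx n × Idx n)} (hA : IsState ρA) (hB : IsState ρB) (eA : FiniteEnergy ρA)
    (eB : FiniteEnergy ρB) (hU : IsBeamSplitter η U) (hσ : IsTensor σ ρA ρB)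
    (hC : IsMarginal ρC (U * σ * star U)) :
    η * photon ρA + (1 - η) * photon ρB ≤ photon ρC := by
  rcases h0.eq_or_lt with rfl | h0'
  · rw [edge_zero hU hA hσ hC]
    simp
  rcases h1.eq_or_lt with rfl | h1'
  · rw [edge_one hU hB hσ hC]
    simp
  have hn' : (0 : ℝ) < n := by exact_mod_cast hn
  have hSA := entropy_nonneg hA
  have hSB := entropy_nonneg hB
  have hSC : 0 ≤ entropy ρC := by
    have h := lin_ineq h0' h1' hA hB eA eB hU hσ hC (NA := 1) (NB := 1) (NC := 1) one_pos one_pos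
      (by ring)
    have hb : 0 < bt 1 := bt_pos one_pos
    have e1 : 0 ≤ η * (entropy ρA / bt 1) := by positivity
    have e2 : 0 ≤ (1 - η) * (entropy ρB / bt 1) := mul_nonneg (by linarith) (by positivity)
    have e3 : (n : ℝ) * (g 1 / bt 1 - η * (g 1 / bt 1) - (1 - η) * (g 1 / bt 1)) = 0 := by ring
    have e4 : 0 ≤ entropy ρC / bt 1 := by linarith
    exact (div_nonneg_iff.1 e4).elim (fun h => h.1) fun h => absurd h.2 (not_le.2 hb)
  have hxA : 0 ≤ entropy ρA / n := by positivity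
  have hxB : 0 ≤ entropy ρB / n := by positivity
  have hxC : 0 ≤ entropy ρC / n := by positivity
  have hNA : 0 ≤ photon ρA := inv_nonneg' hxA
  have hNB : 0 ≤ photon ρB := inv_nonneg' hxB
  have gA : n * g (photon ρA) = entropy ρA := by
    rw [photon, g_inv hxA, mul_div_cancel₀ _ hn'.ne']
  have gB : n * g (photon ρB) = entropy ρB := by
    rw [photon, g_inv hxB, mul_div_cancel₀ _ hn'.ne']
  have hNC : 0 ≤ η * photon ρA + (1 - η) * photon ρB :=
    add_nonneg (mul_nonneg h0 hNA) (mul_nonneg (by linarith) hNB)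
  rcases hNC.eq_or_lt with h | h
  · rw [← h]
    exact inv_nonneg' hxC
  · refine le_inv hxC hNC ?_
    rw [le_div_iff₀ hn', mul_comm]
    refine limit hn'.le h0 h1 hNA hNB h fun z hz => ?_
    rw [gA, gB]
    exact lin_ineq h0' h1' hA hB eA eB hU hσ hC (by linarith) (by linarith) (by ring)

end Vale.Agent.P369
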