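import Vale.Agent.P369.Ent
import Vale.Agent.P371.CriticalAux

open Matrix Filter Topology
open scoped Matrix.Norms.L2Operator ComplexOrder Kronecker

namespace Vale.Agent.P369.MC

open Vale.Agent.P371 Vale.Agent.P371.LogD

variable {ι : Type} [Fintype ι] [DecidableEq ι]

theorem posDef_of_low {c : ℝ} (hc : 0 < c) {P : Matrix ι ι ℂ} (h : Low c P) : P.PosDef := by
  have hP : P.IsHermitian := h.1
  refine hP.posDef_iff_eigenvalues_pos.2 fun i => hc.trans_le (h.2 _ ?_)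
  rw [hP.spectrum_real_eq_range_eigenvalues]
  exact ⟨i, rfl⟩

omit [Fintype ι] [DecidableEq ι] in
theorem herm_line {P D : Matrix ι ι ℂ} (hP : P.IsHermitian) (hD : D.IsHermitian) (t : ℝ) :
    (P + t • D).IsHermitian := by
  refine hP.add ?_
  rw [IsHermitian, conjTranspose_smul, star_trivial, hD.eq]

theorem hasDerivAt_line (P D : Matrix ι ι ℂ) (t : ℝ) :
    HasDerivAt (fun t : ℝ => P + t • D) D t := by
  simpa using ((hasDerivAt_id t).smul_const D).const_add P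

theorem posDef_near {P D : Matrix ι ι ℂ} (hP : P.PosDef) (hD : D.IsHermitian) :
    ∀ᶠ t : ℝ in 𝓝 0, (P + t • D).PosDef := by
  obtain ⟨c, hc, hL⟩ := exists_low hP
  have hc2 : 0 < c / 2 := by linarith
  have h1 : Tendsto (fun t : ℝ => ‖P + t • D - (P + (0 : ℝ) • D)‖) (𝓝 0) (𝓝 0) :=
    tendsto_iff_norm_sub_tendsto_zero.1 (hasDerivAt_line P D 0).continuousAt
  filter_upwards [h1.eventually (ge_mem_nhds hc2)] with t ht
  rw [zero_smul, add_zero] at ht
  exact posDef_of_low hc2 (low_of_near hL (herm_line hP.1 hD t).isSelfAdjoint ht)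

theorem hasDerivAt_trmul (X : Matrix ι ι ℂ) {f : ℝ → Matrix ι ι ℂ} {f' : Matrix ι ι ℂ} {t : ℝ}
    (h : HasDerivAt f f' t) : HasDerivAt (fun t => tr (X * f t)) (tr (X * f')) t :=
  (trL X).hasFDerivAt.comp_hasDerivAt t h

theorem hasDerivAt_log_line {P D : Matrix ι ι ℂ} (hP : P.IsHermitian) (hD : D.IsHermitian)
    {t : ℝ} (ht : (P + t • D).PosDef) :
    HasDerivAt (fun t : ℝ => mlog (P + t • D)) (dlog (P + t • D) D) t :=
  hasDerivAt_mlog (hasDerivAt_line P D t) (Eventually.of_forall fun s => herm_line hP hD s) ht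

theorem hasDerivAt_Sf {P D : Matrix ι ι ℂ} (hP : P.IsHermitian) (hD : D.IsHermitian)
    {t : ℝ} (ht : (P + t • D).PosDef) :
    HasDerivAt (fun t : ℝ => Sf (P + t • D)) (-tr (D * mlog (P + t • D)) - tr D) t := by
  have h1 := (hasDerivAt_trmul 1
    ((hasDerivAt_line P D t).mul (hasDerivAt_log_line hP hD ht))).neg
  have e : (fun t : ℝ => Sf (P + t • D)) =
      -fun t : ℝ => tr (1 * ((fun t : ℝ => P + t • D) * fun t : ℝ => mlog (P + t • D)) t) := by
    funext s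
    rw [Sf_eq (herm_line hP hD s)]
    simp
  rw [e]
  refine h1.congr_deriv ?_
  rw [one_mul, tr_add, tr_mul_dlog ht]
  ring

theorem second_deriv {f g : ℝ → ℝ} {g' : ℝ} (hm : IsLocalMin f 0)
    (hf : ∀ᶠ t in 𝓝 0, HasDerivAt f (g t) t) (hg : HasDerivAt g g' 0) : g 0 = 0 ∧ 0 ≤ g' := by
  have h0 : g 0 = 0 := hm.hasDerivAt_eq_zero hf.self_of_nhds
  refine ⟨h0, not_lt.1 fun hneg => ?_⟩
  have e1 : deriv f =ᶠ[𝓝 0] g := hf.mono fun t ht => ht.deriv
  have e2 : deriv (deriv f) 0 = g' := by rw [e1.deriv_eq, hg.deriv]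
  have hM : IsLocalMax f 0 := isLocalMax_of_deriv_deriv_neg (by rw [e2]; exact hneg)
    (by rw [e1.self_of_nhds, h0]) hf.self_of_nhds.continuousAt
  have e3 : f =ᶠ[𝓝 0] fun _ => f 0 := by
    filter_upwards [hm, hM] with t h1 h2 using le_antisymm h2 h1
  have e4 : deriv f =ᶠ[𝓝 0] fun _ => 0 := by
    filter_upwards [e3.deriv] with t ht
    rw [ht, deriv_const]
  rw [e4.deriv_eq, deriv_const] at e2
  exact hneg.ne e2.symm

theorem Sf_mix {ρ : Matrix ι ι ℂ} (hρ : ρ.IsHermitian) (c t : ℝ) :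
    Sf (ρ + t • (c • (1 : Matrix ι ι ℂ) - ρ)) =
      ∑ i, Real.negMulLog ((1 - t) * hρ.eigenvalues i + t * c) := by
  have hs : IsSelfAdjoint ρ := hρ
  have e : ρ + t • (c • (1 : Matrix ι ι ℂ) - ρ) = cfc (fun x : ℝ => (1 - t) * x + t * c) ρ := by
    rw [cfc_add _ _ _ (cont_spec ρ _) (cont_spec ρ _), cfc_const_mul _ _ _ (cont_spec ρ _),
      cfc_id' ℝ ρ, cfc_const _ ρ, Algebra.algebraMap_eq_smul_one, smul_sub, sub_smul, one_smul,
      smul_smul]
    abel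
  rw [e, Sf, trf, ← cfc_comp Real.negMulLog _ ρ hs Real.continuous_negMulLog.continuousOn
    (cont_spec ρ _)]
  exact kfam_trf_eq _ hρ

theorem Sf_mix_ge {ρ : Matrix ι ι ℂ} (hρ : ρ.PosSemidef) (hn : ¬ρ.PosDef) {c t : ℝ}
    (hc : 0 ≤ c) (hc1 : c ≤ 1) (h0 : 0 ≤ t) (h1 : t ≤ 1) :
    (1 - t) * Sf ρ + Real.negMulLog (t * c) ≤ Sf (ρ + t • (c • (1 : Matrix ι ι ℂ) - ρ)) := by
  rw [Sf_mix hρ.1, Sf_eq_sum hρ.1, Finset.mul_sum]
  rw [hρ.1.posDef_iff_eigenvalues_pos] at hn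
  push Not at hn
  obtain ⟨j, hj⟩ := hn
  have hj0 : hρ.1.eigenvalues j = 0 := le_antisymm hj (hρ.eigenvalues_nonneg j)
  have e : Real.negMulLog (t * c) = ∑ i, if i = j then Real.negMulLog (t * c) else 0 := by simp
  rw [e, ← Finset.sum_add_distrib]
  refine Finset.sum_le_sum fun i _ => ?_
  by_cases h : i = j
  · simp [h, hj0]
  · rw [if_neg h, add_zero]
    have h2 := Real.concaveOn_negMulLog.2 (hρ.eigenvalues_nonneg i) hc (sub_nonneg.2 h1) h0
      (by ring)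
    have h3 := mul_nonneg h0 (Real.negMulLog_nonneg hc hc1)
    simp only [smul_eq_mul] at h2
    linarith

theorem log_blow {φ : ℝ → ℝ} {φ' a c : ℝ} (hφ : HasDerivAt φ φ' 0) (ha : 0 < a) (hc : 0 < c)
    (h : ∀ t, 0 < t → t ≤ 1 → a * Real.negMulLog (t * c) ≤ φ t - φ 0) : False := by
  obtain ⟨K, hK⟩ := hφ.isBigO_sub.bound
  have h1 : ∀ᶠ t : ℝ in 𝓝[>] 0, Real.log t < -(K / (a * c)) - Real.log c :=
    Real.tendsto_log_nhdsGT_zero.eventually (eventually_lt_atBot _)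
  have h2 : ∀ᶠ t : ℝ in 𝓝[>] 0, t ≤ 1 := nhdsWithin_le_nhds (Iic_mem_nhds one_pos)
  obtain ⟨t, ⟨⟨h3, h4⟩, h5⟩, h6⟩ :=
    (((h1.and h2).and (nhdsWithin_le_nhds hK)).and self_mem_nhdsWithin).exists
  have ht : 0 < t := h6
  have h7 := h t ht h4
  have h8 : ‖φ t - φ 0‖ ≤ K * ‖t - 0‖ := h5
  rw [sub_zero, Real.norm_eq_abs, Real.norm_eq_abs, abs_of_pos ht] at h8
  rw [Real.negMulLog, Real.log_mul ht.ne' hc.ne'] at h7
  have h9 : K / (a * c) < -(Real.log t + Real.log c) := by linarith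
  rw [div_lt_iff₀ (by positivity)] at h9
  have h10 := mul_lt_mul_of_pos_right h9 ht
  have h11 := le_abs_self (φ t - φ 0)
  nlinarith

omit [DecidableEq ι] in
theorem trace_herm {X Y : Matrix ι ι ℂ} (hX : X.IsHermitian) (hY : Y.IsHermitian) :
    trace (X * Y) = (tr (X * Y) : ℂ) := by
  refine (Complex.conj_eq_iff_re.1 ?_).symm
  change star (trace (X * Y)) = _
  rw [← trace_conjTranspose, conjTranspose_mul, hX.eq, hY.eq, trace_mul_comm]

omit [DecidableEq ι] in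
theorem exists_parts (D : Matrix ι ι ℂ) (hD : trace D = 0) :
    ∃ D₁ D₂ : Matrix ι ι ℂ, D₁.IsHermitian ∧ D₂.IsHermitian ∧ trace D₁ = 0 ∧ trace D₂ = 0 ∧
      D = D₁ + Complex.I • D₂ := by
  refine ⟨(1 / 2 : ℂ) • (D + Dᴴ), (Complex.I / 2) • (Dᴴ - D), ?_, ?_, ?_, ?_, ?_⟩
  · rw [IsHermitian, conjTranspose_smul, conjTranspose_add, conjTranspose_conjTranspose, add_comm]
    simp
  · rw [IsHermitian, conjTranspose_smul, conjTranspose_sub, conjTranspose_conjTranspose,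
      ← neg_sub, smul_neg, ← neg_smul]
    simp [neg_div]
  · simp [trace_conjTranspose, hD]
  · simp [trace_conjTranspose, hD]
  · rw [smul_smul, show Complex.I * (Complex.I / 2) = -(1 / 2) by
      rw [← mul_div_assoc, Complex.I_mul_I]; ring]
    module

theorem mlog_herm (P : Matrix ι ι ℂ) : (mlog P).IsHermitian :=
  (cfc_predicate (R := ℝ) _ P : IsSelfAdjoint _)

end Vale.Agent.P369.MC
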