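import Vale.Agent.P369.Therm

open Matrix Filter Topology
open scoped Matrix.Norms.L2Operator ComplexOrder Kronecker

namespace Vale.Agent.P369.StabAux

section
variable {ι : Type} [Fintype ι] [DecidableEq ι]

theorem psd_of_bound {M : Matrix ι ι ℂ} (hM : M.IsHermitian) (a : ι → ℝ) (S : ι → Prop)
    [DecidablePred S] (hS : ∀ k, ¬ S k → a k = 0)
    (h : ∀ k l, ‖M k l‖ ≤ a k * a l) {c : ℝ} (hc : ∑ k, a k ^ 2 ≤ c) :
    ((diagonal fun k => (((if S k then c else 0 : ℝ)) : ℂ)) - M).PosSemidef := by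
  have hH : ((diagonal fun k => (((if S k then c else 0 : ℝ)) : ℂ)) - M).IsHermitian := by
    refine IsHermitian.sub ?_ hM
    exact isHermitian_diagonal_of_self_adjoint _ (funext fun k => Complex.conj_ofReal _)
  refine PosSemidef.of_dotProduct_mulVec_nonneg hH fun x => ?_
  rw [Complex.nonneg_iff]
  refine ⟨?_, (hH.im_star_dotProduct_mulVec_self x).symm⟩
  set b : ι → ℝ := fun k => if S k then ‖x k‖ else 0 with hb
  have h1 : (star x ⬝ᵥ (diagonal fun k => (((if S k then c else 0 : ℝ)) : ℂ)) *ᵥ x).re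
      = c * ∑ k, b k ^ 2 := by
    simp only [dotProduct, mulVec_diagonal, Complex.re_sum, Finset.mul_sum, Pi.star_apply]
    refine Finset.sum_congr rfl fun k _ => ?_
    have e : star (x k) * (((if S k then c else 0 : ℝ) : ℂ) * x k)
        = (((if S k then c else 0) * ‖x k‖ ^ 2 : ℝ) : ℂ) := by
      rw [mul_left_comm, Complex.star_def, Complex.conj_mul']
      push_cast
      rfl
    rw [e, Complex.ofReal_re]
    by_cases hk : S k <;> simp [hb, hk]
  have h2 : (star x ⬝ᵥ M *ᵥ x).re ≤ (∑ k, a k * b k) ^ 2 := by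
    refine (Complex.re_le_norm _).trans ?_
    have e : ∀ k, a k * b k = a k * ‖x k‖ := fun k => by
      by_cases hk : S k
      · simp [hb, hk]
      · simp [hS k hk]
    rw [sq, Finset.sum_mul_sum]
    simp only [e, dotProduct, mulVec, Finset.mul_sum]
    refine (norm_sum_le _ _).trans (Finset.sum_le_sum fun k _ => ?_)
    refine (norm_sum_le _ _).trans (Finset.sum_le_sum fun l _ => ?_)
    rw [norm_mul, norm_mul, Pi.star_apply, norm_star]
    have := mul_le_mul_of_nonneg_right (h k l) (mul_nonneg (norm_nonneg (x k)) (norm_nonneg (x l)))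
    nlinarith
  have h3 := Finset.sum_mul_sq_le_sq_mul_sq Finset.univ a b
  have h4 : (∑ k, a k ^ 2) * ∑ k, b k ^ 2 ≤ c * ∑ k, b k ^ 2 :=
    mul_le_mul_of_nonneg_right hc (Finset.sum_nonneg fun _ _ => sq_nonneg _)
  rw [sub_mulVec, dotProduct_sub, Complex.sub_re, h1]
  linarith

omit [Fintype ι] [DecidableEq ι] in
theorem diag_re_nonneg {ρ : Matrix ι ι ℂ} (hρ : ρ.PosSemidef) (k : ι) : 0 ≤ (ρ k k).re :=
  (Complex.nonneg_iff.1 hρ.diag_nonneg).1

omit [Fintype ι] [DecidableEq ι] in
theorem entry_le {ρ : Matrix ι ι ℂ} (hρ : ρ.PosSemidef) (k l : ι) :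
    ‖ρ k l‖ ≤ Real.sqrt (ρ k k).re * Real.sqrt (ρ l l).re := by
  have h := (hρ.submatrix ![k, l]).det_nonneg
  rw [det_fin_two] at h
  simp only [submatrix_apply, cons_val_zero, cons_val_one] at h
  have e1 : ρ l k = star (ρ k l) := (hρ.1.apply l k).symm
  have e2 : ρ k k = ((ρ k k).re : ℂ) := (hρ.1.coe_re_apply_self k).symm
  have e3 : ρ l l = ((ρ l l).re : ℂ) := (hρ.1.coe_re_apply_self l).symm
  rw [e1, Complex.star_def, Complex.mul_conj', e2, e3] at h
  have h' : (0 : ℝ) ≤ (ρ k k).re * (ρ l l).re - ‖ρ k l‖ ^ 2 := by exact_mod_cast h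
  rw [← Real.sqrt_mul (diag_re_nonneg hρ k)]
  exact Real.le_sqrt_of_sq_le (by linarith)

theorem dom {ρ : Matrix ι ι ℂ} (hρ : ρ.PosSemidef) (I : ι → Prop) [DecidablePred I] (e d : ι → ℝ)
    {ξ s τ m : ℝ} (hξ : 0 ≤ ξ) (hs : 0 < s)
    (h : ∀ k l, ‖ρ k l - if k = l then (e k : ℂ) else 0‖ ≤ ξ)
    (hτ : ∑ k, (if I k then 0 else (ρ k k).re) ≤ τ) (hm : ∑ k, (if I k then (1 : ℝ) else 0) ≤ m)
    (hd1 : ∀ k, I k → (1 + s) * (m * ξ + e k) ≤ d k)
    (hd2 : ∀ k, ¬ I k → (1 + 1 / s) * τ ≤ d k) :
    ((diagonal fun k => (d k : ℂ)) - ρ).PosSemidef := by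
  have hH : ∀ k l, star (ρ l k) = ρ k l := fun k l => hρ.1.apply k l
  set M1 : Matrix ι ι ℂ :=
    of fun k l => if I k ∧ I l then ρ k l - (if k = l then (e k : ℂ) else 0) else 0 with hM1
  set M2 : Matrix ι ι ℂ := of fun k l => if ¬ I k ∧ ¬ I l then ρ k l else 0 with hM2
  have hM1H : M1.IsHermitian := by
    ext k l
    simp only [hM1, conjTranspose_apply, of_apply]
    by_cases hk : I k <;> by_cases hl : I l <;> simp only [hk, hl, and_self, and_true, and_false,
      if_true, if_false, star_zero]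
    by_cases hkl : k = l
    · subst hkl
      simp [hH]
    · simp [hH, hkl, Ne.symm hkl]
  have hM2H : M2.IsHermitian := by
    ext k l
    simp only [hM2, conjTranspose_apply, of_apply]
    by_cases hk : I k <;> by_cases hl : I l <;> simp [hk, hl, hH]
  have p1 := psd_of_bound hM1H (fun k => if I k then Real.sqrt ξ else 0) I
    (fun k hk => if_neg hk)
    (fun k l => by
      simp only [hM1, of_apply]
      by_cases hk : I k <;> by_cases hl : I l <;> simp only [hk, hl, and_self, and_true,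
        and_false, if_true, if_false, norm_zero, mul_zero, zero_mul, le_refl]
      rw [Real.mul_self_sqrt hξ]
      exact h k l)
    (c := m * ξ) (by
      refine le_trans (le_of_eq ?_) (mul_le_mul_of_nonneg_right hm hξ)
      rw [Finset.sum_mul]
      refine Finset.sum_congr rfl fun k _ => ?_
      split_ifs <;> simp [Real.sq_sqrt hξ])
  have p2 := psd_of_bound hM2H (fun k => if I k then 0 else Real.sqrt (ρ k k).re)
    (fun k => ¬ I k) (fun k hk => if_pos (not_not.1 hk))
    (fun k l => by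
      simp only [hM2, of_apply]
      by_cases hk : I k <;> by_cases hl : I l <;> simp only [hk, hl, and_self, and_true,
        and_false, if_true, if_false, norm_zero, mul_zero, zero_mul, le_refl, not_true,
        not_false_iff]
      exact entry_le hρ k l)
    (c := τ) (by
      refine le_trans (le_of_eq ?_) hτ
      refine Finset.sum_congr rfl fun k _ => ?_
      split_ifs <;> simp [Real.sq_sqrt (diag_re_nonneg hρ k)])
  have p3 := hρ.conjTranspose_mul_mul_same
    (diagonal fun k => (((if I k then s else -1 : ℝ)) : ℂ))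
  have p4 : (diagonal fun k => (((if I k then d k - (1 + s) * (m * ξ + e k)
      else d k - (1 + 1 / s) * τ : ℝ)) : ℂ)).PosSemidef := by
    refine PosSemidef.diagonal fun k => ?_
    refine Complex.zero_le_real.2 ?_
    split_ifs with hk
    · linarith [hd1 k hk]
    · linarith [hd2 k hk]
  have q := (((p1.smul (a := (1 + s : ℝ)) (by positivity)).add
    (p2.smul (a := (1 + 1 / s : ℝ)) (by positivity))).add
    (p3.smul (a := (1 / s : ℝ)) (by positivity))).add p4
  refine (congrArg PosSemidef ?_).mp q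
  have hs' : (s : ℂ) ≠ 0 := Complex.ofReal_ne_zero.2 hs.ne'
  ext k l
  simp only [hM1, hM2, Matrix.add_apply, Matrix.smul_apply, Matrix.sub_apply, of_apply,
    diagonal_conjTranspose,
    mul_diagonal, diagonal_mul, diagonal_apply, Pi.star_apply, Complex.star_def,
    Complex.conj_ofReal, Complex.real_smul]
  by_cases hkl : k = l
  · subst hkl
    by_cases hk : I k <;> simp only [hk, and_self, if_true, if_false, not_true, not_false_iff] <;>
      push_cast <;> field_simp <;> ring
  · by_cases hk : I k <;> by_cases hl : I l <;> simp only [hk, hl, hkl, and_self, and_true,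
      and_false, if_true, if_false, not_true, not_false_iff] <;> push_cast <;> field_simp <;> ring

end

variable {n L : ℕ} {N : ℝ}

theorem rec_entry (j : Fin n) (ρ : Matrix (Box n L) (Box n L) ℂ) {k k' l l' : Box n L}
    (hk : val k' = val k + ee j) (hl : val l' = val l - ee j) :
    wop N ρ (ann n L j) k l = ((N + 1) * Real.sqrt (val k j + 1) : ℝ) * ρ k' l
      - (N * Real.sqrt (val l j) : ℝ) * ρ k l' := by
  simp only [wop, Matrix.sub_apply, Matrix.smul_apply, ann_mul_apply j ρ hk, mul_ann_apply j ρ k hl,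
    Complex.real_smul]
  push_cast
  ring

theorem exists_pred (j : Fin n) (k : Box n L) : ∃ k' : Box n L, val k' = val k - ee j :=
  exists_val fun i => (Nat.sub_le _ _).trans (val_le k i)

theorem pred_add {j : Fin n} {k k' : Box n L} (h : val k' = val k - ee j) (h0 : 0 < val k j) :
    val k = val k' + ee j := by
  rw [h]
  funext i
  by_cases hi : i = j
  · subst hi
    simp only [ee, Pi.add_apply, Pi.sub_apply, Pi.single_eq_same]
    omega
  · simp [ee, hi]

theorem step_ineq {ξ a b : ℝ} (hN : 0 < N) {x y : ℂ} (ha : 1 ≤ a) (hb : 0 ≤ b) (hba : b ≤ a)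
    (hw : ‖(((N + 1) * a : ℝ) : ℂ) * x - ((N * b : ℝ) : ℂ) * y‖ ≤ ξ) (hy : b ≠ 0 → ‖y‖ ≤ ξ) :
    ‖x‖ ≤ ξ := by
  have hξ : 0 ≤ ξ := (norm_nonneg _).trans hw
  have h1 := (norm_sub_norm_le _ _).trans hw
  rw [norm_mul, norm_mul, Complex.norm_real, Complex.norm_real, Real.norm_of_nonneg (by positivity),
    Real.norm_of_nonneg (by positivity)] at h1
  have h2 : b * ‖y‖ ≤ a * ξ := by
    by_cases h0 : b = 0
    · rw [h0, zero_mul]; positivity
    · exact mul_le_mul hba (hy h0) (norm_nonneg _) (by linarith)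
  have h3 : N * (b * ‖y‖) ≤ N * (a * ξ) := mul_le_mul_of_nonneg_left h2 hN.le
  have h4 : ξ ≤ a * ξ := le_mul_of_one_le_left hξ ha
  have h5 : ((N + 1) * a) * ‖x‖ ≤ ((N + 1) * a) * ξ := by nlinarith
  exact le_of_mul_le_mul_left h5 (by positivity)

theorem offdiag_lt {ξ : ℝ} (hN : 0 < N) {ρ : Matrix (Box n L) (Box n L) ℂ}
    (hw : ∀ j k l, ‖wop N ρ (ann n L j) k l‖ ≤ ξ) (j : Fin n) (m : ℕ) :
    ∀ k l : Box n L, val l j = m → val l j < val k j → ‖ρ k l‖ ≤ ξ := by
  induction m using Nat.strong_induction_on with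
  | _ m ih =>
    intro k l hm hlt
    obtain ⟨k', hk'⟩ := exists_pred j k
    obtain ⟨l', hl'⟩ := exists_pred j l
    have hk := pred_add hk' (by omega)
    have hkj : val k j = val k' j + 1 := by rw [hk]; simp [ee]
    have hlj : val l' j = val l j - 1 := by rw [hl']; simp [ee]
    have h := hw j k' l
    rw [rec_entry j ρ hk hl'] at h
    refine step_ineq hN (Real.one_le_sqrt.2 (by have := Nat.cast_nonneg (α := ℝ) (val k' j); linarith))
      (Real.sqrt_nonneg _) (Real.sqrt_le_sqrt ?_) h fun h0 => ?_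
    · have : val l j ≤ val k' j + 1 := by omega
      exact_mod_cast this
    · have : val l j ≠ 0 := fun h1 => h0 (by rw [h1]; simp)
      exact ih (val l' j) (by omega) k' l' rfl (by omega)

theorem val_zero : val (0 : Box n L) = 0 := rfl

theorem diag_close {ξ : ℝ} (hN : 0 < N) (hξ : 0 ≤ ξ) {ρ : Matrix (Box n L) (Box n L) ℂ}
    (hw : ∀ j k l, ‖wop N ρ (ann n L j) k l‖ ≤ ξ) (m : ℕ) :
    ∀ k : Box n L, tot (val k) = m →
      ‖ρ k k - (((N / (N + 1)) ^ m : ℝ) : ℂ) * ρ 0 0‖ ≤ ξ := by
  induction m with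
  | zero =>
    intro k hk
    have : k = 0 := val_inj (funext fun j => (Finset.sum_eq_zero_iff.1 hk) j (Finset.mem_univ _))
    simp [this, hξ]
  | succ m ih =>
    intro k hk
    obtain ⟨j, -, hj⟩ := Finset.exists_ne_zero_of_sum_ne_zero
      (show ∑ j, val k j ≠ 0 by unfold tot at hk; omega)
    obtain ⟨k', hk'⟩ := exists_pred j k
    have hk1 := pred_add hk' (by omega)
    have hkj : val k j = val k' j + 1 := by rw [hk1]; simp [ee]
    have ht : tot (val k') = m := by
      rw [hk1] at hk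
      simp only [tot, ee, Pi.add_apply, Finset.sum_add_distrib, Finset.sum_pi_single',
        Finset.mem_univ, if_true] at hk ⊢
      omega
    have h := hw j k' k
    rw [rec_entry j ρ hk1 hk', hkj] at h
    have ha : 1 ≤ Real.sqrt (val k' j + 1) :=
      Real.one_le_sqrt.2 (by have := Nat.cast_nonneg (α := ℝ) (val k' j); linarith)
    refine step_ineq hN ha (by linarith) le_rfl (le_trans (le_of_eq ?_) h) fun _ => ih k' ht
    congr 1
    have hN' : ((N : ℂ) + 1) ≠ 0 := by exact_mod_cast (by linarith : N + 1 ≠ 0)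
    have e : ((N : ℂ) + 1) * ((N : ℂ) / (N + 1)) = N := mul_div_cancel₀ _ hN'
    push_cast
    rw [pow_succ]
    linear_combination (-(Real.sqrt (val k' j + 1) : ℂ) * ((N : ℂ) / (N + 1)) ^ m * ρ 0 0) * e

theorem entry_close {ξ : ℝ} (hN : 0 < N) (hξ : 0 ≤ ξ) {ρ : Matrix (Box n L) (Box n L) ℂ}
    (hρ : ρ.IsHermitian) (hw : ∀ j k l, ‖wop N ρ (ann n L j) k l‖ ≤ ξ) (k l : Box n L) :
    ‖ρ k l - if k = l then (((N + 1) ^ n * (ρ 0 0).re * thw n N (val k) : ℝ) : ℂ) else 0‖ ≤ ξ := by
  split_ifs with hkl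
  · subst hkl
    refine le_trans (le_of_eq ?_) (diag_close hN hξ hw _ k rfl)
    congr 2
    have e : (N + 1) ^ n * (ρ 0 0).re * thw n N (val k)
        = (N / (N + 1)) ^ tot (val k) * (ρ 0 0).re := by
      have : (N + 1) ^ n * ((N + 1)⁻¹) ^ n = 1 := by
        rw [← mul_pow, mul_inv_cancel₀ (by linarith), one_pow]
      unfold thw
      linear_combination ((ρ 0 0).re * (N / (N + 1)) ^ tot (val k)) * this
    have e2 : ((ρ 0 0).re : ℂ) = ρ 0 0 := hρ.coe_re_apply_self 0
    rw [e, Complex.ofReal_mul, e2]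
  · rw [sub_zero]
    obtain ⟨j, hj⟩ := Function.ne_iff.1 (val_inj.ne hkl)
    rcases lt_or_gt_of_ne hj with h | h
    · rw [← hρ.apply k l, norm_star]
      exact offdiag_lt hN hw j _ l k rfl h
    · exact offdiag_lt hN hw j _ k l rfl h

theorem sum_inside {K : ℕ} (hK : K ≤ L) (F : Idx n → ℝ) :
    ∑ k : Box n L, (if ∀ j, val k j ≤ K then F (val k) else 0) = ∑ k : Box n K, F (val k) := by
  have h1 := hasSum_box (n := n) (M := L) (F := fun x => if ∀ j, x j ≤ K then F x else 0)
    fun x hx j => by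
      by_contra hc
      exact hx (if_neg fun h => hc ((h j).trans hK))
  have h2 := hasSum_box (n := n) (M := K) (F := fun x => if ∀ j, x j ≤ K then F x else 0)
    fun x hx j => by
      by_contra hc
      exact hx (if_neg fun h => hc (h j))
  rw [h1.unique h2]
  exact Finset.sum_congr rfl fun k _ => if_pos (val_le k)

theorem tendsto_energy (hN : 0 < N) (j : Fin n) :
    Tendsto (fun K : ℕ => ∑ k : Box n K, thw n N (val k) * (val k j : ℝ)) atTop (𝓝 N) := by
  have hr0 : 0 ≤ N / (N + 1) := by positivity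
  have hr1 : N / (N + 1) < 1 := (div_lt_one (by linarith)).2 (by linarith)
  set f : Fin n → ℕ → ℝ :=
    fun i m => (N + 1)⁻¹ * ((if i = j then (m : ℝ) else 1) * (N / (N + 1)) ^ m) with hf
  have e : ∀ K : ℕ, ∑ k : Box n K, thw n N (val k) * (val k j : ℝ)
      = ∏ i, ∑ m ∈ Finset.range (K + 1), f i m := by
    intro K
    simp only [Finset.sum_range]
    rw [Finset.prod_univ_sum, Fintype.piFinset_univ]
    refine Finset.sum_congr rfl fun k _ => ?_
    simp only [hf, Finset.prod_mul_distrib, Finset.prod_const, Finset.card_univ, Fintype.card_fin,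
      Finset.prod_ite_eq', Finset.mem_univ, if_true, Finset.prod_pow_eq_pow_sum, thw, tot, val]
    ring
  have hs : ∀ i, HasSum (f i) (if i = j then N else 1) := by
    intro i
    by_cases hi : i = j
    · have := (hasSum_coe_mul_geometric_of_norm_lt_one (r := N / (N + 1))
        (by rwa [Real.norm_of_nonneg hr0])).mul_left (N + 1)⁻¹
      have e2 : (N + 1)⁻¹ * (N / (N + 1) / (1 - N / (N + 1)) ^ 2) = N := by
        have : 1 - N / (N + 1) = (N + 1)⁻¹ := by field_simp; ring
        rw [this]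
        field_simp
      rw [e2] at this
      simpa only [hf, hi, if_true] using this
    · have := (hasSum_geometric_of_lt_one hr0 hr1).mul_left (N + 1)⁻¹
      have e2 : (N + 1)⁻¹ * (1 - N / (N + 1))⁻¹ = 1 := by
        have : 1 - N / (N + 1) = (N + 1)⁻¹ := by field_simp; ring
        rw [this]
        field_simp
      rw [e2] at this
      simpa only [hf, hi, if_false, one_mul] using this
  have ht := tendsto_finsetProd (Finset.univ : Finset (Fin n)) fun i _ =>
    (hs i).tendsto_sum_nat.comp (tendsto_add_atTop_nat 1)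
  rw [Finset.prod_ite_eq', if_pos (Finset.mem_univ _)] at ht
  simpa only [e, Function.comp_def] using ht

theorem tendsto_mass (hN : 0 < N) :
    Tendsto (fun K : ℕ => ∑ k : Box n K, thw n N (val k)) atTop (𝓝 1) := by
  have hr0 : 0 ≤ N / (N + 1) := by positivity
  have hr1 : N / (N + 1) < 1 := (div_lt_one (by linarith)).2 (by linarith)
  have h := (((tendsto_pow_atTop_nhds_zero_of_lt_one hr0 hr1).comp
    (tendsto_add_atTop_nat 1)).const_sub 1).pow n
  simp only [sub_zero, one_pow, Function.comp_def] at h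
  simpa only [sum_thw hN] using h

theorem tendsto_ent (hN : 0 < N) :
    Tendsto (fun K : ℕ => ∑ k : Box n K, thw n N (val k) * -Real.log (thw n N (val k))) atTop
      (𝓝 (n * g N)) := by
  have h1 := (tendsto_finsetSum (Finset.univ : Finset (Fin n)) fun j _ =>
    tendsto_energy hN j).const_mul (bt N)
  have h2 := (tendsto_mass (n := n) hN).const_mul (n * Real.log (N + 1))
  have h := h1.add h2
  have e : bt N * ∑ _j : Fin n, N + n * Real.log (N + 1) * 1 = n * g N := by
    rw [g_eq hN]
    simp only [Finset.sum_const, Finset.card_univ, Fintype.card_fin, nsmul_eq_mul]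
    ring
  rw [e] at h
  refine h.congr fun K => ?_
  rw [Finset.sum_comm, Finset.mul_sum, Finset.mul_sum, ← Finset.sum_add_distrib]
  refine Finset.sum_congr rfl fun k _ => ?_
  rw [log_thw hN, ← Finset.mul_sum, tot]
  push_cast
  ring

end Vale.Agent.P369.StabAux
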