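import Vale.Agent.P369.Interp

/-! Eigenbasis toolkit for the Stam inequality. -/

open Matrix
open scoped Matrix.Norms.L2Operator ComplexOrder Kronecker

set_option linter.unusedSectionVars false

namespace Vale.Agent.P369.StamAux

variable {ι A C D : Type} [Fintype ι] [DecidableEq ι] [Fintype A] [DecidableEq A]
  [Fintype C] [DecidableEq C] [Fintype D] [DecidableEq D]

/-- an eigenbasis of a positive definite matrix -/
structure Eig (ρ U : Matrix ι ι ℂ) (p : ι → ℝ) : Prop where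
  pd : ρ.PosDef
  l : Uᴴ * U = 1
  r : U * Uᴴ = 1
  pos : ∀ i, 0 < p i
  fc : ∀ f : ℝ → ℝ, Uᴴ * cfc f ρ * U = diagonal fun i => (f (p i) : ℂ)

theorem exists_eig {ρ : Matrix ι ι ℂ} (h : ρ.PosDef) : ∃ U p, Eig ρ U p := by
  have e1 : star (h.1.eigenvectorUnitary : Matrix ι ι ℂ) * (h.1.eigenvectorUnitary : Matrix ι ι ℂ)
      = 1 := Unitary.coe_star_mul_self _
  have e2 : (h.1.eigenvectorUnitary : Matrix ι ι ℂ) * star (h.1.eigenvectorUnitary : Matrix ι ι ℂ)
      = 1 := Unitary.coe_mul_star_self _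
  refine ⟨h.1.eigenvectorUnitary, h.1.eigenvalues, h, e1, e2, h.eigenvalues_pos, fun f => ?_⟩
  rw [h.1.cfc_eq, IsHermitian.cfc, Unitary.conjStarAlgAut_apply, ← star_eq_conjTranspose,
    ← mul_assoc, ← mul_assoc, e1, one_mul, mul_assoc, e1, mul_one]
  rfl

/-- coordinates in the basis `U` -/
noncomputable def tl (U X : Matrix ι ι ℂ) : Matrix ι ι ℂ := Uᴴ * X * U

/-- weighted square norm in the basis `U` -/
noncomputable def ws (U : Matrix ι ι ℂ) (w : ι × ι → ℝ) (X : Matrix ι ι ℂ) : ℝ :=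
  ∑ z : ι × ι, w z * ‖tl U X z.1 z.2‖ ^ 2

theorem tl_add (U X Y : Matrix ι ι ℂ) : tl U (X + Y) = tl U X + tl U Y := by
  simp only [tl, mul_add, add_mul]

theorem tl_sub (U X Y : Matrix ι ι ℂ) : tl U (X - Y) = tl U X - tl U Y := by
  simp only [tl, mul_sub, sub_mul]

theorem tl_smul (U X : Matrix ι ι ℂ) (c : ℂ) : tl U (c • X) = c • tl U X := by
  simp only [tl, mul_smul_comm, smul_mul_assoc]

theorem tl_rsmul (U X : Matrix ι ι ℂ) (c : ℝ) : tl U (c • X) = c • tl U X := by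
  simp only [tl, mul_smul_comm, smul_mul_assoc]

theorem tl_ct (U X : Matrix ι ι ℂ) : tl U Xᴴ = (tl U X)ᴴ := by
  simp only [tl, conjTranspose_mul, conjTranspose_conjTranspose, mul_assoc]

theorem trace_ct_mul (X Y : Matrix ι ι ℂ) :
    trace (Xᴴ * Y) = ∑ z : ι × ι, star (X z.1 z.2) * Y z.1 z.2 := by
  simp only [trace, diag_apply, mul_apply, conjTranspose_apply, Fintype.sum_prod_type]
  exact Finset.sum_comm

theorem ws_nonneg (U : Matrix ι ι ℂ) {w : ι × ι → ℝ} (hw : ∀ z, 0 ≤ w z) (X : Matrix ι ι ℂ) :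
    0 ≤ ws U w X := Finset.sum_nonneg fun z _ => mul_nonneg (hw z) (sq_nonneg _)

theorem ws_ct (U : Matrix ι ι ℂ) (w : ι × ι → ℝ) (X : Matrix ι ι ℂ) :
    ws U w Xᴴ = ws U (fun z => w z.swap) X := by
  rw [ws, ws, ← Equiv.sum_comp (Equiv.prodComm ι ι)]
  refine Finset.sum_congr rfl fun z _ => ?_
  simp only [tl_ct, conjTranspose_apply, norm_star, Equiv.prodComm_apply, Prod.fst_swap,
    Prod.snd_swap]

theorem ws_smul (U : Matrix ι ι ℂ) (c : ℝ) (w : ι × ι → ℝ) (X : Matrix ι ι ℂ) :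
    ws U (fun z => c * w z) X = c * ws U w X := by
  simp only [ws, Finset.mul_sum, mul_assoc]

theorem ws_add (U : Matrix ι ι ℂ) (w w' : ι × ι → ℝ) (X : Matrix ι ι ℂ) :
    ws U (fun z => w z + w' z) X = ws U w X + ws U w' X := by
  simp only [ws, add_mul, Finset.sum_add_distrib]

theorem re_star_mul (x : ℂ) (w : ℝ) : (star x * (w * x)).re = w * ‖x‖ ^ 2 := by
  rw [mul_left_comm, Complex.re_ofReal_mul, Complex.star_def, ← Complex.normSq_eq_conj_mul_self,
    Complex.ofReal_re, Complex.normSq_eq_norm_sq]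

theorem re_star_mul_le (x y : ℂ) : (star x * y).re ≤ ‖x‖ * ‖y‖ :=
  (Complex.re_le_norm _).trans (by rw [norm_mul, norm_star])

namespace Eig

variable {ρ U : Matrix ι ι ℂ} {p : ι → ℝ} (h : Eig ρ U p)
include h

theorem tl_mul (X Y : Matrix ι ι ℂ) : tl U (X * Y) = tl U X * tl U Y := by
  simp only [tl, mul_assoc]
  rw [← mul_assoc U, h.r, one_mul]

theorem tl_un (Z : Matrix ι ι ℂ) : tl U (U * Z * Uᴴ) = Z := by
  simp only [tl, mul_assoc]
  rw [h.l, mul_one, ← mul_assoc, h.l, one_mul]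

theorem un_tl (X : Matrix ι ι ℂ) : U * tl U X * Uᴴ = X := by
  simp only [tl, mul_assoc]
  rw [h.r, mul_one, ← mul_assoc, h.r, one_mul]

theorem trace_tl (X : Matrix ι ι ℂ) : trace (tl U X) = trace X := by
  rw [tl, trace_mul_cycle, h.r, one_mul]

theorem tl_self : tl U ρ = diagonal fun i => (p i : ℂ) := by
  have := h.fc fun x => x
  rwa [cfc_id' ℝ ρ h.pd.1.isSelfAdjoint] at this

theorem tl_mlog : tl U (mlog ρ) = diagonal fun i => (Real.log (p i) : ℂ) := h.fc Real.log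

theorem ip_eq (X Y : Matrix ι ι ℂ) :
    ip X Y = ∑ z : ι × ι, star (tl U X z.1 z.2) * tl U Y z.1 z.2 := by
  rw [ip, ← h.trace_tl, h.tl_mul, tl_ct, trace_ct_mul]

theorem ip_re {X Y : Matrix ι ι ℂ} {w : ι × ι → ℝ}
    (hw : ∀ z : ι × ι, tl U Y z.1 z.2 = w z * tl U X z.1 z.2) : (ip X Y).re = ws U w X := by
  rw [h.ip_eq, Complex.re_sum, ws]
  exact Finset.sum_congr rfl fun z _ => by rw [hw, re_star_mul]

theorem ws_right (X : Matrix ι ι ℂ) : ws U (fun z => p z.2) X = tr (ρ * (Xᴴ * X)) := by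
  rw [← h.ip_re (Y := X * ρ) fun z => by rw [h.tl_mul, h.tl_self, mul_diagonal, mul_comm]]
  rw [ip, tr, trace_mul_comm ρ, mul_assoc]

theorem ws_left (X : Matrix ι ι ℂ) : ws U (fun z => p z.1) X = tr (ρ * (X * Xᴴ)) := by
  have := h.ws_right Xᴴ
  rw [ws_ct, conjTranspose_conjTranspose] at this
  exact this

theorem tl_dlog (X : Matrix ι ι ℂ) (i j : ι) :
    tl U (dlog ρ X) i j = ((lm (p i) (p j))⁻¹ : ℝ) * tl U X i j := by
  obtain ⟨c, hc, hL⟩ := P371.LogD.exists_low h.pd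
  let L : Matrix ι ι ℂ →L[ℝ] ℂ := LinearMap.toContinuousLinearMap
    { toFun := fun X => tl U X i j
      map_add' := fun X Y => by rw [tl_add, Matrix.add_apply]
      map_smul' := fun r X => by rw [tl_rsmul, Matrix.smul_apply]; rfl }
  have e1 := L.integral_comp_comm (P371.LogD.integrable_RHR hc hL hL X)
  have e2 : tl U (dlog ρ X) i j = L (∫ l in Set.Ioi (0 : ℝ),
    P371.LogD.res ρ l * X * P371.LogD.res ρ l) := rfl
  rw [e2, ← e1, lm, inv_inv, ← integral_complex_ofReal, ← MeasureTheory.integral_mul_const]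
  refine MeasureTheory.setIntegral_congr_fun measurableSet_Ioi fun l hl => ?_
  have e3 : tl U (P371.LogD.res ρ l) = diagonal fun k => (((p k + l)⁻¹ : ℝ) : ℂ) := by
    rw [P371.LogD.res_eq hc hL (le_of_lt hl)]
    exact h.fc fun x => (x + l)⁻¹
  change tl U (P371.LogD.res ρ l * X * P371.LogD.res ρ l) i j = _
  rw [h.tl_mul, h.tl_mul, e3, mul_diagonal, diagonal_mul, add_comm l, add_comm l, mul_inv]
  push_cast
  ring

theorem ws_dlog {X : Matrix ι ι ℂ} (hX : X.IsHermitian) :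
    ws U (fun z => (lm (p z.1) (p z.2))⁻¹) X = tr (X * dlog ρ X) := by
  rw [← h.ip_re (Y := dlog ρ X) fun z => h.tl_dlog X z.1 z.2, ip, hX.eq, tr]

theorem tl_Zop (N : ℝ) (a : Matrix ι ι ℂ) (i j : ι) : tl U (Zop N ρ a) i j =
    ((1 - (bt N)⁻¹ * (Real.log (p i) - Real.log (p j)) : ℝ) : ℂ) * tl U a i j := by
  rw [Zop, cm, tl_add, tl_rsmul, tl_sub, h.tl_mul, h.tl_mul, h.tl_mlog, Matrix.add_apply, Matrix.smul_apply,
    Matrix.sub_apply, mul_diagonal, diagonal_mul, Complex.real_smul]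
  push_cast
  ring

theorem tl_wop {N : ℝ} (hN : 0 < N) (a : Matrix ι ι ℂ) (z : ι × ι) : tl U (wop N ρ a) z.1 z.2 =
    (Psi (bt N * N * lm (p z.1) (p z.2)) (bt N * (N + 1) * lm (p z.1) (p z.2)) (p z.1) (p z.2) : ℝ)
      * tl U (Zop N ρ a) z.1 z.2 := by
  rw [h.tl_Zop, ← mul_assoc, ← Complex.ofReal_mul, Psi_eq (h.pos _) (h.pos _) hN, wop, tl_sub,
    tl_rsmul, tl_rsmul, h.tl_mul, h.tl_mul, h.tl_self, Matrix.sub_apply, Matrix.smul_apply, Matrix.smul_apply,
    mul_diagonal, diagonal_mul, Complex.real_smul, Complex.real_smul]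
  push_cast
  ring

end Eig

theorem ws_par (U : Matrix ι ι ℂ) {w : ι × ι → ℝ} (hw : ∀ z, w z.swap = w z) (X : Matrix ι ι ℂ) :
    ws U w (X + Xᴴ) + ws U w (Complex.I • (X - Xᴴ)) = 4 * ws U w X := by
  have e := ws_ct U w X
  simp only [hw] at e
  have e2 : 4 * ws U w X = 2 * (ws U w X + ws U w Xᴴ) := by
    rw [e]; ring
  rw [e2]
  simp only [ws, ← Finset.sum_add_distrib, Finset.mul_sum]
  refine Finset.sum_congr rfl fun z _ => ?_
  rw [tl_smul, tl_add, tl_sub, Matrix.add_apply, Matrix.smul_apply, Matrix.sub_apply, norm_smul, Complex.norm_I, one_mul]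
  have := parallelogram_law_with_norm ℂ (tl U X z.1 z.2) (tl U Xᴴ z.1 z.2)
  rw [← mul_add, this]
  ring

/-- the centred adjoint of a linear map -/
noncomputable def Tm (Φ : Matrix A A ℂ →ₗ[ℂ] Matrix C C ℂ) (ρA : Matrix A A ℂ) :
    Matrix C C ℂ →ₗ[ℂ] Matrix A A ℂ where
  toFun G := (of fun i i' => trace (G * Φ (single i' i 1))) - trace (G * Φ ρA) • 1
  map_add' G G' := by
    ext i i'
    simp only [add_mul, trace_add, Matrix.sub_apply, of_apply, Matrix.smul_apply, Matrix.add_apply, add_smul]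
    ring
  map_smul' c G := by
    ext i i'
    simp only [smul_mul_assoc, trace_smul, Matrix.sub_apply, of_apply, Matrix.smul_apply, smul_eq_mul,
      RingHom.id_apply]
    ring

theorem trace_Tm (Φ : Matrix A A ℂ →ₗ[ℂ] Matrix C C ℂ) (ρA : Matrix A A ℂ) (G : Matrix C C ℂ)
    (X : Matrix A A ℂ) :
    trace (Tm Φ ρA G * X) = trace (G * Φ X) - trace (G * Φ ρA) * trace X := by
  change trace (((of fun i i' => trace (G * Φ (single i' i 1))) - trace (G * Φ ρA) • 1) * X) = _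
  rw [sub_mul, trace_sub, smul_mul_assoc, one_mul, trace_smul, smul_eq_mul]
  congr 1
  conv_rhs => rw [matrix_eq_sum_single X]
  simp only [map_sum, Finset.mul_sum, trace_sum]
  rw [Finset.sum_comm]
  simp only [trace, diag_apply, mul_apply (N := X), of_apply]
  refine Finset.sum_congr rfl fun i _ => Finset.sum_congr rfl fun j _ => ?_
  have : single j i (X j i) = X j i • single j i (1 : ℂ) := by rw [smul_single, smul_eq_mul, mul_one]
  rw [this, map_smul, mul_smul_comm, mul_comm, Finset.mul_sum]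
  rfl

theorem Tm_ct {Φ : Matrix A A ℂ →ₗ[ℂ] Matrix C C ℂ} (hΦ : ∀ X, Φ Xᴴ = (Φ X)ᴴ) {ρA : Matrix A A ℂ}
    (hA : ρA.IsHermitian) (G : Matrix C C ℂ) : Tm Φ ρA Gᴴ = (Tm Φ ρA G)ᴴ := by
  rw [ext_iff_trace_mul_right]
  intro X
  have e : ∀ Y : Matrix A A ℂ, trace (Gᴴ * Φ Y) = star (trace (G * Φ Yᴴ)) := fun Y => by
    rw [← trace_conjTranspose, conjTranspose_mul, hΦ, conjTranspose_conjTranspose, trace_mul_comm]
  have e2 : trace ((Tm Φ ρA G)ᴴ * X) = star (trace (Tm Φ ρA G * Xᴴ)) := by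
    rw [← trace_conjTranspose, conjTranspose_mul, conjTranspose_conjTranspose, trace_mul_comm]
  rw [trace_Tm, e2, trace_Tm, e, e, hA.eq, trace_conjTranspose, star_sub, star_mul', star_star]

theorem trace_Tm_self (Φ : Matrix A A ℂ →ₗ[ℂ] Matrix C C ℂ) {ρA : Matrix A A ℂ}
    (tA : trace ρA = 1) (G : Matrix C C ℂ) : trace (Tm Φ ρA G * ρA) = 0 := by
  rw [trace_Tm, tA, mul_one, sub_self]

theorem ip_Tm {Φ : Matrix A A ℂ →ₗ[ℂ] Matrix C C ℂ} (hΦ : ∀ X, Φ Xᴴ = (Φ X)ᴴ) {ρA : Matrix A A ℂ}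
    (hA : ρA.IsHermitian) (G : Matrix C C ℂ) {X : Matrix A A ℂ} (hX : trace X = 0) :
    ip (Tm Φ ρA G) X = ip G (Φ X) := by
  rw [ip, ip, ← Tm_ct hΦ hA, trace_Tm, hX, mul_zero, sub_zero]

/-- the bound for the logarithmic mean weights, by duality -/
theorem lm_bound {Φ : Matrix A A ℂ →ₗ[ℂ] Matrix C C ℂ} (hΦ : ∀ X, Φ Xᴴ = (Φ X)ᴴ)
    {ρA UA : Matrix A A ℂ} {pA : A → ℝ} (hA : Eig ρA UA pA) (tA : trace ρA = 1)
    {ρ U : Matrix C C ℂ} {p : C → ℝ} (h : Eig ρ U p) {α : ℝ} (hα : 0 ≤ α)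
    (H : ∀ X : Matrix A A ℂ, X.IsHermitian → trace X = 0 →
      tr (Φ X * dlog ρ (Φ X)) ≤ α * tr (X * dlog ρA X)) (G : Matrix C C ℂ) :
    ws UA (fun z => lm (pA z.1) (pA z.2)) (Tm Φ ρA G) ≤
      α * ws U (fun z => lm (p z.1) (p z.2)) G := by
  have H' : ∀ X : Matrix A A ℂ, trace X = 0 → ws U (fun z => (lm (p z.1) (p z.2))⁻¹) (Φ X) ≤
      α * ws UA (fun z => (lm (pA z.1) (pA z.2))⁻¹) X := by
    intro X hX
    have hX' : trace Xᴴ = 0 := by rw [trace_conjTranspose, hX, star_zero]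
    have s1 : ∀ {κ : Type} (Y : Matrix κ κ ℂ), (Y + Yᴴ).IsHermitian := fun Y =>
      isHermitian_add_transpose_self Y
    have s2 : ∀ {κ : Type} (Y : Matrix κ κ ℂ), (Complex.I • (Y - Yᴴ)).IsHermitian := fun Y => by
      rw [IsHermitian, conjTranspose_smul, conjTranspose_sub, conjTranspose_conjTranspose,
        Complex.star_def, Complex.conj_I, neg_smul, ← smul_neg, neg_sub]
    have a1 := H _ (s1 X) (by rw [trace_add, hX, hX', add_zero])
    have a2 := H _ (s2 X) (by rw [trace_smul, trace_sub, hX, hX', sub_zero, smul_zero])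
    rw [map_add, hΦ, ← h.ws_dlog (s1 _), ← hA.ws_dlog (s1 _)] at a1
    rw [map_smul, map_sub, hΦ, ← h.ws_dlog (s2 _), ← hA.ws_dlog (s2 _)] at a2
    have b1 := ws_par U (w := fun z => (lm (p z.1) (p z.2))⁻¹) (fun z => by
      rw [Prod.fst_swap, Prod.snd_swap, lm_comm]) (Φ X)
    have b2 := ws_par UA (w := fun z => (lm (pA z.1) (pA z.2))⁻¹) (fun z => by
      rw [Prod.fst_swap, Prod.snd_swap, lm_comm]) X
    have b3 := congrArg (α * ·) b2
    simp only [mul_add] at b3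
    linarith
  set Y := Tm Φ ρA G with hY
  let X : Matrix A A ℂ := UA * (of fun i j => (lm (pA i) (pA j) : ℂ) * tl UA Y i j) * UAᴴ
  have hX : ∀ i j, tl UA X i j = (lm (pA i) (pA j) : ℂ) * tl UA Y i j := fun i j => by
    rw [hA.tl_un, of_apply]
  have lA : ∀ z : A × A, 0 < lm (pA z.1) (pA z.2) := fun z => lm_pos (hA.pos _) (hA.pos _)
  have lC : ∀ z : C × C, 0 < lm (p z.1) (p z.2) := fun z => lm_pos (h.pos _) (h.pos _)
  have tX : trace X = 0 := by
    rw [← hA.trace_tl, ← trace_Tm_self Φ tA G, ← hY, ← hA.trace_tl (Y * ρA), hA.tl_mul Y,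
      hA.tl_self]
    simp only [trace, diag_apply, hX, mul_diagonal, lm_self (hA.pos _), mul_comm]
  have e1 : ws UA (fun z => (lm (pA z.1) (pA z.2))⁻¹) X = ws UA (fun z => lm (pA z.1) (pA z.2)) Y :=
    Finset.sum_congr rfl fun z _ => by
      rw [hX, norm_mul, Complex.norm_real, Real.norm_of_nonneg (lA z).le]
      have := (lA z).ne'
      field_simp
  have e2 : (ip G (Φ X)).re = ws UA (fun z => lm (pA z.1) (pA z.2)) Y := by
    rw [← ip_Tm hΦ hA.pd.1 G tX]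
    exact hA.ip_re fun z => hX z.1 z.2
  have c1 := H' X tX
  rw [e1] at c1
  set L := ws UA (fun z => lm (pA z.1) (pA z.2)) Y
  have L0 : 0 ≤ L := ws_nonneg _ (fun z => (lA z).le) _
  have G0 : 0 ≤ ws U (fun z => lm (p z.1) (p z.2)) G := ws_nonneg _ (fun z => (lC z).le) _
  have c2 : L ≤ ∑ z : C × C, ‖tl U G z.1 z.2‖ * ‖tl U (Φ X) z.1 z.2‖ := by
    rw [← e2, h.ip_eq, Complex.re_sum]
    exact Finset.sum_le_sum fun z _ => re_star_mul_le _ _
  have c3 : (∑ z : C × C, ‖tl U G z.1 z.2‖ * ‖tl U (Φ X) z.1 z.2‖) ^ 2 ≤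
      ws U (fun z => lm (p z.1) (p z.2)) G * ws U (fun z => (lm (p z.1) (p z.2))⁻¹) (Φ X) :=
    Finset.sum_sq_le_sum_mul_sum_of_sq_le_mul _
      (fun z _ => mul_nonneg (lC z).le (sq_nonneg _))
      (fun z _ => mul_nonneg (inv_pos.2 (lC z)).le (sq_nonneg _)) fun z _ => le_of_eq (by
        have := (lC z).ne'
        field_simp)
  have c4 : L ^ 2 ≤ ws U (fun z => lm (p z.1) (p z.2)) G * (α * L) :=
    (pow_le_pow_left₀ L0 c2 2).trans (c3.trans (mul_le_mul_of_nonneg_left c1 G0))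
  rcases L0.eq_or_lt with h0 | h0
  · rw [← h0]; exact mul_nonneg hα G0
  · refine le_of_mul_le_mul_right ?_ h0
    nlinarith

/-- Bessel type inequality -/
theorem bessel {σ : Matrix D D ℂ} (hσ : σ.PosSemidef) (S Y : Matrix D D ℂ)
    (h : trace (Sᴴ * Y * σ) = trace (Sᴴ * S * σ)) :
    (trace (Sᴴ * S * σ)).re ≤ (trace (Yᴴ * Y * σ)).re := by
  have h0 := (Complex.nonneg_iff.1 (hσ.mul_mul_conjTranspose_same (Y - S)).trace_nonneg).1
  have e1 : trace (Yᴴ * S * σ) = star (trace (Sᴴ * Y * σ)) := by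
    rw [← trace_conjTranspose, conjTranspose_mul, conjTranspose_mul, conjTranspose_conjTranspose,
      hσ.1.eq, trace_mul_comm]
  rw [trace_mul_cycle, conjTranspose_sub] at h0
  simp only [sub_mul, mul_sub, trace_sub, Complex.sub_re] at h0
  rw [e1, h, Complex.star_def, Complex.conj_re] at h0
  linarith

theorem tr_mul_nonneg {P R : Matrix D D ℂ} (hP : P.PosSemidef) (hR : R.PosSemidef) :
    0 ≤ (trace (P * R)).re := by
  open scoped MatrixOrder in
  obtain ⟨B, rfl⟩ := CStarAlgebra.nonneg_iff_eq_star_mul_self.1 hP.nonneg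
  have := (Complex.nonneg_iff.1 (hR.mul_mul_conjTranspose_same B).trace_nonneg).1
  rwa [trace_mul_cycle] at this

end Vale.Agent.P369.StamAux
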