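import Vale.Agent.P369.Interp
import Vale.Agent.P369.StamAux

open Matrix
open scoped Matrix.Norms.L2Operator ComplexOrder Kronecker

namespace Vale.Agent.P369

variable {ι A B C Q : Type} [Fintype ι] [DecidableEq ι] [Fintype A] [DecidableEq A]
  [Fintype B] [DecidableEq B] [Fintype C] [DecidableEq C] [Fintype Q] [DecidableEq Q]

namespace StamAux

/-- the channel with the second input fixed -/
noncomputable def chA (V : Matrix (C × Q) (A × B) ℂ) (ρB : Matrix B B ℂ) :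
    Matrix A A ℂ →ₗ[ℂ] Matrix C C ℂ where
  toFun X := out V (X ⊗ₖ ρB)
  map_add' X Y := by rw [add_kronecker, out_add]
  map_smul' c X := by rw [smul_kronecker, out_smul]; rfl

/-- the channel with the first input fixed -/
noncomputable def chB (V : Matrix (C × Q) (A × B) ℂ) (ρA : Matrix A A ℂ) :
    Matrix B B ℂ →ₗ[ℂ] Matrix C C ℂ where
  toFun X := out V (ρA ⊗ₖ X)
  map_add' X Y := by rw [kronecker_add, out_add]
  map_smul' c X := by rw [kronecker_smul, out_smul]; rfl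

omit [DecidableEq A] [DecidableEq B] [Fintype C] [DecidableEq C] [DecidableEq Q] in
theorem chA_ct (V : Matrix (C × Q) (A × B) ℂ) {ρB : Matrix B B ℂ} (hB : ρB.IsHermitian)
    (X : Matrix A A ℂ) : chA V ρB Xᴴ = (chA V ρB X)ᴴ := by
  change out V (Xᴴ ⊗ₖ ρB) = (out V (X ⊗ₖ ρB))ᴴ
  rw [← out_ct, conjTranspose_kronecker, hB.eq]

omit [DecidableEq A] [DecidableEq B] [Fintype C] [DecidableEq C] [DecidableEq Q] in
theorem chB_ct (V : Matrix (C × Q) (A × B) ℂ) {ρA : Matrix A A ℂ} (hA : ρA.IsHermitian)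
    (X : Matrix B B ℂ) : chB V ρA Xᴴ = (chB V ρA X)ᴴ := by
  change out V (ρA ⊗ₖ Xᴴ) = (out V (ρA ⊗ₖ X))ᴴ
  rw [← out_ct, conjTranspose_kronecker, hA.eq]

theorem gam_le {D : Type} [Fintype D] [DecidableEq D] {V : Matrix (C × Q) D ℂ} (hV : Vᴴ * V = 1)
    {σ : Matrix D D ℂ} (hσ : σ.PosSemidef) {ρ : Matrix C C ℂ} (hle : (ρ - out V σ).PosSemidef)
    (G : Matrix C C ℂ) : (trace ((Gam V G)ᴴ * Gam V G * σ)).re ≤ tr (ρ * (Gᴴ * G)) := by
  have p1 : (1 - V * Vᴴ).PosSemidef := by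
    have e : (1 - V * Vᴴ) = (1 - V * Vᴴ)ᴴ * (1 - V * Vᴴ) := by
      rw [conjTranspose_sub, conjTranspose_one, conjTranspose_mul, conjTranspose_conjTranspose,
        sub_mul, mul_sub, mul_sub, one_mul, one_mul, mul_one, Matrix.mul_assoc,
        ← Matrix.mul_assoc Vᴴ, hV, Matrix.one_mul, sub_self, sub_zero]
    rw [e]
    exact posSemidef_conjTranspose_mul_self _
  have p2 := p1.conjTranspose_mul_mul_same ((G ⊗ₖ (1 : Matrix Q Q ℂ)) * V)
  have e2 : ((G ⊗ₖ (1 : Matrix Q Q ℂ)) * V)ᴴ * (1 - V * Vᴴ) * ((G ⊗ₖ (1 : Matrix Q Q ℂ)) * V) =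
      Gam V (Gᴴ * G) - (Gam V G)ᴴ * Gam V G := by
    have e3 : (Gᴴ * G) ⊗ₖ (1 : Matrix Q Q ℂ) =
        (G ⊗ₖ (1 : Matrix Q Q ℂ))ᴴ * (G ⊗ₖ (1 : Matrix Q Q ℂ)) := by
      rw [conjTranspose_kronecker, ← mul_kronecker_mul, conjTranspose_one, Matrix.one_mul]
    simp only [Gam, e3, conjTranspose_mul, conjTranspose_conjTranspose, Matrix.mul_sub,
      Matrix.sub_mul, Matrix.mul_one, Matrix.mul_assoc]
  rw [e2] at p2
  have a1 := tr_mul_nonneg p2 hσ
  have a2 := tr_mul_nonneg hle (posSemidef_conjTranspose_mul_self G)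
  rw [sub_mul, trace_sub, Complex.sub_re, ← trace_mul_out] at a1
  rw [sub_mul, trace_sub, Complex.sub_re, trace_mul_comm (out V σ)] at a2
  rw [tr]
  linarith

theorem good_right {V : Matrix (C × Q) (A × B) ℂ} (hV : Vᴴ * V = 1) {ρA : Matrix A A ℂ}
    {ρB : Matrix B B ℂ} {ρ : Matrix C C ℂ} (hA : ρA.PosDef) (tA : trace ρA = 1) (hB : ρB.PosDef)
    (tB : trace ρB = 1) (hle : (ρ - out V (ρA ⊗ₖ ρB)).PosSemidef) (G : Matrix C C ℂ) :
    tr (ρA * ((Tm (chA V ρB) ρA G)ᴴ * Tm (chA V ρB) ρA G)) +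
      tr (ρB * ((Tm (chB V ρA) ρB G)ᴴ * Tm (chB V ρA) ρB G)) ≤ tr (ρ * (Gᴴ * G)) := by
  have hσ : (ρA ⊗ₖ ρB).PosSemidef := hA.posSemidef.kronecker hB.posSemidef
  refine le_trans ?_ (gam_le hV hσ hle G)
  have eA : ∀ X, trace (Gam V G * (X ⊗ₖ ρB)) =
      trace (Tm (chA V ρB) ρA G * X) + trace (G * chA V ρB ρA) * trace X := fun X => by
    rw [trace_Tm, sub_add_cancel, ← trace_mul_out]; rfl
  have eB : ∀ X, trace (Gam V G * (ρA ⊗ₖ X)) =
      trace (Tm (chB V ρA) ρB G * X) + trace (G * chB V ρA ρB) * trace X := fun X => by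
    rw [trace_Tm, sub_add_cancel, ← trace_mul_out]; rfl
  have zA := trace_Tm_self (chA V ρB) tA G
  have zB := trace_Tm_self (chB V ρA) tB G
  generalize Tm (chA V ρB) ρA G = YA at *
  generalize Tm (chB V ρA) ρB G = YB at *
  generalize trace (G * chA V ρB ρA) = m at *
  generalize trace (G * chB V ρA ρB) = m' at *
  have zA' : trace (YAᴴ * ρA) = 0 := by
    rw [← hA.1.eq, ← conjTranspose_mul, trace_conjTranspose, trace_mul_comm, zA, star_zero]
  have zB' : trace (YBᴴ * ρB) = 0 := by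
    rw [← hB.1.eq, ← conjTranspose_mul, trace_conjTranspose, trace_mul_comm, zB, star_zero]
  set E : Matrix A A ℂ := YA + m • 1 with hE
  have s1 : trace ((E ⊗ₖ (1 : Matrix B B ℂ) + (1 : Matrix A A ℂ) ⊗ₖ YB)ᴴ *
      (E ⊗ₖ (1 : Matrix B B ℂ) + (1 : Matrix A A ℂ) ⊗ₖ YB) * (ρA ⊗ₖ ρB)) =
      trace (Eᴴ * E * ρA) + trace (YBᴴ * YB * ρB) := by
    simp only [conjTranspose_add, conjTranspose_kronecker, conjTranspose_one, add_mul, mul_add,
      ← mul_kronecker_mul, trace_add, trace_kronecker, one_mul, mul_one, tA, tB, zB, zB', mul_zero,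
      add_zero, zero_add]
  have s2 : trace ((E ⊗ₖ (1 : Matrix B B ℂ) + (1 : Matrix A A ℂ) ⊗ₖ YB)ᴴ * Gam V G * (ρA ⊗ₖ ρB)) =
      trace (Eᴴ * E * ρA) + trace (YBᴴ * YB * ρB) := by
    rw [mul_assoc, trace_mul_comm, mul_assoc]
    simp only [conjTranspose_add, conjTranspose_kronecker, conjTranspose_one, mul_add,
      ← mul_kronecker_mul, trace_add, mul_one]
    rw [eA, eB, trace_mul_comm ρB, zB', mul_zero, add_zero, mul_assoc Eᴴ, trace_mul_comm Eᴴ,
      mul_assoc YBᴴ, trace_mul_comm YBᴴ, mul_assoc YB, mul_assoc E]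
    congr 1
    generalize ρA * Eᴴ = W
    rw [hE, add_mul, trace_add, smul_mul_assoc, one_mul, trace_smul, smul_eq_mul]
  have s3 : trace (Eᴴ * E * ρA) = trace (YAᴴ * YA * ρA) + star m * (((1 : ℝ) : ℂ) * m) := by
    simp only [hE, conjTranspose_add, conjTranspose_smul, conjTranspose_one, add_mul, mul_add,
      smul_mul_assoc, mul_smul_comm, one_mul, mul_one, trace_add, trace_smul, smul_eq_mul, zA, zA',
      tA, mul_zero, add_zero, zero_add, Complex.ofReal_one, smul_add]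
    ring
  have := bessel hσ _ (Gam V G) (s2.trans s1.symm)
  rw [s1, s3, Complex.add_re, Complex.add_re, re_star_mul] at this
  rw [tr, tr, trace_mul_comm ρA, trace_mul_comm ρB]
  nlinarith [sq_nonneg ‖m‖]

/-- the map that is interpolated -/
noncomputable def Tall (TA : Matrix C C ℂ →ₗ[ℂ] Matrix A A ℂ) (TB : Matrix C C ℂ →ₗ[ℂ] Matrix B B ℂ)
    (UA : Matrix A A ℂ) (UB : Matrix B B ℂ) (U : Matrix C C ℂ) :
    (C × C → ℂ) →ₗ[ℂ] ((A × A) ⊕ (B × B) → ℂ) where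
  toFun z := Sum.elim (fun y => tl UA (TA (U * (of fun i j => z (i, j)) * Uᴴ)) y.1 y.2)
    fun y => tl UB (TB (U * (of fun i j => z (i, j)) * Uᴴ)) y.1 y.2
  map_add' z w := by
    have e : (of fun i j => (z + w) (i, j)) = (of fun i j => z (i, j)) + of fun i j => w (i, j) :=
      rfl
    rw [e]
    ext (y | y) <;> simp only [mul_add, add_mul, map_add, tl_add, Sum.elim_inl, Sum.elim_inr,
      Pi.add_apply, Matrix.add_apply]
  map_smul' c z := by
    have e : (of fun i j => (c • z) (i, j)) = c • of fun i j => z (i, j) := rfl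
    rw [e]
    ext (y | y) <;> simp only [mul_smul_comm, smul_mul_assoc, map_smul, tl_smul, Sum.elim_inl,
      Sum.elim_inr, Pi.smul_apply, Matrix.smul_apply, RingHom.id_apply]

theorem good_iff (TA : Matrix C C ℂ →ₗ[ℂ] Matrix A A ℂ) (TB : Matrix C C ℂ →ₗ[ℂ] Matrix B B ℂ)
    (UA : Matrix A A ℂ) (UB : Matrix B B ℂ) {ρ U : Matrix C C ℂ} {p : C → ℝ} (h : Eig ρ U p)
    (f : (A × A) ⊕ (B × B) → ℝ) (F : C × C → ℝ) : Good (Tall TA TB UA UB U) f F ↔
      ∀ G, ws UA (fun y => f (Sum.inl y)) (TA G) + ws UB (fun y => f (Sum.inr y)) (TB G) ≤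
        ws U F G := by
  constructor
  · intro H G
    have := H fun y => tl U G y.1 y.2
    rw [Fintype.sum_sum_type] at this
    have e : U * (of fun i j => tl U G i j) * Uᴴ = G := h.un_tl G
    change ws UA _ (TA (U * (of fun i j => tl U G i j) * Uᴴ)) +
      ws UB _ (TB (U * (of fun i j => tl U G i j) * Uᴴ)) ≤ _ at this
    rwa [e] at this
  · intro H z
    have := H (U * (of fun i j => z (i, j)) * Uᴴ)
    rw [ws.eq_1 U, h.tl_un] at this
    rw [Fintype.sum_sum_type]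
    exact this

theorem young1 {x z : ℂ} {w θ : ℝ} (s : ℝ) (hw : 0 ≤ w) (hθ : 0 < θ) :
    2 * (s * (star x * (w * z)).re) ≤ θ⁻¹ * (w * ‖x‖ ^ 2) + θ * (s ^ 2 * (w * ‖z‖ ^ 2)) := by
  have h1 : s * (star x * z).re ≤ ‖x‖ * (|s| * ‖z‖) := by
    have := re_star_mul_le x (s * z)
    rwa [mul_left_comm, Complex.re_ofReal_mul, norm_mul, Complex.norm_real, Real.norm_eq_abs] at this
  have h2 : 2 * (‖x‖ * (|s| * ‖z‖)) ≤ θ⁻¹ * ‖x‖ ^ 2 + θ * (s ^ 2 * ‖z‖ ^ 2) := by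
    have h3 := mul_nonneg (inv_pos.2 hθ).le (sq_nonneg (‖x‖ - θ * (|s| * ‖z‖)))
    have h4 : θ⁻¹ * (‖x‖ - θ * (|s| * ‖z‖)) ^ 2 =
        θ⁻¹ * ‖x‖ ^ 2 + θ * (|s| ^ 2 * ‖z‖ ^ 2) - 2 * (‖x‖ * (|s| * ‖z‖)) := by
      field_simp
      ring
    rw [h4, sq_abs] at h3
    linarith
  rw [mul_left_comm (star x), Complex.re_ofReal_mul]
  nlinarith [mul_le_mul_of_nonneg_left h1 hw, mul_le_mul_of_nonneg_left h2 hw]

theorem young2 {x z : ℂ} {w r : ℝ} (hr : 0 < r) :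
    2 * (star x * (w * z)).re - r * ‖x‖ ^ 2 ≤ w ^ 2 / r * ‖z‖ ^ 2 := by
  have h1 := re_star_mul_le x (w * z)
  rw [norm_mul, Complex.norm_real, Real.norm_eq_abs] at h1
  have h3 := mul_nonneg (inv_pos.2 hr).le (sq_nonneg (r * ‖x‖ - |w| * ‖z‖))
  have h4 : r⁻¹ * (r * ‖x‖ - |w| * ‖z‖) ^ 2 =
      r * ‖x‖ ^ 2 + |w| ^ 2 / r * ‖z‖ ^ 2 - 2 * (‖x‖ * (|w| * ‖z‖)) := by
    field_simp
    ring
  rw [h4, sq_abs] at h3
  linarith

/-- the weight of one mode -/
noncomputable def psi (N : ℝ) (p : ι → ℝ) (z : ι × ι) : ℝ :=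
  Psi (bt N * N * lm (p z.1) (p z.2)) (bt N * (N + 1) * lm (p z.1) (p z.2)) (p z.1) (p z.2)

theorem psi_pos {ρ U : Matrix ι ι ℂ} {p : ι → ℝ} (h : Eig ρ U p) {N : ℝ} (hN : 0 < N) (z : ι × ι) :
    0 < psi N p z := by
  have := bt_pos hN
  have := lm_pos (h.pos z.1) (h.pos z.2)
  exact Psi_pos (by positivity) (by positivity) (h.pos _) (h.pos _)

theorem ip_Zw {ρ U : Matrix ι ι ℂ} {p : ι → ℝ} (h : Eig ρ U p) {N : ℝ} (hN : 0 < N)
    (a : Matrix ι ι ℂ) : (ip (Zop N ρ a) (wop N ρ a)).re = ws U (psi N p) (Zop N ρ a) :=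
  h.ip_re fun z => h.tl_wop hN a z

theorem cross1 {ρ U : Matrix ι ι ℂ} {p : ι → ℝ} (h : Eig ρ U p) {N : ℝ} (hN : 0 < N)
    (a X : Matrix ι ι ℂ) (s : ℝ) {θ : ℝ} (hθ : 0 < θ) :
    2 * (s * (ip X (wop N ρ a)).re) ≤
      θ⁻¹ * ws U (psi N p) X + θ * (s ^ 2 * (ip (Zop N ρ a) (wop N ρ a)).re) := by
  rw [ip_Zw h hN, h.ip_eq, Complex.re_sum]
  simp only [ws, Finset.mul_sum, ← Finset.sum_add_distrib]
  refine Finset.sum_le_sum fun z _ => ?_
  rw [h.tl_wop hN]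
  exact young1 s (psi_pos h hN z).le hθ

theorem cross2 {ρ U : Matrix ι ι ℂ} {p : ι → ℝ} (h : Eig ρ U p) {N : ℝ} (hN : 0 < N)
    (a X : Matrix ι ι ℂ) : 2 * (ip X (wop N ρ a)).re - tr (ρ * (Xᴴ * X + X * Xᴴ)) ≤
      ws U (fun z => psi N p z ^ 2 / (p z.1 + p z.2)) (Zop N ρ a) := by
  rw [mul_add, P371.LogD.tr_add, ← h.ws_right, ← h.ws_left, add_comm, ← ws_add, h.ip_eq,
    Complex.re_sum]
  simp only [ws, Finset.mul_sum, ← Finset.sum_sub_distrib]
  refine Finset.sum_le_sum fun z _ => ?_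
  rw [h.tl_wop hN]
  exact young2 (add_pos (h.pos _) (h.pos _))

omit [DecidableEq ι] in
theorem trace_wop {ρ a : Matrix ι ι ℂ} (N : ℝ) (h : trace (a * ρ) = 0) : trace (wop N ρ a) = 0 := by
  rw [wop, trace_sub, trace_smul, trace_smul, trace_mul_comm ρ, h, smul_zero, smul_zero, sub_zero]

end StamAux

open StamAux in
theorem stam (V : Matrix (C × Q) (A × B) ℂ) (hV : Vᴴ * V = 1) {ρA : Matrix A A ℂ}
    {ρB : Matrix B B ℂ} {ρ : Matrix C C ℂ} (hA : ρA.PosDef) (tA : trace ρA = 1) (hB : ρB.PosDef)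
    (tB : trace ρB = 1) (hρ : ρ.PosDef) (hle : (ρ - out V (ρA ⊗ₖ ρB)).PosSemidef)
    {NA NB NC η θ : ℝ} (hNA : 0 < NA) (hNB : 0 < NB) (h0 : 0 ≤ η) (h1 : η ≤ 1)
    (hNC : NC = η * NA + (1 - η) * NB) (hθ : 1 ≤ θ)
    (HA : ∀ D : Matrix A A ℂ, D.IsHermitian → trace D = 0 →
      (bt NC)⁻¹ * tr (out V (D ⊗ₖ ρB) * dlog ρ (out V (D ⊗ₖ ρB))) ≤
        θ * η * (bt NA)⁻¹ * tr (D * dlog ρA D))
    (HB : ∀ D : Matrix B B ℂ, D.IsHermitian → trace D = 0 →
      (bt NC)⁻¹ * tr (out V (ρA ⊗ₖ D) * dlog ρ (out V (ρA ⊗ₖ D))) ≤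
        θ * (1 - η) * (bt NB)⁻¹ * tr (D * dlog ρB D))
    (a : Matrix A A ℂ) (b : Matrix B B ℂ) (c H : Matrix C C ℂ) (s t : ℝ)
    (ha : trace (a * ρA) = 0) (hb : trace (b * ρB) = 0) :
    2 * (ip (Gam V (Zop NC ρ c)) (s • (wop NA ρA a ⊗ₖ ρB) + t • (ρA ⊗ₖ wop NB ρB b))).re +
      (θ - 1) / θ * (2 * (ip H (wop NC ρ c)).re - tr (ρ * (Hᴴ * H + H * Hᴴ))) ≤
    (ip (Zop NC ρ c) (wop NC ρ c)).re + θ * (s ^ 2 * (ip (Zop NA ρA a) (wop NA ρA a)).re +
      t ^ 2 * (ip (Zop NB ρB b) (wop NB ρB b)).re) := by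
  obtain ⟨UA, pA, eA⟩ := exists_eig hA
  obtain ⟨UB, pB, eB⟩ := exists_eig hB
  obtain ⟨U, p, e⟩ := exists_eig hρ
  have hθ0 : 0 < θ := by linarith
  have h1' : 0 ≤ 1 - η := by linarith
  have hC : 0 < NC := by
    rw [hNC]
    rcases h0.eq_or_lt with h | h
    · rw [← h]; linarith
    · have := mul_pos h hNA
      have := mul_nonneg h1' hNB.le
      linarith
  have bA := bt_pos hNA
  have bB := bt_pos hNB
  have bC := bt_pos hC
  set TA := Tm (chA V ρB) ρA with hTA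
  set TB := Tm (chB V ρA) ρB with hTB
  have lA : ∀ G, bt NA * ws UA (fun z => lm (pA z.1) (pA z.2)) (TA G) ≤
      θ * η * bt NC * ws U (fun z => lm (p z.1) (p z.2)) G := fun G => by
    have := lm_bound (chA_ct V hB.1) eA tA e (α := bt NC * (θ * η * (bt NA)⁻¹)) (by positivity)
      (fun X hX tX => by
        have := mul_le_mul_of_nonneg_left (HA X hX tX) bC.le
        rwa [mul_inv_cancel_left₀ bC.ne', ← mul_assoc] at this) G
    refine (mul_le_mul_of_nonneg_left this bA.le).trans (le_of_eq ?_)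
    field_simp
  have lB : ∀ G, bt NB * ws UB (fun z => lm (pB z.1) (pB z.2)) (TB G) ≤
      θ * (1 - η) * bt NC * ws U (fun z => lm (p z.1) (p z.2)) G := fun G => by
    have := lm_bound (chB_ct V hA.1) eB tB e (α := bt NC * (θ * (1 - η) * (bt NB)⁻¹))
      (by positivity) (fun X hX tX => by
        have := mul_le_mul_of_nonneg_left (HB X hX tX) bC.le
        rwa [mul_inv_cancel_left₀ bC.ne', ← mul_assoc] at this) G
    refine (mul_le_mul_of_nonneg_left this bB.le).trans (le_of_eq ?_)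
    field_simp
  have mA : ∀ z : A × A, 0 < lm (pA z.1) (pA z.2) := fun z => lm_pos (eA.pos _) (eA.pos _)
  have mB : ∀ z : B × B, 0 < lm (pB z.1) (pB z.2) := fun z => lm_pos (eB.pos _) (eB.pos _)
  have mC : ∀ z : C × C, 0 < lm (p z.1) (p z.2) := fun z => lm_pos (e.pos _) (e.pos _)
  have gf : ∀ r : ℝ, 0 ≤ r → Good (Tall TA TB UA UB U)
      (Sum.elim (fun z => bt NA * (NA + r) * lm (pA z.1) (pA z.2))
        fun z => bt NB * (NB + r) * lm (pB z.1) (pB z.2))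
      fun z => θ * (bt NC * (NC + r) * lm (p z.1) (p z.2)) := fun r hr => by
    rw [good_iff _ _ _ _ e]
    intro G
    simp only [Sum.elim_inl, Sum.elim_inr]
    rw [ws_smul, ws_smul, ws_smul, ws_smul]
    have a1 := mul_le_mul_of_nonneg_left (lA G) (show 0 ≤ NA + r by positivity)
    have a2 := mul_le_mul_of_nonneg_left (lB G) (show 0 ≤ NB + r by positivity)
    have a3 : NC + r = η * (NA + r) + (1 - η) * (NB + r) := by rw [hNC]; ring
    rw [a3]
    linarith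
  have g0 := gf 0 le_rfl
  simp only [add_zero] at g0
  have g1 := gf 1 zero_le_one
  have g3 : Good (Tall TA TB UA UB U) (Sum.elim (fun z => pA z.2) fun z => pB z.2)
      fun z => p z.2 := by
    rw [good_iff _ _ _ _ e]
    intro G
    simp only [Sum.elim_inl, Sum.elim_inr]
    rw [eA.ws_right, eB.ws_right, e.ws_right]
    exact good_right hV hA tA hB tB hle G
  have g2 : Good (Tall TA TB UA UB U) (Sum.elim (fun z => pA z.1) fun z => pB z.1)
      fun z => p z.1 := by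
    rw [good_iff _ _ _ _ e]
    intro G
    simp only [Sum.elim_inl, Sum.elim_inr]
    rw [eA.ws_left, eB.ws_left, e.ws_left]
    have := good_right hV hA tA hB tB hle Gᴴ
    rwa [Tm_ct (chA_ct V hB.1) hA.1, Tm_ct (chB_ct V hA.1) hB.1, conjTranspose_conjTranspose,
      conjTranspose_conjTranspose, conjTranspose_conjTranspose] at this
  have key := interp (Tall TA TB UA UB U)
    (by
      rintro (z | z)
      · have := mA z; simp only [Sum.elim_inl]; positivity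
      · have := mB z; simp only [Sum.elim_inr]; positivity)
    (by
      rintro (z | z)
      · have := mA z; simp only [Sum.elim_inl]; positivity
      · have := mB z; simp only [Sum.elim_inr]; positivity)
    (by rintro (z | z); exacts [eA.pos _, eB.pos _])
    (by rintro (z | z); exacts [eA.pos _, eB.pos _])
    (fun z => by have := mC z; positivity) (fun z => by have := mC z; positivity)
    (fun z => e.pos _) (fun z => e.pos _) hθ g0 g1 g2 g3
  rw [good_iff _ _ _ _ e] at key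
  have k1 : ws UA (psi NA pA) (TA (Zop NC ρ c)) + ws UB (psi NB pB) (TB (Zop NC ρ c)) ≤
      ws U (fun z => θ * psi NC p z + -(θ - 1) * (psi NC p z ^ 2 / (p z.1 + p z.2)))
        (Zop NC ρ c) := by
    have := key (Zop NC ρ c)
    simp only [neg_mul, ← sub_eq_add_neg]
    exact this
  rw [ws_add, ws_smul, ws_smul, ← ip_Zw e hC] at k1
  have c1 := cross1 eA hNA a (TA (Zop NC ρ c)) s hθ0
  have c2 := cross1 eB hNB b (TB (Zop NC ρ c)) t hθ0
  have c3 := cross2 e hC c H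
  have e1 : (ip (Gam V (Zop NC ρ c)) (s • (wop NA ρA a ⊗ₖ ρB) + t • (ρA ⊗ₖ wop NB ρB b))).re =
      s * (ip (TA (Zop NC ρ c)) (wop NA ρA a)).re + t * (ip (TB (Zop NC ρ c)) (wop NB ρB b)).re := by
    rw [hTA, hTB, ip_Tm (chA_ct V hB.1) hA.1 _ (trace_wop NA ha),
      ip_Tm (chB_ct V hA.1) hB.1 _ (trace_wop NB hb), ip, ip, ip, ← Gam_ct, mul_add,
      mul_smul_comm, mul_smul_comm, trace_add, trace_smul, trace_smul, ← trace_mul_out,
      ← trace_mul_out, Complex.add_re, Complex.smul_re, Complex.smul_re]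
    rfl
  rw [e1]
  have c4 := mul_le_mul_of_nonneg_left c3 (show 0 ≤ (θ - 1) / θ from div_nonneg (by linarith) hθ0.le)
  have k2 := mul_le_mul_of_nonneg_left k1 (inv_pos.2 hθ0).le
  rw [mul_add, mul_add, inv_mul_cancel_left₀ hθ0.ne'] at k2
  rw [div_eq_inv_mul] at c4 ⊢
  linarith

end Vale.Agent.P369
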