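import Vale.Agent.P369.BoxRel
import Vale.Agent.P369.Ent

open Matrix
open scoped Matrix.Norms.L2Operator ComplexOrder Kronecker

namespace Vale.Agent.P369

variable {n L : ℕ} {N : ℝ}

theorem thw_pos (hN : 0 < N) (k : Idx n) : 0 < thw n N k := by
  unfold thw; positivity

namespace ThermAux

theorem bt_eq (hN : 0 < N) : bt N = Real.log (N + 1) - Real.log N := by
  rw [bt, ← Real.log_div (by linarith) hN.ne']
  congr 1
  field_simp

theorem tot_add (k : Idx n) (j : Fin n) : tot (k + ee j) = tot k + 1 := by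
  simp [tot, ee, Finset.sum_add_distrib]

theorem le_tot (k : Idx n) (j : Fin n) : k j ≤ tot k :=
  Finset.single_le_sum (f := k) (fun _ _ => Nat.zero_le _) (Finset.mem_univ j)

theorem tot_le (k : Box n L) : tot (val k) ≤ n * L := by
  have := Finset.sum_le_card_nsmul Finset.univ (val k) L fun j _ => val_le k j
  simpa [tot] using this

theorem smul_dg (c : ℝ) (f : Idx n → ℝ) : c • dg L f = dg L fun k => c * f k := by
  ext i j
  by_cases h : i = j
  · subst h; simp [dg]
  · simp [dg, h]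

theorem dg_mul (f f' : Idx n → ℝ) : dg L f * dg L f' = dg L fun k => f k * f' k := by
  simp only [dg, diagonal_mul_diagonal, Complex.ofReal_mul]

theorem dg_sub (f f' : Idx n → ℝ) : dg L f - dg L f' = dg L fun k => f k - f' k := by
  simp only [dg, diagonal_sub, Complex.ofReal_sub]

theorem dg_one : dg L (fun _ : Idx n => (1 : ℝ)) = 1 := by
  simp [dg]

theorem dg_psd {f : Idx n → ℝ} (h : ∀ k : Box n L, 0 ≤ f (val k)) : (dg L f).PosSemidef :=
  PosSemidef.diagonal fun k => Complex.zero_le_real.2 (h k)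

theorem dg_pd {f : Idx n → ℝ} (h : ∀ k, 0 < f k) : (dg L f).PosDef :=
  PosDef.diagonal fun _ => Complex.zero_lt_real.2 (h _)

theorem tr_dg' (f : Idx n → ℝ) : tr (dg L f) = ∑ k : Box n L, f (val k) :=
  EntAux.tr_diagonal _

end ThermAux

open ThermAux

theorem log_thw (hN : 0 < N) (k : Idx n) :
    Real.log (thw n N k) = -(bt N * tot k + n * Real.log (N + 1)) := by
  rw [thw, Real.log_mul (by positivity) (by positivity), Real.log_pow, Real.log_pow, Real.log_inv,
    Real.log_div hN.ne' (by positivity), bt_eq hN]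
  ring

theorem g_eq (hN : 0 < N) : g N = bt N * N + Real.log (N + 1) := by
  rw [g, bt_eq hN]
  ring

theorem th_posDef (hN : 0 < N) : (dg L (thw n N)).PosDef := dg_pd (thw_pos hN)

theorem sum_thw (hN : 0 < N) :
    ∑ k : Box n L, thw n N (val k) = (1 - (N / (N + 1)) ^ (L + 1)) ^ n := by
  have e : ∑ i : Fin (L + 1), (N + 1)⁻¹ * (N / (N + 1)) ^ (i : ℕ) =
      1 - (N / (N + 1)) ^ (L + 1) := by
    rw [← Finset.mul_sum, Fin.sum_univ_eq_sum_range (fun i => (N / (N + 1)) ^ i),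
      ← mul_neg_geom_sum]
    congr 1
    field_simp
    ring
  rw [← e, Fintype.sum_pow]
  refine Finset.sum_congr rfl fun k _ => ?_
  rw [Finset.prod_mul_distrib, Finset.prod_const, Finset.prod_pow_eq_pow_sum, Finset.card_univ,
    Fintype.card_fin]
  rfl

namespace ThermAux

theorem sum_thw_le (hN : 0 < N) : ∑ k : Box n L, thw n N (val k) ≤ 1 := by
  rw [sum_thw hN]
  have h1 : 0 ≤ (N / (N + 1)) ^ (L + 1) := by positivity
  have h2 : (N / (N + 1)) ^ (L + 1) ≤ 1 :=
    pow_le_one₀ (by positivity) ((div_le_one (by positivity)).2 (by linarith))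
  exact pow_le_one₀ (by linarith) (by linarith)

theorem moment (n : ℕ) (hN : 0 < N) : ∃ K : ℝ, 0 ≤ K ∧ ∀ L : ℕ,
    ∑ k : Box n L, thw n N (val k) * (1 + (tot (val k) : ℝ)) ^ 2 ≤ K := by
  obtain ⟨q, hq⟩ : ∃ q : ℝ, q = 2 * (N + 1) / (2 * N + 1) := ⟨_, rfl⟩
  have hq1 : 1 < q := by rw [hq, lt_div_iff₀ (by positivity)]; linarith
  have hε := Real.log_pos hq1
  obtain ⟨C, hC⟩ : ∃ C : ℝ, C = 1 + 2 / Real.log q + 2 / Real.log q ^ 2 := ⟨_, rfl⟩
  have hC0 : 0 ≤ C := by rw [hC]; positivity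
  have hb : ∀ t : ℕ, (1 + (t : ℝ)) ^ 2 ≤ C * q ^ t := fun t => by
    have h1 := Real.quadratic_le_exp_of_nonneg (x := t * Real.log q) (by positivity)
    rw [Real.exp_nat_mul, Real.exp_log (by linarith)] at h1
    refine le_trans ?_ (mul_le_mul_of_nonneg_left h1 hC0)
    generalize Real.log q = ε at hε hC
    have a1 : 1 ≤ C := by
      rw [hC]; have : 0 ≤ 2 / ε + 2 / ε ^ 2 := by positivity
      linarith
    have a2 : 2 ≤ C * ε := by
      rw [← div_le_iff₀ hε, hC]; have : 0 ≤ 1 + 2 / ε ^ 2 := by positivity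
      linarith
    have a3 : 2 ≤ C * ε ^ 2 := by
      rw [← div_le_iff₀ (by positivity), hC]; have : 0 ≤ 1 + 2 / ε := by positivity
      linarith
    have ht : (0 : ℝ) ≤ t := Nat.cast_nonneg t
    nlinarith [mul_le_mul_of_nonneg_left a2 ht, mul_le_mul_of_nonneg_left a3 (sq_nonneg (t : ℝ))]
  refine ⟨C * ((2 * N + 1) / (N + 1)) ^ n, by positivity, fun L => ?_⟩
  have h2 := mul_le_mul_of_nonneg_left (sum_thw_le (n := n) (L := L) (N := 2 * N) (by positivity))
    (show 0 ≤ C * ((2 * N + 1) / (N + 1)) ^ n by positivity)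
  rw [mul_one, Finset.mul_sum] at h2
  refine le_trans (Finset.sum_le_sum fun k _ => ?_) h2
  refine (mul_le_mul_of_nonneg_left (hb _) (thw_pos hN _).le).trans (le_of_eq ?_)
  have e1 : (2 * N + 1) / (N + 1) * (2 * N + 1)⁻¹ = (N + 1)⁻¹ := by field_simp
  have e2 : N / (N + 1) * q = 2 * N / (2 * N + 1) := by rw [hq]; field_simp
  rw [thw, thw, ← e1, ← e2, mul_pow, mul_pow]
  ring

end ThermAux

theorem tr_th_le (hN : 0 < N) : tr (dg L (thw n N)) ≤ 1 := by
  rw [tr_dg']
  exact sum_thw_le hN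

theorem wop_th (hN : 0 < N) (j : Fin n) : wop N (dg L (thw n N)) (ann n L j) = 0 := by
  rw [wop, ann_mul_dg, ← Matrix.smul_mul, ← Matrix.smul_mul, smul_dg, smul_dg, sub_eq_zero]
  congr 2
  funext k
  rw [thw, thw, tot_add, pow_succ]
  field_simp

theorem gibbs_th (hN : 0 < N) {ρ : Matrix (Box n L) (Box n L) ℂ} (hρ : ρ ∈ Dens (Box n L)) :
    Sf ρ ≤ bt N * tr (dg L (fun k => (tot k : ℝ)) * ρ) + n * Real.log (N + 1) := by
  have h := gibbs hρ.1 fun k => -1 - Real.log (thw n N (val k))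
  have h1 : ∑ k, (ρ k k).re = 1 := by
    have := congrArg Complex.re hρ.2
    simpa [trace] using this
  have e : ∀ k : Box n L, (-1 - Real.log (thw n N (val k))) * (ρ k k).re +
      Real.exp (-1 - (-1 - Real.log (thw n N (val k)))) =
      bt N * (tot (val k) * (ρ k k).re) + (n * Real.log (N + 1) - 1) * (ρ k k).re +
        thw n N (val k) := fun k => by
    rw [sub_sub_cancel, Real.exp_log (thw_pos hN _), log_thw hN]
    ring
  simp only [e, Finset.sum_add_distrib, ← Finset.mul_sum, h1] at h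
  rw [tr_dg]
  linarith [sum_thw_le (n := n) (L := L) hN]

namespace ThermAux

theorem pd_of (hN : 0 < N) {δ : ℝ} (h0 : 0 < δ) {ρ : Matrix (Box n L) (Box n L) ℂ}
    (h : (ρ - δ • dg L (thw n N)).PosSemidef) : ρ.PosDef := by
  have := PosDef.posSemidef_add h ((th_posDef hN).smul h0)
  rwa [sub_add_cancel] at this

theorem log_le_one {x : ℝ} (h0 : 0 < x) (h : x ≤ 2) : Real.log x ≤ 1 := by
  linarith [Real.log_le_sub_one_of_pos h0]

theorem one_sub_psd {ρ : Matrix (Box n L) (Box n L) ℂ} (hρ : ρ.PosDef) (ht : tr ρ ≤ 2) :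
    (1 - mlog ρ).PosSemidef := by
  obtain ⟨U, h1, h2, e⟩ := EntAux.spec hρ.1
  have hp := hρ.eigenvalues_pos
  have hq := fun i => (EntAux.eig_le_tr hρ.posSemidef i).trans ht
  generalize hρ.1.eigenvalues = p at e hp hq
  have h3 := EntAux.conj_psd U (q := fun i => -Real.log (p i) + 1) fun i => by
    linarith [log_le_one (hp i) (hq i)]
  rw [← EntAux.conj_add_smul h2, one_smul] at h3
  rw [e, mlog, EntAux.cfc_conj h1 h2, sub_eq_neg_add, ← Matrix.neg_mul, ← Matrix.mul_neg,
    diagonal_neg]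
  simpa only [Complex.ofReal_neg] using h3

theorem cs_tr {ι : Type} [Fintype ι] [DecidableEq ι] {T X : Matrix ι ι ℂ} (hT : T.PosSemidef)
    (hX : X.PosSemidef) (a : Matrix ι ι ℂ) :
    2 * ‖trace (T * a * X)‖ ≤ tr (T * X) + tr (aᴴ * T * a * X) := by
  obtain ⟨w, hw, e2⟩ := Complex.exists_norm_eq_mul_self (trace (T * a * X))
  have h := tr_mul_nonneg (hT.conjTranspose_mul_mul_same (1 - w • a)) hX
  have hww : w * star w = 1 := by
    rw [Complex.star_def, Complex.mul_conj, Complex.normSq_eq_norm_sq, hw]; simp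
  have e1 : trace (aᴴ * T * X) = star (trace (T * a * X)) := by
    rw [← trace_conjTranspose, conjTranspose_mul, conjTranspose_mul, hX.1.eq, hT.1.eq,
      trace_mul_comm X]
  have e3 : star w * trace (aᴴ * T * X) = (‖trace (T * a * X)‖ : ℂ) := by
    rw [e1, ← star_mul', ← e2, Complex.star_def, Complex.conj_ofReal]
  simp only [conjTranspose_sub, conjTranspose_one, conjTranspose_smul, Matrix.sub_mul,
    Matrix.mul_sub, Matrix.mul_one, Matrix.smul_mul, Matrix.mul_smul,
    tr, trace_sub, trace_smul, smul_eq_mul, e3, one_mul] at h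
  rw [mul_sub, ← mul_assoc, hww, one_mul, ← e2] at h
  simp only [Complex.sub_re, Complex.ofReal_re] at h
  simp only [tr]
  linarith

end ThermAux

theorem norm_mlog_le (hN : 0 < N) {δ : ℝ} (h0 : 0 < δ) (h1 : δ ≤ 1)
    {ρ : Matrix (Box n L) (Box n L) ℂ} (h : (ρ - δ • dg L (thw n N)).PosSemidef)
    (ht : tr ρ ≤ 2) :
    ‖mlog ρ‖ ≤ 1 + Real.log (1 / δ) + n * Real.log (N + 1) + bt N * (n * L) := by
  have hρ := pd_of hN h0 h
  have a1 : 0 ≤ Real.log (1 / δ) := Real.log_nonneg ((one_le_div h0).2 h1)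
  have a2 : 0 ≤ n * Real.log (N + 1) := mul_nonneg (Nat.cast_nonneg _) (Real.log_nonneg (by linarith))
  have hb := bt_pos hN
  have a3 : 0 ≤ bt N * (n * L) := by positivity
  obtain ⟨m, hm⟩ : ∃ m, m = Real.exp (-(Real.log (1 / δ) + n * Real.log (N + 1) +
    bt N * (n * L))) := ⟨_, rfl⟩
  have hm0 : 0 < m := hm ▸ Real.exp_pos _
  have h2 : (ρ - m • (1 : Matrix (Box n L) (Box n L) ℂ)).PosSemidef := by
    have h3 : (δ • dg L (thw n N) - m • (1 : Matrix (Box n L) (Box n L) ℂ)).PosSemidef := by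
      rw [← dg_one, smul_dg, smul_dg, dg_sub]
      refine dg_psd fun k => ?_
      rw [mul_one, sub_nonneg, hm, ← Real.le_log_iff_exp_le (mul_pos h0 (thw_pos hN _)),
        Real.log_mul h0.ne' (thw_pos hN _).ne', log_thw hN, one_div, Real.log_inv]
      have h4 : (tot (val k) : ℝ) ≤ n * L := by exact_mod_cast tot_le k
      linarith [mul_le_mul_of_nonneg_left h4 hb.le]
    have := h.add h3
    rwa [sub_add_sub_cancel] at this
  refine norm_cfc_le (by linarith) fun x hx => ?_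
  rw [hρ.1.spectrum_real_eq_range_eigenvalues] at hx
  obtain ⟨i, rfl⟩ := hx
  have b1 := log_le_one (hρ.eigenvalues_pos i) ((EntAux.eig_le_tr hρ.posSemidef i).trans ht)
  have b2 := Real.log_le_log hm0 (EntAux.le_eig hρ.1 h2 i)
  rw [hm, Real.log_exp] at b2
  rw [Real.norm_eq_abs, abs_le]
  constructor <;> linarith

theorem exists_chi (n : ℕ) (hN : 0 < N) : ∃ K : ℝ, 0 ≤ K ∧ ∀ (L : ℕ) (j : Fin n) (δ : ℝ)
    (ρ : Matrix (Box n L) (Box n L) ℂ), 0 < δ → δ ≤ 1 →
      (ρ - δ • dg L (thw n N)).PosSemidef → tr ρ ≤ 2 →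
      ‖trace (dg L (thw n N) * cm (ann n L j) (mlog ρ))‖ ≤ K * (1 + Real.log (1 / δ)) := by
  obtain ⟨K, hK, hm⟩ := moment n hN
  have hb := bt_pos hN
  have a2 : 0 ≤ n * Real.log (N + 1) := mul_nonneg (Nat.cast_nonneg _) (Real.log_nonneg (by linarith))
  refine ⟨(N + 1) / N * (1 + bt N + n * Real.log (N + 1)) * K, by positivity,
    fun L j δ ρ h0 h1 h ht => ?_⟩
  have a1 : 0 ≤ Real.log (1 / δ) := Real.log_nonneg ((one_le_div h0).2 h1)
  have hρ := pd_of hN h0 h
  have hX := one_sub_psd hρ ht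
  have hT := (th_posDef (n := n) (L := L) hN).posSemidef
  have hY : (dg L (fun k => 1 - Real.log (δ * thw n N k)) - (1 - mlog ρ)).PosSemidef := by
    have := mlog_mono ((th_posDef hN).smul h0) h
    rw [smul_dg, dg, mlog_diagonal] at this
    rwa [← dg_sub, dg_one, sub_sub_sub_cancel_left]
  have hw : ann n L j * dg L (thw n N) = (N / (N + 1)) • (dg L (thw n N) * ann n L j) := by
    have := sub_eq_zero.1 (wop_th (L := L) hN j)
    rw [div_eq_inv_mul, ← smul_smul, ← this, smul_smul, inv_mul_cancel₀ (by positivity), one_smul]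
  have hw' : (ann n L j)ᴴ * dg L (thw n N) * ann n L j =
      dg L fun k => (N + 1) / N * (k j * thw n N k) := by
    rw [← smul_dg, ← dg_mul, ← ann_ct_mul, Matrix.mul_assoc, Matrix.mul_assoc, hw,
      Matrix.mul_smul, smul_smul, div_mul_div_cancel₀ hN.ne', div_self (by positivity), one_smul]
  have e1 : trace (dg L (thw n N) * cm (ann n L j) (mlog ρ)) =
      -((N + 1)⁻¹ • trace (dg L (thw n N) * ann n L j * (1 - mlog ρ))) := by
    have e2 : cm (ann n L j) (mlog ρ) =
        (1 - mlog ρ) * ann n L j - ann n L j * (1 - mlog ρ) := by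
      rw [cm]; noncomm_ring
    rw [e2, Matrix.mul_sub, trace_sub, ← Matrix.mul_assoc, trace_mul_cycle, hw, Matrix.smul_mul,
      trace_smul, ← Matrix.mul_assoc, ← neg_smul]
    nth_rw 2 [← one_smul ℝ (trace (dg L (thw n N) * ann n L j * (1 - mlog ρ)))]
    rw [← sub_smul]
    congr 1
    field_simp
    ring
  have c1 := cs_tr hT hX (ann n L j)
  have c2 := tr_mul_nonneg hT hY
  have c3 := tr_mul_nonneg (hT.conjTranspose_mul_mul_same (ann n L j)) hY
  rw [Matrix.mul_sub, P371.kfam_tr_sub, dg_mul, tr_dg'] at c2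
  rw [Matrix.mul_sub, P371.kfam_tr_sub] at c3
  nth_rw 1 [hw'] at c3
  rw [dg_mul, tr_dg'] at c3
  have c4 : ∑ k : Box n L, thw n N (val k) * (1 - Real.log (δ * thw n N (val k))) +
      ∑ k : Box n L, (N + 1) / N * (val k j * thw n N (val k)) *
        (1 - Real.log (δ * thw n N (val k))) ≤
      (N + 1) / N * (1 + bt N + n * Real.log (N + 1)) * K * (1 + Real.log (1 / δ)) := by
    have c5 := mul_le_mul_of_nonneg_left (hm L) (show 0 ≤ (N + 1) / N *
      (1 + bt N + n * Real.log (N + 1)) * (1 + Real.log (1 / δ)) by positivity)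
    rw [Finset.mul_sum] at c5
    rw [← Finset.sum_add_distrib, mul_right_comm]
    refine le_trans (Finset.sum_le_sum fun k _ => ?_) c5
    have d0 := thw_pos hN (val k)
    have d1 : (val k j : ℝ) ≤ tot (val k) := by exact_mod_cast le_tot _ j
    have d2 : 1 ≤ (N + 1) / N := (one_le_div hN).2 (by linarith)
    have d3 : (0 : ℝ) ≤ val k j := Nat.cast_nonneg _
    rw [Real.log_mul h0.ne' d0.ne', log_thw hN, one_div, Real.log_inv] at *
    generalize (tot (val k) : ℝ) = t at *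
    generalize (val k j : ℝ) = s at *
    generalize thw n N (val k) = w at *
    generalize (N + 1) / N = r at *
    generalize n * Real.log (N + 1) = c at *
    generalize Real.log δ = l at *
    generalize bt N = b at *
    have ht0 : 0 ≤ t := d3.trans d1
    have f1 : 1 + r * s ≤ r * (1 + t) := by nlinarith
    have f2 : 1 - (l + -(b * t + c)) ≤ (1 + b + c) * (1 + -l) * (1 + t) := by
      have g1 : 1 + b * t + c ≤ (1 + b + c) * (1 + t) := by nlinarith [mul_nonneg a2 ht0]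
      have g2 : 1 ≤ (1 + b + c) * (1 + t) := by nlinarith [mul_nonneg hb.le ht0]
      nlinarith [mul_le_mul_of_nonneg_left g2 a1]
    have f3 : 0 ≤ 1 - (l + -(b * t + c)) := by nlinarith [mul_nonneg hb.le ht0]
    have f4 := mul_le_mul_of_nonneg_left (mul_le_mul f1 f2 f3 (by positivity)) d0.le
    linarith
  rw [e1, norm_neg, norm_smul, Real.norm_eq_abs, abs_of_pos (by positivity)]
  have c6 : (N + 1)⁻¹ ≤ 2 := (inv_le_one_of_one_le₀ (by linarith)).trans (by norm_num)
  have c7 := mul_le_mul_of_nonneg_right c6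
    (norm_nonneg (trace (dg L (thw n N) * ann n L j * (1 - mlog ρ))))
  linarith

theorem exists_Sf_th (n : ℕ) (hN : 0 < N) : ∃ K : ℝ, 0 ≤ K ∧ ∀ (L : ℕ) (δ : ℝ), 0 < δ → δ ≤ 1 →
    Sf (δ • dg L (thw n N)) ≤ δ * (K + Real.log (1 / δ)) := by
  obtain ⟨K, hK, hm⟩ := moment n hN
  have hb := bt_pos hN
  have a2 : 0 ≤ n * Real.log (N + 1) := mul_nonneg (Nat.cast_nonneg _) (Real.log_nonneg (by linarith))
  refine ⟨bt N * K + n * Real.log (N + 1), by positivity, fun L δ h0 h1 => ?_⟩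
  have a1 : 0 ≤ Real.log (1 / δ) := Real.log_nonneg ((one_le_div h0).2 h1)
  rw [smul_dg, dg, Sf, trf, EntAux.cfc_diagonal, EntAux.tr_diagonal]
  have c1 := mul_le_mul_of_nonneg_left (hm L) (mul_pos h0 hb).le
  have c2 := mul_le_mul_of_nonneg_left (sum_thw_le (n := n) (L := L) hN)
    (show 0 ≤ δ * (n * Real.log (N + 1) + Real.log (1 / δ)) by positivity)
  have c3 := add_le_add c1 c2
  rw [Finset.mul_sum, Finset.mul_sum, ← Finset.sum_add_distrib] at c3
  refine le_trans (Finset.sum_le_sum fun k _ => ?_) (c3.trans (le_of_eq (by ring)))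
  have d0 := thw_pos hN (val k)
  rw [Real.negMulLog, Real.log_mul h0.ne' d0.ne', log_thw hN, one_div, Real.log_inv]
  have d1 : (tot (val k) : ℝ) ≤ (1 + (tot (val k) : ℝ)) ^ 2 := by
    nlinarith [sq_nonneg (tot (val k) : ℝ), (Nat.cast_nonneg (tot (val k)) : (0 : ℝ) ≤ _)]
  have d2 := mul_le_mul_of_nonneg_left d1 (mul_pos (mul_pos h0 hb) d0).le
  linarith

end Vale.Agent.P369
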